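import Vale.Agent.P139.N

/-! P139 part X, definitions (owner helper53, FROZEN). See PROOF.md section X.
All equations are written as `PY ν ℓ y = t` (so `t = X s`); the ladder `y_j = lad ν j y` satisfies
`PY (ν + j) ℓ y_j = lad ν j t`. -/

noncomputable section

open MeasureTheory Filter Topology Set Complex Asymptotics
open scoped ComplexConjugate ContDiff

namespace Vale.Agent.P139

/-- The datum `(y, Λ y)` of `y = X^(5/2) f`, divided by `X^(5/2)`. -/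
def dat (f : ℝ → ℂ) (X : ℝ) : ℂ × ℂ := (f X, Lam f X + 5 / 2 * f X)

def dotR (r d : ℂ × ℂ) : ℂ := r.1 * d.1 + r.2 * d.2

/-- The level zero parameter `λ + a - i β - 5/2`. -/
def Prof.nu {m : ℕ} (Q : Prof m) (lam : ℂ) : ℂ := lam + nu0 m Q.β - 5 / 2

def Prof.U1 {m : ℕ} (Q : Prof m) (X : ℝ) : ℂ := X * Q.V1 X

def Prof.U2 {m : ℕ} (Q : Prof m) (X : ℝ) : ℂ := X * Q.V2 X

namespace Xp

/-- The ladder `y_(j+1) = (Λ + ν + j) y_j`. -/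
def lad (ν : ℂ) : ℕ → (ℝ → ℂ) → ℝ → ℂ
  | 0, u => u
  | j + 1, u => fun X => Lam (lad ν j u) X + (ν + j) * lad ν j u X

theorem x_lad_zero (ν : ℂ) (u : ℝ → ℂ) : lad ν 0 u = u := rfl

theorem x_lad_succ (ν : ℂ) (j : ℕ) (u : ℝ → ℂ) :
    lad ν (j + 1) u = fun X => Lam (lad ν j u) X + (ν + j) * lad ν j u X := rfl

/-- The free operator. -/
def PY (ν : ℂ) (ℓ : ℝ) (y : ℝ → ℂ) (X : ℝ) : ℂ :=
  Lam (Lam y) X - ℓ ^ 2 * y X + I * X * (Lam y X + ν * y X)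

/-- `n` times continuously differentiable on the half line. -/
def Cn (n : ℕ) (u : ℝ → ℂ) : Prop := ContDiffOn ℝ n u (Ioi 0)

/-- Symbols: `Λ^j u = O(X^r)` for `j ≤ n`. -/
def Sy (r : ℝ) : ℕ → (ℝ → ℂ) → Prop
  | 0, u => u =O[atTop] fun X : ℝ => X ^ r
  | n + 1, u => (u =O[atTop] fun X : ℝ => X ^ r) ∧ (∀ᶠ X in atTop, DifferentiableAt ℝ u X) ∧
      Sy r n (Lam u)

/-- `(X / X0) ^ κ u`. -/
def pw (X0 : ℝ) (κ : ℂ) (u : ℝ → ℂ) (X : ℝ) : ℂ := ((X / X0 : ℝ) : ℂ) ^ κ * u X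

/-- `(α Λ + γ) u`. -/
def lin (α γ : ℂ) (u : ℝ → ℂ) (X : ℝ) : ℂ := α * Lam u X + γ * u X

/-- The coupling through the potentials. -/
def cpl (U1 U2 y y' : ℝ → ℂ) (X : ℝ) : ℂ := U1 X * y X + U2 X * conj (y' X)

def Sol (ν : ℂ) (ℓ : ℝ) (y t : ℝ → ℂ) : Prop := Cn 10 y ∧ ∀ X, 0 < X → PY ν ℓ y X = t X

/-- Decay at level four. -/
def Dec (ν : ℂ) (y : ℝ → ℂ) : Prop :=
  Tendsto (lad ν 4 y) atTop (𝓝 0) ∧ Tendsto (Lam (lad ν 4 y)) atTop (𝓝 0)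

def HH (ν : ℂ) (y : ℝ → ℂ) (X : ℝ) : ℝ :=
  ∑ i ∈ Finset.range 5, ‖lad ν i y X‖ ^ 2 / X ^ (2 * (4 - i))

def HB (ν : ℂ) (y : ℝ → ℂ) (X : ℝ) : ℝ := HH ν y X + ‖Lam (lad ν 4 y) X‖ ^ 2 / X ^ 2

/-- The integral of `d` over `[X0, ∞)` is at most `S`. -/
def L2 (d : ℝ → ℝ) (X0 S : ℝ) : Prop := ∀ X1, X0 ≤ X1 → ∫ Y in X0..X1, d Y ≤ S

/-- Size of the datum at level `j`. -/
def rr (s : ℝ) (ν : ℂ) (y : ℝ → ℂ) (X : ℝ) (j : ℕ) : ℝ :=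
  s * ‖lad ν j y X‖ + ‖Lam (lad ν j y) X‖

/-- Small potentials `U1 = X V1`, `U2 = X V2`. -/
structure Coef (X0 ε β : ℝ) (U1 U2 : ℝ → ℂ) : Prop where
  c1 : ∀ n, Cn n U1
  c2 : ∀ n, Cn n U2
  b1 : ∀ j ≤ 4, ∀ X, X0 ≤ X → ‖lad 0 j U1 X‖ ≤ ε / X ^ j
  b2 : ∀ j ≤ 4, ∀ X, X0 ≤ X → ‖lad (-(2 * I * β)) j U2 X‖ ≤ ε / X ^ j
  s1 : ∀ j n : ℕ, Sy (-(j : ℝ)) n (lad 0 j U1)
  s2 : ∀ j n : ℕ, Sy (-(j : ℝ)) n (lad (-(2 * I * β)) j U2)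

/-- The four component system of `ext_gen`. -/
structure G4 (U1 U2 : ℝ → ℂ) (ν : ℂ) (ℓ τ : ℝ) (κ : ℂ) (w w' E E' : ℝ → ℂ) : Prop where
  sw : Sol ν ℓ w fun X => cpl U1 U2 w w' X + lin (2 * κ) (-κ ^ 2) w X + lin (-2) (κ - τ) E X
  sw' : Sol ν ℓ w' fun X => cpl U1 U2 w' w X + lin (2 * conj κ) (-conj κ ^ 2) w' X +
    lin (-2) (conj κ - τ) E' X
  sE : Sol ν ℓ E fun X => cpl U1 U2 E E' X + lin (2 * (-τ)) (-(-τ) ^ 2) E X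
  sE' : Sol ν ℓ E' fun X => cpl U1 U2 E' E X + lin (2 * (-τ)) (-(-τ) ^ 2) E' X

theorem G4.x_swap {U1 U2 : ℝ → ℂ} {ν : ℂ} {ℓ τ : ℝ} {κ : ℂ} {w w' E E' : ℝ → ℂ}
    (h : G4 U1 U2 ν ℓ τ κ w w' E E') : G4 U1 U2 ν ℓ τ (conj κ) w' w E' E :=
  ⟨h.sw', by simpa only [conj_conj] using h.sw, h.sE', h.sE⟩

theorem x_par_swap {ν ν' : ℂ} {β : ℝ} (h : ν + 2 * I * β = conj ν') :
    ν' + 2 * I * β = conj ν := by
  have := congrArg conj h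
  simp only [map_add, map_mul, conj_I, conj_ofReal, conj_conj, map_ofNat] at this
  rw [← this]
  ring

theorem x_par_re {ν ν' : ℂ} {β : ℝ} (h : ν + 2 * I * β = conj ν') : ν'.re = ν.re := by
  have := congrArg re h
  simpa using this.symm

end Xp

end Vale.Agent.P139
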