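import Vale.Agent.P139.X.Coef

/-! P139 X/Conv: from the radial equation to the free operator.
Plan: `x_swap`: conjugate the equations (`deriv.star` twice, `iteratedDeriv` of a conjugate by induction,
`V1` is real). `x_conv`: `x_PY_pw` with `κ = 5/2`, `x_Lam_pw`, `x_Lam_Lam`, `x_conj_pow`
(`conj (5/2) = 5/2`); multiply `odef` by `X`; `ℓ² = l (l + 10) / 4 + 25 / 4`; `linear_combination`.
`x_conv_Sy`: `x_Sy_iter`, `Sy.x_pw`. `x_ex_k`: `k = log (X / X0)` if `d = 0`
(`isLittleO_log_rpow_atTop`), else `k = ((X / X0) ^ d - 1) / d`; `x_Sy_ode`. -/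

noncomputable section

open MeasureTheory Filter Topology Set Complex Asymptotics
open scoped ComplexConjugate ContDiff

namespace Vale.Agent.P139.Xp

variable {m l : ℕ} {Q : Prof m} {lam : ℂ} {f g ef eg : ℝ → ℂ} {X0 : ℝ}

theorem x_swap (h : Q.RSol l lam f g ef eg) :
    Q.RSol l (conj lam) (fun Y => conj (g Y)) (fun Y => conj (f Y)) (fun Y => conj (eg Y))
      (fun Y => conj (ef Y)) := by
  have d1 : ∀ u : ℝ → ℂ, deriv (fun Y => conj (u Y)) = fun X => conj (deriv u X) :=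
    fun u => deriv.star'
  have d2 : ∀ (j : ℕ) (u : ℝ → ℂ),
      iteratedDeriv j (fun Y => conj (u Y)) = fun X => conj (iteratedDeriv j u X) := by
    intro j u
    induction j with
    | zero => simp
    | succ j ih => rw [iteratedDeriv_succ, ih, d1, iteratedDeriv_succ]
  have v1 : ∀ X, conj (Q.V1 X) = Q.V1 X := fun X => by simp [Prof.V1]
  refine ⟨Cn.x_conj (n := 10) h.sg, Cn.x_conj (n := 10) h.sf, fun X hX => ?_, fun X hX => ?_, ?_,
    fun j hj => ?_⟩
  · have := congrArg conj (h.odeg X hX)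
    simp only [map_add, map_sub, map_mul, map_div₀, map_neg, conj_ofReal, conj_I, map_ofNat,
      map_natCast, v1, conj_conj] at this
    rw [d1, d1]
    linear_combination this
  · have := congrArg conj (h.odef X hX)
    simp only [map_add, map_sub, map_mul, map_div₀, conj_ofReal, conj_I, map_ofNat,
      map_natCast, v1] at this
    rw [d1, d1]
    linear_combination this
  · obtain ⟨C, hC⟩ := h.at0
    refine ⟨C, fun X hX => ?_⟩
    simp only [d1, Complex.norm_conj]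
    exact ⟨(hC X hX).2.2.1, (hC X hX).2.2.2, (hC X hX).1, (hC X hX).2.1⟩
  · obtain ⟨C, hC⟩ := h.atInf j hj
    refine ⟨C, fun X hX => ?_⟩
    simp only [d2, Complex.norm_conj]
    exact (hC X hX).symm

theorem x_conv (h : Q.RSol l lam f g ef eg) (h0 : 0 < X0) :
    Sol (Q.nu lam) ((l + 5) / 2) (pw X0 (5 / 2) f) fun X =>
      cpl Q.U1 Q.U2 (pw X0 (5 / 2) f) (pw X0 (5 / 2) fun Y => conj (g Y)) X +
        I * X * pw X0 (5 / 2) ef X := by
  have hf : Cn 10 f := h.sf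
  refine ⟨hf.x_pw h0 _, fun X hX => ?_⟩
  have hX' : (X : ℂ) ≠ 0 := ofReal_ne_zero.2 hX.ne'
  have e : (X : ℂ) * (l * (l + 10) / (4 * X)) = l * (l + 10) / 4 := by field_simp
  have c5 : conj (5 / 2 : ℂ) = 5 / 2 := by rw [map_div₀, map_ofNat, map_ofNat]
  rw [x_PY_pw (hf.x_mono (by omega)) h0 hX]
  simp only [lin, PY]
  rw [x_Lam_pw (hf.x_diff hX) h0 hX, x_Lam_Lam (hf.x_mono (by omega)) hX]
  simp only [cpl, pw, map_mul, x_conj_pow h0 hX, c5, conj_conj, Lam, Prof.U1, Prof.U2, Prof.nu, nu0]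
  generalize ((X / X0 : ℝ) : ℂ) ^ (5 / 2 : ℂ) = ρ
  push_cast
  linear_combination (ρ * X) * h.odef X hX + (ρ * f X) * e - (ρ * X * f X * Q.β) * I_mul_I

theorem x_conv_Sy (h : Q.RSol l lam f g ef eg) (h0 : 0 < X0) :
    Sy (5 / 2) 10 (pw X0 (5 / 2) f) := by
  have := (x_Sy_iter (N := 10) h.sf fun j hj =>
    (h.atInf j hj).imp fun C hC X hX => (hC X hX).1).x_pw h0 (5 / 2)
  exact this.x_mono_r (by norm_num)

theorem x_dat (h : Q.RSol l lam f g ef eg) (h0 : 0 < X0) :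
    (pw X0 (5 / 2) f X0, Lam (pw X0 (5 / 2) f) X0) = dat f X0 := by
  have hf : Cn 10 f := h.sf
  rw [x_pw_self h0, x_Lam_pw (hf.x_diff h0) h0 h0, div_self h0.ne', ofReal_one, one_cpow, one_mul]
  rfl

theorem x_nu_par (Q : Prof m) (lam : ℂ) :
    Q.nu lam + 2 * I * Q.β = conj (Q.nu (conj lam)) := by
  simp only [Prof.nu, nu0, map_add, map_sub, map_mul, map_div₀, conj_ofReal, conj_I, map_ofNat,
    conj_conj]
  ring

theorem x_nu_re (Q : Prof m) (lam : ℂ) : (Q.nu lam).re = lam.re + aa m - 5 / 2 := by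
  simp [Prof.nu, nu0]

theorem x_nu_im (Q : Prof m) (lam : ℂ) : (Q.nu lam).im = lam.im - Q.β := by
  simp [Prof.nu, nu0, sub_eq_add_neg]

theorem x_ex_k (h0 : 0 < X0) {d : ℂ} (hd : ‖d‖ ≤ 1 / 8) : ∃ k : ℝ → ℂ, (∀ n, Cn n k) ∧
    k X0 = 0 ∧ (∀ X, 0 < X → Lam k X = d * k X + 1) ∧
    (∀ X, 0 < X → ((X / X0 : ℝ) : ℂ) ^ d = d * k X + 1) ∧ ∀ n, Sy (1 / 4) n k := by
  have one : ∀ r : ℝ, 0 ≤ r → (fun _ : ℝ => (1 : ℂ)) =O[atTop] fun X : ℝ => X ^ r := fun r hr =>
    IsBigO.of_bound 1 ((eventually_ge_atTop 1).mono fun X hX => by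
      rw [norm_one, one_mul, Real.norm_of_nonneg (by positivity)]
      exact Real.one_le_rpow hX hr)
  suffices H : ∃ k : ℝ → ℂ, (∀ n, Cn n k) ∧ k X0 = 0 ∧ (∀ X, 0 < X → Lam k X = d * k X + 1) ∧
      (∀ X, 0 < X → ((X / X0 : ℝ) : ℂ) ^ d = d * k X + 1) ∧
      k =O[atTop] fun X : ℝ => X ^ (1 / 4 : ℝ) by
    obtain ⟨k, a1, a2, a3, a4, a5⟩ := H
    exact ⟨k, a1, a2, a3, a4, x_Sy_ode (by norm_num) a5 (fun X hX => (a1 1).x_diff hX) a3⟩
  by_cases hd0 : d = 0
  · subst hd0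
    refine ⟨fun X => (Real.log X : ℂ) - Real.log X0, fun n => ?_, sub_self _, fun X hX => ?_,
      fun X _ => by simp, ?_⟩
    · exact Cn.x_sub (ofRealCLM.contDiff.comp_contDiffOn
        (Real.contDiffOn_log.mono fun X hX => ne_of_gt hX)) (x_Cn_const _ _)
    · have := ((Real.hasDerivAt_log hX.ne').ofReal_comp.sub_const (Real.log X0 : ℂ)).deriv
      have hX' : (X : ℂ) ≠ 0 := ofReal_ne_zero.2 hX.ne'
      simp only [Lam, this]
      simp [hX']
    · refine IsBigO.sub ?_ (((one _ (by norm_num)).const_mul_left _).congr_left fun _ => mul_one _)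
      exact isBigO_ofReal_left.2 (isLittleO_log_rpow_atTop (by norm_num)).isBigO
  · refine ⟨fun X => d⁻¹ * (pw X0 d (fun _ => 1) X - 1),
      fun n => (((x_Cn_const n 1).x_pw h0 d).x_sub (x_Cn_const n 1)).x_cmul _,
      by simp [x_pw_self h0], fun X hX => ?_, fun X _ => ?_, ?_⟩
    · rw [x_Lam_cmul, x_Lam_sub (((x_Cn_const 1 1).x_pw h0 d).x_diff hX) (differentiableAt_const _),
        x_Lam_pw (differentiableAt_const _) h0 hX, x_Lam_const]
      simp only [pw]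
      field_simp
      ring
    · simp only [pw]
      field_simp
      ring
    · refine (IsBigO.sub ?_ (one _ (by norm_num))).const_mul_left _
      refine ((Sy.x_pw (n := 0) (one 0 le_rfl) h0 d).x_mono_r ?_).x_bigO
      linarith [Complex.re_le_norm d]

end Vale.Agent.P139.Xp
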