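import Vale.Agent.P139.X.Dec
import Vale.Agent.P139.X.Conv

/-! P139 X/Decay: `ext_decay`.
Plan: `x_back`: `v = pw 1 μ u` has `‖v' X‖ ≤ C X ^ (re μ + ρ - 1)` for `X ≥ A ≥ 1` (`x_Lam_pw`,
`Cn.x_hasDerivAt`); `image_norm_le_of_norm_deriv_right_le_deriv_boundary` with the boundary
`‖v A‖ + C / (re μ + ρ) * X ^ (re μ + ρ)`; divide by `X ^ re μ`. `x_unif`: compactness of `Icc 1 A`.
`x_ext_decay`: `y = pw 1 (5/2) f`, `y' = pw 1 (5/2) (conj g)`, `x_coef_any`, `x_conv`, `x_swap`, `x_conv_Sy`,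
`x_Sy_hom` give `y_4 = O(X^(-3/2))`; `x_back` four times (`re ν ≥ 5/2`); `Lam y = y_1 - ν y`;
`f = pw 1 (-5/2) y`, `Lam f = X^(-5/2) (Lam y - 5/2 y)`. Prove the bound for `f` first and apply it
to the swapped solution (`x_Lam_conj`). -/

noncomputable section

open MeasureTheory Filter Topology Set Complex Asymptotics
open scoped ComplexConjugate ContDiff

namespace Vale.Agent.P139.Xp

theorem x_back {u : ℝ → ℂ} {μ : ℂ} {ρ : ℝ} (h : Cn 1 u) (hρ : 0 < μ.re + ρ)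
    (hb : (fun X => Lam u X + μ * u X) =O[atTop] fun X : ℝ => X ^ ρ) :
    u =O[atTop] fun X : ℝ => X ^ ρ := by
  obtain ⟨C, hC0, hC⟩ := hb.exists_nonneg
  obtain ⟨A, hA⟩ := eventually_atTop.1 (hC.bound.and (eventually_ge_atTop 1))
  have hA1 : 1 ≤ A := (hA A le_rfl).2
  have hv := h.x_pw one_pos μ
  have nrm : ∀ Y : ℝ, 0 < Y → ‖((Y / 1 : ℝ) : ℂ) ^ μ‖ = Y ^ μ.re := fun Y hY => by
    rw [div_one, Complex.norm_cpow_eq_rpow_re_of_pos hY]
  have key : ∀ X, A ≤ X → ‖pw 1 μ u X‖ ≤ ‖pw 1 μ u A‖ + C / (μ.re + ρ) * X ^ (μ.re + ρ) := by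
    intro X hX
    have hB : ∀ Y : ℝ, 0 < Y → HasDerivAt
        (fun Y : ℝ => ‖pw 1 μ u A‖ + C / (μ.re + ρ) * Y ^ (μ.re + ρ))
        (C / (μ.re + ρ) * ((μ.re + ρ) * Y ^ (μ.re + ρ - 1))) Y := fun Y hY =>
      ((Real.hasDerivAt_rpow_const (Or.inl hY.ne')).const_mul _).const_add _
    refine image_norm_le_of_norm_deriv_right_le_deriv_boundary' (a := A) (b := X)
      (f' := fun Y => Lam (pw 1 μ u) Y / Y)
      (B := fun Y : ℝ => ‖pw 1 μ u A‖ + C / (μ.re + ρ) * Y ^ (μ.re + ρ))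
      (hv.x_cont.mono fun Y hY => lt_of_lt_of_le (by linarith) hY.1)
      (fun Y hY => (hv.x_hasDerivAt (by linarith [hY.1])).hasDerivWithinAt)
      (le_add_of_nonneg_right (by positivity))
      (fun Y hY => (hB Y (by linarith [hY.1])).continuousAt.continuousWithinAt)
      (fun Y hY => (hB Y (by linarith [hY.1])).hasDerivWithinAt) (fun Y hY => ?_) ⟨hX, le_rfl⟩
    have hY0 : 0 < Y := by linarith [hY.1]
    have b := (hA Y hY.1).1
    rw [Real.norm_of_nonneg (by positivity)] at b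
    rw [norm_div, x_Lam_pw (h.x_diff hY0) one_pos hY0, norm_mul, nrm Y hY0, Complex.norm_real,
      Real.norm_of_nonneg hY0.le, Real.rpow_sub_one hY0.ne', Real.rpow_add hY0]
    calc _ ≤ Y ^ μ.re * (C * Y ^ ρ) / Y := by gcongr
      _ = _ := by field_simp
  refine IsBigO.of_bound (‖pw 1 μ u A‖ + C / (μ.re + ρ)) ((eventually_ge_atTop A).mono
    fun X hX => ?_)
  have hX0 : 0 < X := by linarith
  have k := key X hX
  have h1 : 1 ≤ X ^ (μ.re + ρ) := Real.one_le_rpow (by linarith) hρ.le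
  have k2 : ‖pw 1 μ u X‖ ≤ (‖pw 1 μ u A‖ + C / (μ.re + ρ)) * X ^ (μ.re + ρ) := by
    linarith [le_mul_of_one_le_right (norm_nonneg (pw 1 μ u A)) h1]
  rw [Real.norm_of_nonneg (by positivity)]
  rw [Real.rpow_add hX0] at k2
  refine le_of_mul_le_mul_left ?_ (Real.rpow_pos_of_pos hX0 μ.re)
  rw [← nrm X hX0, ← norm_mul, nrm X hX0]
  exact k2.trans_eq (by ring)

theorem x_unif {u : ℝ → ℂ} {ρ : ℝ} (h : ContinuousOn u (Ioi 0))
    (hb : u =O[atTop] fun X : ℝ => X ^ ρ) : ∃ K, ∀ X : ℝ, 1 ≤ X → ‖u X‖ ≤ K * X ^ ρ := by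
  obtain ⟨C, hC0, hC⟩ := hb.exists_nonneg
  obtain ⟨A, hA⟩ := eventually_atTop.1 hC.bound
  have hc : ContinuousOn (fun X : ℝ => ‖u X‖ / X ^ ρ) (Icc 1 A) := by
    refine (h.mono fun Y hY => lt_of_lt_of_le one_pos hY.1).norm.div
      (continuousOn_id.rpow_const fun Y hY => Or.inl (by linarith [hY.1] : 0 < Y).ne') fun Y hY => ?_
    exact (Real.rpow_pos_of_pos (by linarith [hY.1]) _).ne'
  obtain ⟨M, hM⟩ := isCompact_Icc.exists_bound_of_continuousOn hc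
  refine ⟨max C M, fun X hX => ?_⟩
  have hp : 0 < X ^ ρ := Real.rpow_pos_of_pos (by linarith) _
  rcases le_total A X with h1 | h1
  · have := hA X h1
    rw [Real.norm_of_nonneg hp.le] at this
    exact this.trans (mul_le_mul_of_nonneg_right (le_max_left _ _) hp.le)
  · have := (le_abs_self _).trans (hM X ⟨hX, h1⟩)
    rw [div_le_iff₀ hp] at this
    exact this.trans (mul_le_mul_of_nonneg_right (le_max_right _ _) hp.le)

theorem x_Decay_one {m : ℕ} {Q : Prof m} {l : ℕ} {lam : ℂ} {f g : ℝ → ℂ}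
    (h : Q.RSol l lam f g 0 0) (h5 : 5 ≤ lam.re) : ∃ K, ∀ X : ℝ, 1 ≤ X →
      ‖f X‖ + ‖Lam f X‖ ≤ K * X ^ (-4 : ℝ) := by
  obtain ⟨X0, ε, hU⟩ := x_coef_any Q
  have ha : 0 ≤ aa m := by unfold aa; positivity
  have s1 : Sol (Q.nu lam) ((l + 5) / 2) (pw 1 (5 / 2) f)
      (cpl Q.U1 Q.U2 (pw 1 (5 / 2) f) (pw 1 (5 / 2) fun Y => conj (g Y))) := by
    have := x_conv h one_pos
    exact ⟨this.1, fun Y hY => by rw [this.2 Y hY]; simp [pw]⟩
  have s2 : Sol (Q.nu (conj lam)) ((l + 5) / 2) (pw 1 (5 / 2) fun Y => conj (g Y))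
      (cpl Q.U1 Q.U2 (pw 1 (5 / 2) fun Y => conj (g Y)) (pw 1 (5 / 2) f)) := by
    have := x_conv (x_swap h) one_pos
    exact ⟨this.1, fun Y hY => by rw [this.2 Y hY]; simp [pw]⟩
  have b4 := (x_Sy_hom hU (x_nu_par Q lam) s1 s2 (x_conv_Sy h one_pos)
    (x_conv_Sy (x_swap h) one_pos)).1.x_bigO
  have st : ∀ j : ℕ, j ≤ 3 → (lad (Q.nu lam) (j + 1) (pw 1 (5 / 2) f) =O[atTop]
      fun X : ℝ => X ^ (5 / 2 - 4 : ℝ)) → lad (Q.nu lam) j (pw 1 (5 / 2) f) =O[atTop]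
        fun X : ℝ => X ^ (5 / 2 - 4 : ℝ) := fun j hj hb =>
    x_back (μ := Q.nu lam + j) (Cn.x_lad (s1.1.x_mono (by omega)) _) (by
      rw [add_re, x_nu_re, natCast_re]
      linarith [Nat.cast_nonneg (α := ℝ) j]) hb
  have b1 := st 1 (by omega) (st 2 (by omega) (st 3 le_rfl b4))
  have b0 := st 0 (by omega) b1
  have y1 : Sy (5 / 2 - 4) 1 (pw 1 (5 / 2) f) :=
    ⟨b0, (eventually_gt_atTop 0).mono fun X hX => s1.1.x_diff hX,
      (b1.sub (b0.const_mul_left (Q.nu lam))).congr_left fun X => by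
        simp [x_lad_succ, x_lad_zero]⟩
  have y2 : Sy (-4) 1 f := by
    refine ((y1.x_pw one_pos (-(5 / 2))).x_mono_r (by norm_num)).x_congr' fun X hX => ?_
    simp only [pw]
    rw [← mul_assoc, ← x_pow_add one_pos hX]
    simp
  have hf : Cn 10 f := h.sf
  obtain ⟨K1, h1⟩ := x_unif hf.x_cont y2.x_bigO
  obtain ⟨K2, h2⟩ := x_unif hf.x_Lam.x_cont y2.x_Lam.x_bigO
  exact ⟨K1 + K2, fun X hX => by linarith [h1 X hX, h2 X hX]⟩

theorem x_ext_decay {m : ℕ} {Q : Prof m} {l : ℕ} {lam : ℂ} {f g : ℝ → ℂ}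
    (h : Q.RSol l lam f g 0 0) (h5 : 5 ≤ lam.re) : ∃ K, ∀ X : ℝ, 1 ≤ X →
      ‖f X‖ + ‖Lam f X‖ + ‖g X‖ + ‖Lam g X‖ ≤ K * X ^ (-4 : ℝ) := by
  obtain ⟨K1, h1⟩ := x_Decay_one h h5
  obtain ⟨K2, h2⟩ := x_Decay_one (g := fun Y => conj (f Y)) (by
    have := x_swap h
    simp only [Pi.zero_apply, map_zero] at this
    exact this) (by rwa [conj_re])
  refine ⟨K1 + K2, fun X hX => ?_⟩
  have a := h2 X hX
  rw [x_Lam_conj, Complex.norm_conj, Complex.norm_conj] at a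
  linarith [h1 X hX]

end Vale.Agent.P139.Xp
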