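import Vale.Agent.P139.X.Defs

/-! P139 X/Lyap: integrals over half lines and Lyapunov functions.
Plan: `ContinuousOn.intervalIntegrable` (`uIcc X X1 ⊆ Ioi 0`), `intervalIntegral.integral_mono_on`.
`x_lyap`: for `X ≤ X1 ≤ X2`, the integral of `d` up to `X1` is at most that up to `X2`
(`integral_mono_interval` or `integral_add_adjacent_intervals`), and
`intervalIntegral.integral_le_sub_of_hasDeriv_right_of_le` bounds the integral of `d - r` by
`E X2 - E X ≤ b X2 - E X`; let `X2 → ∞` (`ge_of_tendsto`). -/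

noncomputable section

open MeasureTheory Filter Topology Set Complex Asymptotics
open scoped ComplexConjugate ContDiff

namespace Vale.Agent.P139.Xp

variable {X : ℝ}

theorem x_Lyap_int {d : ℝ → ℝ} {X1 : ℝ} (hX : 0 < X) (h1 : X ≤ X1) (hd : ContinuousOn d (Ioi 0)) :
    IntervalIntegrable d volume X X1 := by
  refine (hd.mono ?_).intervalIntegrable
  rw [uIcc_of_le h1]
  exact fun Y hY => hX.trans_le hY.1

theorem L2.x_mono {d d' : ℝ → ℝ} {S S' c : ℝ} (h : L2 d X S) (hX : 0 < X)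
    (hd : ContinuousOn d (Ioi 0)) (hd' : ContinuousOn d' (Ioi 0)) (hc : 0 ≤ c)
    (hle : ∀ Y, X ≤ Y → d' Y ≤ c * d Y) (hS : c * S ≤ S') : L2 d' X S' := by
  intro X1 h1
  refine le_trans ?_ ((mul_le_mul_of_nonneg_left (h X1 h1) hc).trans hS)
  rw [← intervalIntegral.integral_const_mul]
  exact intervalIntegral.integral_mono_on h1 (x_Lyap_int hX h1 hd')
    ((x_Lyap_int hX h1 hd).const_mul c) fun Y hY => hle Y hY.1

theorem L2.x_add {d d' : ℝ → ℝ} {S S' : ℝ} (h : L2 d X S) (h' : L2 d' X S') (hX : 0 < X)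
    (hd : ContinuousOn d (Ioi 0)) (hd' : ContinuousOn d' (Ioi 0)) :
    L2 (fun Y => d Y + d' Y) X (S + S') := by
  intro X1 h1
  rw [intervalIntegral.integral_add (x_Lyap_int hX h1 hd) (x_Lyap_int hX h1 hd')]
  exact add_le_add (h X1 h1) (h' X1 h1)

/-- Lyapunov functions. -/
theorem x_lyap {E e d r b : ℝ → ℝ} {S : ℝ} (hX : 0 < X)
    (hE : ∀ Y, X ≤ Y → HasDerivAt E (e Y) Y) (hd : ContinuousOn d (Ioi 0))
    (hr : ContinuousOn r (Ioi 0)) (h0 : ∀ Y, X ≤ Y → 0 ≤ d Y)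
    (he : ∀ Y, X ≤ Y → d Y - r Y ≤ e Y) (hb : ∀ Y, X ≤ Y → E Y ≤ b Y)
    (hb0 : Tendsto b atTop (𝓝 0)) (hS : L2 r X S) : L2 d X (S - E X) := by
  intro X1 h1
  have lim : Tendsto (fun Y => b Y + (S - E X)) atTop (𝓝 (S - E X)) := by
    simpa using hb0.add_const (S - E X)
  refine ge_of_tendsto lim ((eventually_ge_atTop X1).mono fun X2 h2 => ?_)
  have h3 := h1.trans h2
  have i1 := x_Lyap_int hX h3 hd
  have i2 := x_Lyap_int hX h3 hr
  have a1 : ∫ Y in X..X1, d Y ≤ ∫ Y in X..X2, d Y :=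
    intervalIntegral.integral_mono_interval le_rfl h1 h2
      ((ae_restrict_mem measurableSet_Ioc).mono fun Y hY => h0 Y hY.1.le) i1
  have a2 : ∫ Y in X..X2, (d Y - r Y) ≤ E X2 - E X :=
    intervalIntegral.integral_le_sub_of_hasDeriv_right_of_le h3
      (fun Y hY => (hE Y hY.1).continuousAt.continuousWithinAt)
      (fun Y hY => (hE Y hY.1.le).hasDerivWithinAt)
      ((intervalIntegrable_iff_integrableOn_Icc_of_le h3).1 (i1.sub i2)) fun Y hY => he Y hY.1.le
  rw [intervalIntegral.integral_sub i1 i2] at a2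
  linarith [hS X2 h3, hb X2 h3]

end Vale.Agent.P139.Xp
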