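import Vale.Agent.P139.X.Lad2
import Vale.Agent.P139.X.Lyap

/-! P139 X/Cpl: bounds for the ladder of the coupling term; continuity and monotonicity tools.
Plan: `x_lad_cpl`: `x_lad_add`, `x_lad_mul` with `ν = 0 + ν` and `ν = -(2 i β) + conj ν'`,
`x_lad_conj`. The binomial coefficients are at most 6 for `j ≤ 4` (`interval_cases`, `decide`).
`x_cpl_sq`: the square of a sum of ten terms is at most ten times the sum of the squares
(`sq_sum_le_card_mul_sum_sq`, or expand `Finset.sum_range_succ` and `nlinarith`). -/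

noncomputable section

open MeasureTheory Filter Topology Set Complex Asymptotics
open scoped ComplexConjugate ContDiff

namespace Vale.Agent.P139.Xp

variable {X0 ε β X : ℝ} {U1 U2 y y' : ℝ → ℂ} {ν ν' : ℂ} {j : ℕ}

theorem x_lad_cpl (hU : Coef X0 ε β U1 U2) (hν : ν + 2 * I * β = conj ν') (h : Cn j y)
    (h' : Cn j y') (hX : 0 < X) : lad ν j (cpl U1 U2 y y') X =
      ∑ i ∈ Finset.range (j + 1), (j.choose i : ℂ) * (lad 0 (j - i) U1 X * lad ν i y X +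
        lad (-(2 * I * β)) (j - i) U2 X * conj (lad ν' i y' X)) := by
  have e : ν = -(2 * I * β) + conj ν' := by rw [← hν]; ring
  have h1 := x_lad_mul (hU.c1 j) h hX 0 ν
  have h2 := x_lad_mul (hU.c2 j) h'.x_conj hX (-(2 * I * β)) (conj ν')
  rw [zero_add] at h1
  rw [← e] at h2
  unfold cpl
  rw [x_lad_add ((hU.c1 j).x_mul h) ((hU.c2 j).x_mul h'.x_conj) hX, h1, h2,
    ← Finset.sum_add_distrib]
  simp only [x_lad_conj, mul_add]

theorem x_Cpl_le (hU : Coef X0 ε β U1 U2) (hν : ν + 2 * I * β = conj ν') (h : Cn j y)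
    (h' : Cn j y') (hj : j ≤ 4) (h0 : X0 ≤ X) (hX : 0 < X) : ‖lad ν j (cpl U1 U2 y y') X‖ ≤
      6 * ε * ∑ i ∈ Finset.range (j + 1),
        (‖lad ν i y X‖ / X ^ (j - i) + ‖lad ν' i y' X‖ / X ^ (j - i)) := by
  rw [x_lad_cpl hU hν h h' hX, Finset.mul_sum]
  refine (norm_sum_le _ _).trans (Finset.sum_le_sum fun i hi => ?_)
  have hi' := Finset.mem_range.1 hi
  have c6 : (j.choose i : ℝ) ≤ 6 := by
    have : j.choose i ≤ 6 := by
      have : i ≤ 4 := by omega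
      interval_cases j <;> interval_cases i <;> decide
    exact_mod_cast this
  have a1 := mul_le_mul_of_nonneg_right (hU.b1 (j - i) (by omega) X h0)
    (norm_nonneg (lad ν i y X))
  have a2 := mul_le_mul_of_nonneg_right (hU.b2 (j - i) (by omega) X h0)
    (norm_nonneg (lad ν' i y' X))
  rw [norm_mul, Complex.norm_natCast, mul_assoc (6 : ℝ)]
  refine mul_le_mul c6 ((norm_add_le _ _).trans ?_) (norm_nonneg _) (by norm_num)
  rw [norm_mul, norm_mul, Complex.norm_conj]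
  exact (add_le_add a1 a2).trans_eq (by ring)

theorem x_cpl_le (hU : Coef X0 ε β U1 U2) (hν : ν + 2 * I * β = conj ν') (h : Cn j y)
    (h' : Cn j y') (hj : j ≤ 4) (h0 : X0 ≤ X) (h1 : 1 ≤ X) : ‖lad ν j (cpl U1 U2 y y') X‖ ≤
      6 * ε * ∑ i ∈ Finset.range (j + 1), (‖lad ν i y X‖ + ‖lad ν' i y' X‖) := by
  have hε : 0 ≤ ε := by simpa using (norm_nonneg _).trans (hU.b1 0 (by omega) X h0)
  refine (x_Cpl_le hU hν h h' hj h0 (by linarith)).trans
    (mul_le_mul_of_nonneg_left (Finset.sum_le_sum fun i _ => ?_) (by positivity))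
  have := one_le_pow₀ (n := j - i) h1
  exact add_le_add (div_le_self (norm_nonneg _) this) (div_le_self (norm_nonneg _) this)

theorem x_cpl_sq (hU : Coef X0 ε β U1 U2) (hν : ν + 2 * I * β = conj ν') (h : Cn 4 y)
    (h' : Cn 4 y') (h0 : X0 ≤ X) (h2 : 2 ≤ X) : ‖lad ν 4 (cpl U1 U2 y y') X‖ ^ 2 / X ^ 2 ≤
      100 * ε ^ 2 * (HH ν y X + HH ν' y' X) := by
  have hX : 0 < X := by linarith
  have h1 := pow_le_pow_left₀ (norm_nonneg _) (x_Cpl_le hU hν h h' le_rfl h0 hX) 2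
  have h3 := sq_sum_le_card_mul_sum_sq (s := Finset.range 5)
    (f := fun i => ‖lad ν i y X‖ / X ^ (4 - i) + ‖lad ν' i y' X‖ / X ^ (4 - i))
  have h4 : ∑ i ∈ Finset.range 5, (‖lad ν i y X‖ / X ^ (4 - i) + ‖lad ν' i y' X‖ / X ^ (4 - i)) ^ 2 ≤
      2 * (HH ν y X + HH ν' y' X) := by
    rw [HH, HH, ← Finset.sum_add_distrib, Finset.mul_sum]
    refine Finset.sum_le_sum fun i _ => ?_
    rw [pow_mul', ← div_pow, ← div_pow]
    nlinarith [sq_nonneg (‖lad ν i y X‖ / X ^ (4 - i) - ‖lad ν' i y' X‖ / X ^ (4 - i))]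
  rw [Finset.card_range, Nat.cast_ofNat] at h3
  have h5 : 0 ≤ ε ^ 2 * (HH ν y X + HH ν' y' X) := by
    unfold HH
    positivity
  have h6 := mul_le_mul_of_nonneg_left (h3.trans (mul_le_mul_of_nonneg_left h4 (by norm_num)))
    (sq_nonneg (6 * ε))
  rw [mul_pow] at h1
  rw [div_le_iff₀ (by positivity)]
  have h7 := mul_le_mul_of_nonneg_left (pow_le_pow_left₀ zero_le_two h2 2) h5
  nlinarith

theorem x_HH_nonneg (ν : ℂ) (y : ℝ → ℂ) (X : ℝ) : 0 ≤ HH ν y X := by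
  refine Finset.sum_nonneg fun i _ => ?_
  rw [pow_mul]
  positivity

theorem x_HH_le_HB (ν : ℂ) (y : ℝ → ℂ) (X : ℝ) : HH ν y X ≤ HB ν y X := by
  exact le_add_of_nonneg_right (by positivity)

theorem x_HH_cont (h : Cn 4 y) (ν : ℂ) : ContinuousOn (HH ν y) (Ioi 0) := by
  refine continuousOn_finsetSum _ fun i hi => ?_
  have hi' := Finset.mem_range.1 hi
  exact ((Cn.x_lad (n := 0) (h.x_mono (by omega)) ν).x_cont.norm.pow 2).div
    (continuousOn_id.pow _) fun _ hY => pow_ne_zero _ (ne_of_gt hY)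

theorem x_HB_cont (h : Cn 5 y) (ν : ℂ) : ContinuousOn (HB ν y) (Ioi 0) := by
  exact (x_HH_cont (h.x_mono (by omega)) ν).add
    (((Cn.x_lad (n := 1) h ν).x_Lam.x_cont.norm.pow 2).div
      (continuousOn_id.pow _) fun _ hY => pow_ne_zero _ (ne_of_gt hY))

theorem x_lad4_le_HH (ν : ℂ) (y : ℝ → ℂ) (X : ℝ) : ‖lad ν 4 y X‖ ^ 2 ≤ HH ν y X := by
  have := Finset.single_le_sum (s := Finset.range 5) (a := 4)
    (f := fun i => ‖lad ν i y X‖ ^ 2 / X ^ (2 * (4 - i)))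
    (fun i _ => by rw [pow_mul]; positivity) (by simp)
  simpa [HH] using this

/-- The level four ladder of `(α Λ + γ) y`. -/
theorem x_lin_sq (h : Cn 5 y) (h1 : 1 ≤ X) (α γ : ℂ) :
    ‖lad ν 4 (lin α γ y) X‖ ^ 2 / X ^ 2 ≤ 2 * (‖α‖ ^ 2 + ‖γ‖ ^ 2) * HB ν y X := by
  have hX : 0 < X := by linarith
  rw [x_lad_lin h hX, lin]
  have a1 := norm_add_le (α * Lam (lad ν 4 y) X) (γ * lad ν 4 y X)
  rw [norm_mul, norm_mul] at a1
  have a2 : ‖α * Lam (lad ν 4 y) X + γ * lad ν 4 y X‖ ^ 2 ≤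
      2 * (‖α‖ ^ 2 * ‖Lam (lad ν 4 y) X‖ ^ 2 + ‖γ‖ ^ 2 * ‖lad ν 4 y X‖ ^ 2) := by
    refine (pow_le_pow_left₀ (norm_nonneg _) a1 2).trans ?_
    nlinarith [sq_nonneg (‖α‖ * ‖Lam (lad ν 4 y) X‖ - ‖γ‖ * ‖lad ν 4 y X‖)]
  refine (div_le_div_of_nonneg_right a2 (by positivity)).trans ?_
  have a3 : ‖lad ν 4 y X‖ ^ 2 / X ^ 2 ≤ HB ν y X :=
    (div_le_self (sq_nonneg _) (one_le_pow₀ h1)).trans
      ((x_lad4_le_HH ν y X).trans (x_HH_le_HB ν y X))
  have a4 : ‖Lam (lad ν 4 y) X‖ ^ 2 / X ^ 2 ≤ HB ν y X := le_add_of_nonneg_left (x_HH_nonneg ν y X)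
  rw [mul_div_assoc, add_div, mul_div_assoc, mul_div_assoc]
  linarith [mul_le_mul_of_nonneg_left a3 (sq_nonneg ‖γ‖), mul_le_mul_of_nonneg_left a4 (sq_nonneg ‖α‖)]

theorem x_lin_le (h : Cn (j + 1) y) (hX : 0 < X) (α γ : ℂ) :
    ‖lad ν j (lin α γ y) X‖ ≤ (‖α‖ + ‖γ‖) * rr 1 ν y X j := by
  rw [x_lad_lin h hX, lin, rr, one_mul]
  refine (norm_add_le _ _).trans ?_
  rw [norm_mul, norm_mul]
  linarith [mul_nonneg (norm_nonneg α) (norm_nonneg (lad ν j y X)),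
    mul_nonneg (norm_nonneg γ) (norm_nonneg (Lam (lad ν j y) X))]

theorem x_HH_comb (h : Cn 4 y) (h' : Cn 4 y') (hX : 0 < X) {τ : ℂ} (hτ : ‖τ‖ ≤ 1) :
    HH ν (fun X => τ * y X - y' X) X ≤ 2 * (HH ν y X + HH ν y' X) := by
  rw [HH, HH, HH, ← Finset.sum_add_distrib, Finset.mul_sum]
  refine Finset.sum_le_sum fun i hi => ?_
  have hi' := Finset.mem_range.1 hi
  rw [x_lad_sub ((h.x_cmul τ).x_mono (by omega)) (h'.x_mono (by omega)) hX, x_lad_cmul, ← add_div,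
    ← mul_div_assoc]
  refine div_le_div_of_nonneg_right ?_ (by positivity)
  have a1 := norm_sub_le (τ * lad ν i y X) (lad ν i y' X)
  rw [norm_mul] at a1
  refine (pow_le_pow_left₀ (norm_nonneg _) (a1.trans (add_le_add_left
    (mul_le_of_le_one_left (norm_nonneg _) hτ) _)) 2).trans ?_
  nlinarith [sq_nonneg (‖lad ν i y X‖ - ‖lad ν i y' X‖)]

theorem x_HH_le {s M : ℝ} (hs : 0 < s) (h1 : 1 ≤ X) (hM : ∀ j ≤ 4, rr s ν y X j ≤ M) :
    HH ν y X ≤ 5 * (M / s) ^ 2 := by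
  refine (Finset.sum_le_card_nsmul _ _ ((M / s) ^ 2) fun i hi => ?_).trans_eq (by simp)
  have hi' := Finset.mem_range.1 hi
  refine (div_le_self (sq_nonneg _) (one_le_pow₀ h1)).trans (pow_le_pow_left₀ (norm_nonneg _) ?_ 2)
  have := hM i (by omega)
  rw [le_div_iff₀ hs]
  unfold rr at this
  linarith [norm_nonneg (Lam (lad ν i y) X)]

theorem x_rr_nonneg {s : ℝ} (hs : 0 ≤ s) (ν : ℂ) (y : ℝ → ℂ) (X : ℝ) (j : ℕ) :
    0 ≤ rr s ν y X j := add_nonneg (mul_nonneg hs (norm_nonneg _)) (norm_nonneg _)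

end Vale.Agent.P139.Xp
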