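import Vale.Agent.P139.X.Sy2
import Vale.Agent.P139.X.Cpl

/-! P139 X/Dec: a priori decay at level four.
Plan: `x_Sy_cpl`: `x_lad_cpl`, `x_Sy_sum`, `Sy.x_mul` with `Coef.s1`, `s2`
(`-(j - i) + (r - i) = r - j`, `Nat.cast_sub`).
`x_dec`: prove by induction on `j ≤ 4` that `Sy (r - i) (10 - 2 j) (lad (ν a) i (u a))` for all
`i ≤ j` and `a`; by `Sol.x_lad`, `y_(j+1) = -I * ((t_j - Λ Λ y_j + ℓ² y_j) / X)` on the half line.
`x_Sy_hom`: `ι = Bool` or `Fin 2`; `x_dec_gen`: `Fin 4`, `x_lad_add`, `x_lad_lin`, `Sy.x_lin`. -/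

noncomputable section

open MeasureTheory Filter Topology Set Complex Asymptotics
open scoped ComplexConjugate ContDiff

namespace Vale.Agent.P139.Xp

variable {X0 ε β ℓ r : ℝ} {U1 U2 y y' : ℝ → ℂ} {ν ν' : ℂ} {j n : ℕ}

theorem x_Sy_cpl (hU : Coef X0 ε β U1 U2) (hν : ν + 2 * I * β = conj ν') (h : Cn j y)
    (h' : Cn j y') (hs : ∀ i ≤ j, Sy (r - i) n (lad ν i y))
    (hs' : ∀ i ≤ j, Sy (r - i) n (lad ν' i y')) :
    Sy (r - j) n (lad ν j (cpl U1 U2 y y')) := by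
  refine (x_Sy_sum (s := Finset.range (j + 1)) (w := fun i X => (j.choose i : ℂ) *
    (lad 0 (j - i) U1 X * lad ν i y X + lad (-(2 * I * β)) (j - i) U2 X * conj (lad ν' i y' X)))
    fun i hi => ?_).x_congr' fun X hX => x_lad_cpl hU hν h h' hX
  have hi' : i ≤ j := Nat.lt_succ_iff.1 (Finset.mem_range.1 hi)
  have e : -((j - i : ℕ) : ℝ) + (r - i) ≤ r - j := by
    rw [Nat.cast_sub hi']
    linarith
  exact ((((hU.s1 (j - i) n).x_mul (hs i hi')).x_add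
    ((hU.s2 (j - i) n).x_mul (hs' i hi').x_conj)).x_mono_r e).x_cmul _

theorem x_dec {ι : Type} (ν : ι → ℂ) (u t : ι → ℝ → ℂ)
    (hs : ∀ a, Sol (ν a) ℓ (u a) (t a)) (h0 : ∀ a, Sy r 10 (u a))
    (ht : ∀ j : ℕ, j ≤ 3 → ∀ n : ℕ, (∀ i ≤ j, ∀ a, Sy (r - i) (n + 1) (lad (ν a) i (u a))) →
      ∀ a, Sy (r - j) n (lad (ν a) j (t a))) (a : ι) :
    Sy (r - 4) 2 (lad (ν a) 4 (u a)) := by
  have key : ∀ j : ℕ, j ≤ 4 → ∀ i ≤ j, ∀ a, Sy (r - i) (10 - 2 * j) (lad (ν a) i (u a)) := by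
    intro j
    induction j with
    | zero =>
      intro _ i hi a
      rw [Nat.le_zero.1 hi]
      simpa [x_lad_zero] using h0 a
    | succ j ih =>
      intro hj i hi a
      have ih' := ih (by omega)
      rcases hi.lt_or_eq with hi | rfl
      · exact (ih' i (by omega) a).x_mono (by omega)
      have t1 := ht j (by omega) (10 - 2 * (j + 1))
        (fun i hi a => (ih' i hi a).x_mono (by omega)) a
      have y2 : Sy (r - j) (10 - 2 * (j + 1) + 1 + 1) (lad (ν a) j (u a)) :=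
        (ih' j le_rfl a).x_mono (by omega)
      have t2 := (((t1.x_sub y2.x_Lam.x_Lam).x_add
        ((y2.x_mono (by omega)).x_cmul ((ℓ : ℂ) ^ 2))).x_div).x_cmul (-I)
      refine (t2.x_mono_r (by push_cast; linarith)).x_congr' fun X hX => ?_
      have hX' : (X : ℂ) ≠ 0 := ofReal_ne_zero.2 hX.ne'
      rw [← (hs a).x_lad (by omega) hX]
      simp only [PY, x_lad_succ]
      field_simp
      linear_combination (X * (Lam (lad (ν a) j (u a)) X + (ν a + j) * lad (ν a) j (u a) X)) * I_mul_I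
  simpa using key 4 le_rfl 4 le_rfl a

theorem x_dec_of (hr : r < 4) (h : Sy (r - 4) 2 (lad ν 4 y)) : Dec ν y :=
  ⟨h.x_tendsto (by linarith), h.x_Lam.x_tendsto (by linarith)⟩

theorem x_Sy_hom (hU : Coef X0 ε β U1 U2) (hν : ν + 2 * I * β = conj ν')
    (h : Sol ν ℓ y (cpl U1 U2 y y')) (h' : Sol ν' ℓ y' (cpl U1 U2 y' y)) (hs : Sy r 10 y)
    (hs' : Sy r 10 y') : Sy (r - 4) 2 (lad ν 4 y) ∧ Sy (r - 4) 2 (lad ν' 4 y') := by
  have key := x_dec (ι := Bool) (ℓ := ℓ) (r := r) (fun a => cond a ν ν') (fun a => cond a y y')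
    (fun a => cond a (cpl U1 U2 y y') (cpl U1 U2 y' y)) (fun a => by cases a; exacts [h', h])
    (fun a => by cases a; exacts [hs', hs]) (fun j hj n H a => by
      have a1 : ∀ i ≤ j, Sy (r - i) n (lad ν i y) := fun i hi => (H i hi true).x_mono n.le_succ
      have a2 : ∀ i ≤ j, Sy (r - i) n (lad ν' i y') := fun i hi => (H i hi false).x_mono n.le_succ
      cases a
      · exact x_Sy_cpl hU (x_par_swap hν) (h'.1.x_mono (by omega)) (h.1.x_mono (by omega)) a2 a1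
      · exact x_Sy_cpl hU hν (h.1.x_mono (by omega)) (h'.1.x_mono (by omega)) a1 a2)
  exact ⟨key true, key false⟩

theorem x_dec_hom (hU : Coef X0 ε β U1 U2) (hν : ν + 2 * I * β = conj ν') (hr : r < 4)
    (h : Sol ν ℓ y (cpl U1 U2 y y')) (h' : Sol ν' ℓ y' (cpl U1 U2 y' y)) (hs : Sy r 10 y)
    (hs' : Sy r 10 y') : Dec ν y ∧ Dec ν' y' :=
  ⟨x_dec_of hr (x_Sy_hom hU hν h h' hs hs').1, x_dec_of hr (x_Sy_hom hU hν h h' hs hs').2⟩

theorem x_dec_gen (hU : Coef X0 ε β U1 U2) (hν : ν + 2 * I * β = conj ν) (hr : r < 4)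
    {τ : ℝ} {κ : ℂ} {w w' E E' : ℝ → ℂ} (h : G4 U1 U2 ν ℓ τ κ w w' E E') (h1 : Sy r 10 w)
    (h2 : Sy r 10 w') (h3 : Sy r 10 E) (h4 : Sy r 10 E') :
    Dec ν w ∧ Dec ν w' ∧ Dec ν E ∧ Dec ν E' := by
  have key := x_dec (ι := Fin 4) (ℓ := ℓ) (r := r) (fun _ => ν) ![w, w', E, E']
    ![fun X => cpl U1 U2 w w' X + lin (2 * κ) (-κ ^ 2) w X + lin (-2) (κ - τ) E X,
      fun X => cpl U1 U2 w' w X + lin (2 * conj κ) (-conj κ ^ 2) w' X + lin (-2) (conj κ - τ) E' X,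
      fun X => cpl U1 U2 E E' X + lin (2 * (-τ)) (-(-τ) ^ 2) E X,
      fun X => cpl U1 U2 E' E X + lin (2 * (-τ)) (-(-τ) ^ 2) E' X]
    (fun a => by fin_cases a; exacts [h.sw, h.sw', h.sE, h.sE'])
    (fun a => by fin_cases a; exacts [h1, h2, h3, h4]) (fun j hj n H a => by
      have c : ∀ {y : ℝ → ℂ}, Cn 10 y → Sy (r - j) (n + 1) (lad ν j y) → ∀ α γ : ℂ,
          Cn j (lin α γ y) ∧ Sy (r - j) n (lad ν j (lin α γ y)) := fun hy hs α γ =>
        ⟨(hy.x_mono (by omega)).x_lin _ _,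
          (hs.x_lin α γ).x_congr' fun X hX => x_lad_lin (hy.x_mono (by omega)) hX α γ⟩
      have d : ∀ {y y' : ℝ → ℂ}, Cn 10 y → Cn 10 y' → (∀ i ≤ j, Sy (r - i) (n + 1) (lad ν i y)) →
          (∀ i ≤ j, Sy (r - i) (n + 1) (lad ν i y')) →
          Cn j (cpl U1 U2 y y') ∧ Sy (r - j) n (lad ν j (cpl U1 U2 y y')) := fun hy hy' s s' =>
        ⟨(hU.c1 j).x_cpl (hU.c2 j) (hy.x_mono (by omega)) (hy'.x_mono (by omega)),
          x_Sy_cpl hU hν (hy.x_mono (by omega)) (hy'.x_mono (by omega))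
            (fun i hi => (s i hi).x_mono n.le_succ) fun i hi => (s' i hi).x_mono n.le_succ⟩
      have e : ∀ {a b : ℝ → ℂ}, Cn j a ∧ Sy (r - j) n (lad ν j a) →
          Cn j b ∧ Sy (r - j) n (lad ν j b) →
          Cn j (fun X => a X + b X) ∧ Sy (r - j) n (lad ν j fun X => a X + b X) := fun ha hb =>
        ⟨ha.1.x_add hb.1, (ha.2.x_add hb.2).x_congr' fun X hX => x_lad_add ha.1 hb.1 hX⟩
      have s0 : ∀ i ≤ j, Sy (r - i) (n + 1) (lad ν i w) := fun i hi => H i hi 0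
      have s1 : ∀ i ≤ j, Sy (r - i) (n + 1) (lad ν i w') := fun i hi => H i hi 1
      have s2 : ∀ i ≤ j, Sy (r - i) (n + 1) (lad ν i E) := fun i hi => H i hi 2
      have s3 : ∀ i ≤ j, Sy (r - i) (n + 1) (lad ν i E') := fun i hi => H i hi 3
      fin_cases a
      · exact (e (e (d h.sw.1 h.sw'.1 s0 s1) (c h.sw.1 (s0 j le_rfl) _ _))
          (c h.sE.1 (s2 j le_rfl) _ _)).2
      · exact (e (e (d h.sw'.1 h.sw.1 s1 s0) (c h.sw'.1 (s1 j le_rfl) _ _))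
          (c h.sE'.1 (s3 j le_rfl) _ _)).2
      · exact (e (d h.sE.1 h.sE'.1 s2 s3) (c h.sE.1 (s2 j le_rfl) _ _)).2
      · exact (e (d h.sE'.1 h.sE.1 s3 s2) (c h.sE'.1 (s3 j le_rfl) _ _)).2)
  exact ⟨x_dec_of hr (key 0), x_dec_of hr (key 1), x_dec_of hr (key 2), x_dec_of hr (key 3)⟩

end Vale.Agent.P139.Xp
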