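import Vale.Agent.P139.X.Conv

/-! P139 X/GenSys: the four component system.
Plan: `ρ = X / X0`, `d = κ + τ`, `k` from `x_ex_k`, `w2 = pw X0 (-τ) e`, `E = c w2`, `E' = conj c w2`,
`w = pw X0 κ y - k E`, `w' = pw X0 (conj κ) y' - conj k E'`. One lemma for `E` (`x_PY_cmul`, `x_PY_pw`,
`x_conj_pow`) and one for `w` (`x_PY_sub`, `x_PY_pw`, `x_PY_mul`, `Λ k = d k + 1 = ρ^d`,
`Λ Λ k = d (d k + 1)`, `ρ^κ = ρ^d ρ^(-τ)`, `Lam w = Lam (pw κ y) - (Λ k E + k Λ E)`), each used twice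
(the primed data satisfy the same hypotheses with `κ, c, k` conjugated). The identity for `w` is
`linear_combination` / `ring` after naming the atoms. Symbols: `Sy.x_pw`, `Sy.x_mul`, `Sy.x_mono_r`. -/

noncomputable section

open MeasureTheory Filter Topology Set Complex Asymptotics
open scoped ComplexConjugate ContDiff

namespace Vale.Agent.P139.Xp

section
variable {X0 ℓ τ : ℝ} {U1 U2 y y' e k : ℝ → ℂ} {ν κ c : ℂ}

theorem x_GenSys_E (h0 : 0 < X0) (he : Sol (ν + -τ) ℓ e (cpl U1 U2 e e)) (c : ℂ) :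
    Sol ν ℓ (fun X => c * pw X0 (-τ) e X) fun X =>
      cpl U1 U2 (fun X => c * pw X0 (-τ) e X) (fun X => conj c * pw X0 (-τ) e X) X +
        lin (2 * (-τ)) (-(-τ) ^ 2) (fun X => c * pw X0 (-τ) e X) X := by
  refine ⟨(he.1.x_pw h0 _).x_cmul c, fun X hX => ?_⟩
  rw [x_PY_cmul, x_PY_pw (he.1.x_mono (by omega)) h0 hX, he.2 X hX]
  simp only [lin, x_Lam_cmul]
  simp only [cpl, pw, map_mul, x_conj_pow h0 hX, map_neg, conj_ofReal, conj_conj]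
  ring

theorem x_GenSys_w (h0 : 0 < X0) (he : Sol (ν + -τ) ℓ e (cpl U1 U2 e e))
    (hy : Sol (ν + κ) ℓ y fun X => cpl U1 U2 y y' X + I * X * (c * e X)) (hk : Cn 10 k)
    (k1 : ∀ X, 0 < X → Lam k X = (κ + τ) * k X + 1)
    (k2 : ∀ X, 0 < X → ((X / X0 : ℝ) : ℂ) ^ (κ + τ) = (κ + τ) * k X + 1) :
    Sol ν ℓ (fun X => pw X0 κ y X - k X * (c * pw X0 (-τ) e X)) fun X =>
      cpl U1 U2 (fun X => pw X0 κ y X - k X * (c * pw X0 (-τ) e X))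
          (fun X => pw X0 (conj κ) y' X - conj (k X) * (conj c * pw X0 (-τ) e X)) X +
        lin (2 * κ) (-κ ^ 2) (fun X => pw X0 κ y X - k X * (c * pw X0 (-τ) e X)) X +
          lin (-2) (κ - τ) (fun X => c * pw X0 (-τ) e X) X := by
  have hE := x_GenSys_E h0 he c
  have hA := hy.1.x_pw h0 κ
  refine ⟨hA.x_sub (hk.x_mul hE.1), fun X hX => ?_⟩
  have kk : Lam (Lam k) X = (κ + τ) * ((κ + τ) * k X + 1) := by
    rw [x_Lam_congr k1 hX, x_Lam_add ((hk.x_cmul _).x_diff hX) (differentiableAt_const _),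
      x_Lam_cmul, x_Lam_const, k1 X hX, add_zero]
  have pk : ((X / X0 : ℝ) : ℂ) ^ κ = ((κ + τ) * k X + 1) * ((X / X0 : ℝ) : ℂ) ^ (-τ : ℂ) := by
    rw [← k2 X hX, ← x_pow_add h0 hX, add_neg_cancel_right]
  rw [x_PY_sub (hA.x_mono (by omega)) ((hk.x_mul hE.1).x_mono (by omega)) hX,
    x_PY_pw (hy.1.x_mono (by omega)) h0 hX, hy.2 X hX,
    x_PY_mul (hk.x_mono (by omega)) (hE.1.x_mono (by omega)) hX, hE.2 X hX, kk, k1 X hX]
  simp only [lin]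
  rw [x_Lam_sub (hA.x_diff hX) ((hk.x_mul hE.1).x_diff hX), x_Lam_mul (hk.x_diff hX) (hE.1.x_diff hX),
    k1 X hX]
  generalize Lam (pw X0 κ y) X = A
  generalize Lam (fun X => c * pw X0 (-τ) e X) X = B
  simp only [cpl, pw, map_mul, map_sub, x_conj_pow h0 hX, map_neg, conj_ofReal, conj_conj]
  linear_combination (I * X * c * e X) * pk

theorem x_GenSys_dE (h0 : 0 < X0) (he : Cn 10 e) (c : ℂ) :
    Lam (fun X => c * pw X0 (-τ) e X) X0 = c * (Lam e X0 - τ * e X0) := by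
  rw [x_Lam_cmul, x_Lam_pw (he.x_diff h0) h0 h0, div_self h0.ne', ofReal_one, one_cpow]
  ring

theorem x_GenSys_dw (h0 : 0 < X0) (he : Cn 10 e) (hy : Cn 10 y) (hk : Cn 10 k) (k0 : k X0 = 0)
    (k1 : Lam k X0 = 1) : Lam (fun X => pw X0 κ y X - k X * (c * pw X0 (-τ) e X)) X0 =
      Lam y X0 + κ * y X0 - c * e X0 := by
  have hE := (he.x_pw h0 (-τ)).x_cmul c
  rw [x_Lam_sub ((hy.x_pw h0 κ).x_diff h0) ((hk.x_mul hE).x_diff h0),
    x_Lam_mul (hk.x_diff h0) (hE.x_diff h0), k0, k1, x_Lam_pw (hy.x_diff h0) h0 h0,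
    div_self h0.ne', ofReal_one, one_cpow, x_pw_self h0]
  ring

theorem x_GenSys_sE (h0 : 0 < X0) (hτ : 0 ≤ τ) (se : Sy (5 / 2) 10 e) (c : ℂ) :
    Sy (5 / 2) 10 fun X => c * pw X0 (-τ) e X :=
  ((se.x_pw h0 _).x_cmul c).x_mono_r (by simpa using hτ)

theorem x_GenSys_sw (h0 : 0 < X0) (hτ : 0 ≤ τ) (se : Sy (5 / 2) 10 e) (sy : Sy (5 / 2) 10 y)
    (sk : Sy (1 / 4) 10 k) (hκ : κ.re ≤ 1 / 2) :
    Sy 3 10 fun X => pw X0 κ y X - k X * (c * pw X0 (-τ) e X) :=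
  ((sy.x_pw h0 _).x_mono_r (by linarith)).x_sub
    ((sk.x_mul (x_GenSys_sE h0 hτ se c)).x_mono_r (by norm_num))

end

theorem x_gen_sys {X0 ℓ τ : ℝ} {U1 U2 y y' e : ℝ → ℂ} {ν κ c : ℂ} (h0 : 0 < X0)
    (hτ : τ ∈ Icc (0 : ℝ) (1 / 8)) (hd : ‖κ + τ‖ ≤ 1 / 8)
    (he : Sol (ν + -τ) ℓ e (cpl U1 U2 e e))
    (hy : Sol (ν + κ) ℓ y fun X => cpl U1 U2 y y' X + I * X * (c * e X))
    (hy' : Sol (ν + conj κ) ℓ y' fun X => cpl U1 U2 y' y X + I * X * (conj c * e X))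
    (se : Sy (5 / 2) 10 e) (sy : Sy (5 / 2) 10 y) (sy' : Sy (5 / 2) 10 y') :
    ∃ w w' E E' : ℝ → ℂ, G4 U1 U2 ν ℓ τ κ w w' E E' ∧
      Sy 3 10 w ∧ Sy 3 10 w' ∧ Sy 3 10 E ∧ Sy 3 10 E' ∧
      w X0 = y X0 ∧ Lam w X0 = Lam y X0 + κ * y X0 - c * e X0 ∧
      w' X0 = y' X0 ∧ Lam w' X0 = Lam y' X0 + conj κ * y' X0 - conj c * e X0 ∧
      E X0 = c * e X0 ∧ Lam E X0 = c * (Lam e X0 - τ * e X0) ∧
      E' X0 = conj c * e X0 ∧ Lam E' X0 = conj c * (Lam e X0 - τ * e X0) := by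
  obtain ⟨k, hk, k0, k1, k2, sk⟩ := x_ex_k h0 hd
  have hre : κ.re ≤ 1 / 2 := by
    have := (Complex.re_le_norm (κ + τ)).trans hd
    simp only [add_re, ofReal_re] at this
    linarith [hτ.1]
  have k1' : ∀ X, 0 < X → Lam (fun X => conj (k X)) X = (conj κ + τ) * conj (k X) + 1 := by
    intro X hX
    rw [x_Lam_conj, k1 X hX, map_add, map_mul, map_add, conj_ofReal, map_one]
  have k2' : ∀ X, 0 < X → ((X / X0 : ℝ) : ℂ) ^ (conj κ + τ) = (conj κ + τ) * conj (k X) + 1 := by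
    intro X hX
    have := congrArg conj (k2 X hX)
    rwa [x_conj_pow h0 hX, map_add, map_add, map_mul, map_add, conj_ofReal, map_one] at this
  refine ⟨fun X => pw X0 κ y X - k X * (c * pw X0 (-τ) e X),
    fun X => pw X0 (conj κ) y' X - conj (k X) * (conj c * pw X0 (-τ) e X),
    fun X => c * pw X0 (-τ) e X, fun X => conj c * pw X0 (-τ) e X,
    ⟨x_GenSys_w h0 he hy (hk 10) k1 k2, ?_, x_GenSys_E h0 he c, ?_⟩,
    x_GenSys_sw h0 hτ.1 se sy (sk 10) hre, x_GenSys_sw h0 hτ.1 se sy' (sk 10).x_conj hre,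
    (x_GenSys_sE h0 hτ.1 se _).x_mono_r (by norm_num),
    (x_GenSys_sE h0 hτ.1 se _).x_mono_r (by norm_num), ?_,
    x_GenSys_dw h0 he.1 hy.1 (hk 10) k0 (by rw [k1 X0 h0, k0]; ring), ?_,
    x_GenSys_dw h0 he.1 hy'.1 (hk 10).x_conj (by rw [k0, map_zero])
      (by rw [k1' X0 h0, k0, map_zero]; ring), ?_,
    x_GenSys_dE h0 he.1 _, ?_, x_GenSys_dE h0 he.1 _⟩
  · simpa only [conj_conj] using x_GenSys_w h0 he hy' (hk 10).x_conj k1' k2'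
  · simpa only [conj_conj] using x_GenSys_E h0 he (conj c)
  all_goals simp [x_pw_self h0, k0]

end Vale.Agent.P139.Xp
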