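import Vale.Agent.P139.X.GenAbs
import Vale.Agent.P139.X.GenSys
import Vale.Agent.P139.X.Dec

/-! P139 X/Gen: `ext_gen`.
Plan: `ε0 = 1 / 1000`; `NF_mor 4` with `θ = 1` gives `C`, `K = 5 |C| + 1`. `z` is real, `0 ≤ z ≤ 1`,
`l ≤ 1` (cases of `Sym`). `ν = Q.nu (z + τ)`, `κ = lam - z - τ`, `Q.nu lam = ν + κ`,
`Q.nu (conj lam) = ν + conj κ`, `Q.nu z = ν + -τ`. `y = pw X0 (5/2) f`, `y' = pw X0 (5/2) (conj g)`,
`e` replaced by `pw X0 (5/2) e` (`x_conv`, `x_swap`, `x_conv_Sy`, `x_dat`). `x_gen_sys`, `x_dec_gen`,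
`x_gen_abs` for the system and for `G4.x_swap`. The datum of `τ w - E` is
`τ • dat f - c • dat e + (0, τ κ f X0)`; the correction is bounded with `x_row2` (`s = 1`, `T = 9`).
`‖κ‖ ≤ ‖lam - z‖ + τ`; `rr 1 ν w X0 0 = ‖w X0‖ + ‖Lam w X0‖`, `norm_fst_le`, `norm_snd_le`. -/

noncomputable section

open MeasureTheory Filter Topology Set Complex Asymptotics
open scoped ComplexConjugate ContDiff

namespace Vale.Agent.P139.Xp

theorem x_Gen_sym {l : ℕ} {z : ℂ} (h : Sym l z) :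
    l ≤ 1 ∧ conj z = z ∧ z.re ∈ Icc (0 : ℝ) 1 ∧ z.im = 0 := by
  rcases h with ⟨rfl, rfl⟩ | ⟨rfl, rfl⟩ | ⟨rfl, rfl⟩
  · simp
  · simp
  · refine ⟨le_rfl, by rw [map_div₀, map_one, map_ofNat], ?_, by simp⟩
    norm_num

theorem x_Gen_rr {ν : ℂ} {w : ℝ → ℂ} {X : ℝ} : rr 1 ν w X 0 = ‖w X‖ + ‖Lam w X‖ := by
  simp [rr, x_lad_zero]

theorem x_Gen_w {d e : ℂ × ℂ} {κ c : ℂ} (hκ : ‖κ‖ ≤ 1) :
    ‖d.1‖ + ‖d.2 + κ * d.1 - c * e.1‖ ≤ 3 * ‖d‖ + ‖c‖ * ‖e‖ := by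
  have h1 := norm_sub_le (d.2 + κ * d.1) (c * e.1)
  have h2 := norm_add_le d.2 (κ * d.1)
  rw [norm_mul] at h1 h2
  linarith [norm_fst_le d, norm_snd_le d, mul_le_of_le_one_left (norm_nonneg d.1) hκ,
    mul_le_mul_of_nonneg_left (norm_fst_le e) (norm_nonneg c)]

theorem x_Gen_E {e : ℂ × ℂ} {τ c : ℂ} (hτ : ‖τ‖ ≤ 1) :
    ‖c * e.1‖ + ‖c * (e.2 - τ * e.1)‖ ≤ 3 * (‖c‖ * ‖e‖) := by
  have h1 := norm_sub_le e.2 (τ * e.1)
  rw [norm_mul] at h1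
  have h2 : ‖e.1‖ + ‖e.2 - τ * e.1‖ ≤ 3 * ‖e‖ := by
    linarith [norm_fst_le e, norm_snd_le e, mul_le_of_le_one_left (norm_nonneg e.1) hτ]
  rw [norm_mul, norm_mul]
  linarith [mul_le_mul_of_nonneg_left h2 (norm_nonneg c)]

theorem x_Gen_row {r d e : ℂ × ℂ} {κ c : ℂ} {τ A B : ℝ} (hτ : 0 ≤ τ) (hB : ‖r.2‖ ≤ B)
    (hA : ‖dotR r (τ * d.1 - c * e.1,
      τ * (d.2 + κ * d.1 - c * e.1) - c * (e.2 - τ * e.1))‖ ≤ A) :
    ‖dotR r ((τ : ℂ) • d - c • e)‖ ≤ A + B * (τ * ‖κ‖ * ‖d‖) := by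
  have e1 : dotR r ((τ : ℂ) • d - c • e) = dotR r (τ * d.1 - c * e.1,
      τ * (d.2 + κ * d.1 - c * e.1) - c * (e.2 - τ * e.1)) - r.2 * (τ * κ * d.1) := by
    simp only [dotR, Prod.fst_sub, Prod.snd_sub, Prod.smul_fst, Prod.smul_snd, smul_eq_mul]
    ring
  rw [e1]
  refine (norm_sub_le _ _).trans (add_le_add hA ?_)
  rw [norm_mul, norm_mul, norm_mul, Complex.norm_real, Real.norm_of_nonneg hτ]
  have := norm_fst_le d
  gcongr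
  exact (norm_nonneg _).trans hB

theorem x_ext_gen (C : ℝ) : ∃ K ε0 : ℝ, 0 < ε0 ∧ ∀ (m : ℕ) (Q : Prof m) (X0 ε : ℝ), 0 < ε →
    ε ≤ ε0 → Q.Good X0 ε C → ∀ (l : ℕ) (z lam c : ℂ) (τ : ℝ) (e f g : ℝ → ℂ), Sym l z →
      0 ≤ lam.re → ‖lam - z‖ ≤ 1 / 8 → τ ∈ Icc 0 (1 / 8 : ℝ) →
      Q.RSol l z e (fun Y => conj (e Y)) 0 0 →
      Q.RSol l lam f g (fun Y => c * e Y) (fun Y => c * conj (e Y)) →
        ‖dotR (row (Q.nu (z + τ)) ((l + 5) / 2) X0) ((τ : ℂ) • dat f X0 - c • dat e X0)‖ +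
          ‖dotR (row (Q.nu (conj z + τ)) ((l + 5) / 2) X0)
            ((τ : ℂ) • dat (fun Y => conj (g Y)) X0 - conj c • dat e X0)‖ ≤
        K * (ε + τ * (‖lam - z‖ + τ)) *
          (‖dat f X0‖ + ‖dat (fun Y => conj (g Y)) X0‖ + ‖c‖ * ‖dat e X0‖) := by
  obtain ⟨C1, c1, -, hN⟩ := NF_mor 4 one_pos
  have hK : 1 ≤ 5 * |C1| + 1 := by linarith [abs_nonneg C1]
  obtain ⟨K', hK', hA⟩ := x_gen_abs hK
  refine ⟨2 * (K' * 8 + 2 * (5 * |C1| + 1) * (8 * 9) ^ 4), 1 / 1000, by norm_num, ?_⟩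
  intro m Q X0 ε h0 hε hG l z lam c τ e f g hz _ hd hτ he hf
  obtain ⟨hl, hz1, hz2, hz3⟩ := x_Gen_sym hz
  have hb := hG.box
  simp only [InBox, Xlo, Xhi, βlo, βhi, mem_Icc] at hb
  have hX : X0 ∈ Icc (2 : ℝ) 4 := ⟨by linarith [hb.1.1], by linarith [hb.1.2]⟩
  have hX' : 0 < X0 := by linarith [hX.1]
  have ha : 0 ≤ aa m := by unfold aa; positivity
  have ha' := hG.a_le
  have hl' : (l : ℝ) ≤ 1 := by exact_mod_cast hl
  have hℓ : ((l : ℝ) + 5) / 2 ∈ Icc (5 / 2 : ℝ) 3 :=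
    ⟨by linarith [Nat.cast_nonneg (α := ℝ) l], by linarith⟩
  rw [hz1]
  obtain ⟨ν, hν⟩ : ∃ ν, ν = Q.nu (z + τ) := ⟨_, rfl⟩
  obtain ⟨κ, hκ⟩ : ∃ κ, κ = lam - z - τ := ⟨_, rfl⟩
  have hre : ν.re = z.re + τ + aa m - 5 / 2 := by rw [hν, x_nu_re]; simp
  have him : ν.im = -Q.β := by rw [hν, x_nu_im]; simp [hz3]
  have hi : |ν.im| ≤ 1 / 2 := by rw [him, abs_le]; constructor <;> linarith [hb.2.1, hb.2.2]
  have hr : -5 / 2 ≤ ν.re := by linarith [hz2.1, hτ.1]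
  have hn : ‖ν‖ ≤ 5 := by
    have : |ν.re| ≤ 3 := abs_le.2 ⟨by linarith, by linarith [hz2.2, hτ.2]⟩
    linarith [Complex.norm_le_abs_re_add_abs_im ν]
  have hpar : ν + 2 * I * Q.β = conj ν := by
    rw [hν, x_nu_par, map_add, hz1, conj_ofReal]
  have nτ : ‖(τ : ℂ)‖ = τ := by rw [Complex.norm_real, Real.norm_of_nonneg hτ.1]
  have nκ : ‖κ‖ ≤ ‖lam - z‖ + τ := by
    rw [hκ]
    exact (norm_sub_le _ _).trans_eq (by rw [nτ])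
  have nκ' : ‖κ‖ ≤ 1 / 4 := by linarith [hτ.2]
  have hNF : ‖NF (ν + 4) ((l + 5) / 2) X0‖ ≤ 5 * |C1| + 1 := by
    have h1 := (hN (ν + 4) ((l + 5) / 2) (by linarith [hℓ.1]) (by
      simp only [add_re, re_ofNat, mem_Icc]
      constructor <;> linarith [hz2.2, hτ.2]) X0 hX).1
    have h2 : √|(ν + 4).im| ≤ 1 := Real.sqrt_le_one.2 (by simpa using hi.trans (by norm_num))
    have h3 : C1 * ((l + 5) / 2 + √|(ν + 4).im| + 1) ≤ |C1| * 5 :=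
      mul_le_mul (le_abs_self _) (by linarith [hℓ.2]) (by positivity) (abs_nonneg _)
    linarith
  have hU := x_coef hG
  have s1 : Sol (ν + -τ) ((l + 5) / 2) (pw X0 (5 / 2) e)
      (cpl Q.U1 Q.U2 (pw X0 (5 / 2) e) (pw X0 (5 / 2) e)) := by
    have := x_conv he hX'
    rw [show ν + -τ = Q.nu z by rw [hν]; unfold Prof.nu; ring]
    exact ⟨this.1, fun X hX => by rw [this.2 X hX]; simp [pw]⟩
  have s2 : Sol (ν + κ) ((l + 5) / 2) (pw X0 (5 / 2) f) fun X =>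
      cpl Q.U1 Q.U2 (pw X0 (5 / 2) f) (pw X0 (5 / 2) fun Y => conj (g Y)) X +
        I * X * (c * pw X0 (5 / 2) e X) := by
    have := x_conv hf hX'
    rw [show ν + κ = Q.nu lam by rw [hν, hκ]; unfold Prof.nu; ring]
    exact ⟨this.1, fun X hX => by rw [this.2 X hX]; simp only [pw]; ring⟩
  have s3 : Sol (ν + conj κ) ((l + 5) / 2) (pw X0 (5 / 2) fun Y => conj (g Y)) fun X =>
      cpl Q.U1 Q.U2 (pw X0 (5 / 2) fun Y => conj (g Y)) (pw X0 (5 / 2) f) X +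
        I * X * (conj c * pw X0 (5 / 2) e X) := by
    have := x_conv (x_swap hf) hX'
    rw [show ν + conj κ = Q.nu (conj lam) by
      rw [hν, hκ, map_sub, map_sub, hz1, conj_ofReal]; unfold Prof.nu; ring]
    exact ⟨this.1, fun X hX => by
      rw [this.2 X hX]; simp only [pw, conj_conj, map_mul]; ring⟩
  obtain ⟨w, w', E, E', hS, y1, y2, y3, y4, a1, a2, a3, a4, a5, a6, a7, a8⟩ :=
    x_gen_sys hX' hτ (by rwa [hκ, sub_add_cancel]) s1 s2 s3 (x_conv_Sy he hX') (x_conv_Sy hf hX')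
      (x_conv_Sy (x_swap hf) hX')
  obtain ⟨d1, d2, d3, d4⟩ := x_dec_gen hU hpar (by norm_num) hS y1 y2 y3 y4
  have b1 := hA X0 ε Q.β _ X0 τ _ _ w w' E E' ν κ hU h0.le hε hpar hr hi hn hℓ hτ nκ' hS d1 d2 d3
    d4 le_rfl hX hNF
  have b2 := hA X0 ε Q.β _ X0 τ _ _ w' w E' E ν (conj κ) hU h0.le hε hpar hr hi hn hℓ hτ
    (by rwa [Complex.norm_conj]) hS.x_swap d2 d1 d4 d3 le_rfl hX hNF
  have r2 := x_row2 (ν := ν) (ℓ := (l + 5) / 2) (T := 9) hX le_rfl (by norm_num)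
    (by nlinarith [hℓ.1, hℓ.2]) (by linarith) hK (by rwa [mul_one])
  have e1 := Prod.ext_iff.1 (x_dat hf hX')
  have e2 := Prod.ext_iff.1 (x_dat (x_swap hf) hX')
  have e3 := Prod.ext_iff.1 (x_dat he hX')
  dsimp only at e1 e2 e3
  rw [e1.1] at a1
  rw [e1.1, e1.2, e3.1] at a2
  rw [e2.1] at a3
  rw [e2.1, e2.2, e3.1] at a4
  rw [e3.1] at a5 a7
  rw [e3.1, e3.2] at a6 a8
  rw [← hν]
  generalize dat f X0 = df at *
  generalize dat (fun Y => conj (g Y)) X0 = dg at *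
  generalize dat e X0 = de at *
  simp only [x_Gen_rr, a1, a2, a3, a4, a5, a6, a7, a8, Complex.norm_conj κ] at b1 b2
  have g1 := x_Gen_w (d := df) (e := de) (c := c) (nκ'.trans (by norm_num))
  have g2 := x_Gen_w (d := dg) (e := de) (c := conj c) (κ := conj κ)
    (by rw [Complex.norm_conj]; linarith)
  have g3 := x_Gen_E (e := de) (c := c) (τ := τ) (by linarith [hτ.2])
  have g4 := x_Gen_E (e := de) (c := conj c) (τ := τ) (by linarith [hτ.2])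
  rw [Complex.norm_conj] at g2 g4
  have hη0 : 0 ≤ τ * ‖κ‖ := mul_nonneg hτ.1 (norm_nonneg _)
  have hη : τ * ‖κ‖ ≤ τ * (‖lam - z‖ + τ) := mul_le_mul_of_nonneg_left nκ hτ.1
  have hce : 0 ≤ ‖c‖ * ‖de‖ := by positivity
  obtain ⟨D, hD⟩ : ∃ D, D = ‖df‖ + ‖dg‖ + ‖c‖ * ‖de‖ := ⟨_, rfl⟩
  obtain ⟨η, hη'⟩ : ∃ η, η = ε + τ * (‖lam - z‖ + τ) := ⟨_, rfl⟩
  rw [← hD, ← hη']
  have p0 : 0 ≤ K' * η := mul_nonneg hK' (by linarith)
  have p1 := norm_nonneg df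
  have p2 := norm_nonneg dg
  have q1 := x_Gen_row (A := K' * η * (8 * D)) hτ.1 r2 (b1.trans (by gcongr <;> linarith))
  have q2 := x_Gen_row (A := K' * η * (8 * D)) hτ.1 r2 (b2.trans (by gcongr <;> linarith))
  rw [Complex.norm_conj] at q2
  have q3 : τ * ‖κ‖ * ‖df‖ ≤ η * D := by gcongr <;> linarith
  have q4 : τ * ‖κ‖ * ‖dg‖ ≤ η * D := by gcongr <;> linarith
  have hB : 0 ≤ 2 * (5 * |C1| + 1) * (8 * 9) ^ 4 := by positivity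
  linarith [mul_le_mul_of_nonneg_left q3 hB, mul_le_mul_of_nonneg_left q4 hB]

end Vale.Agent.P139.Xp
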