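import Vale.Agent.P139.X.Lad

/-! P139 X/Lad2: Leibniz formula, comparison with `Du`, the ladder of the equation.
Plan: inductions on `j` with the hypothesis quantified over all `X > 0`, `x_Lam_congr`.
`x_lad_mul`: `(Λ + μ + ν + j) (w_(j-i) y_i) = w_(j-i+1) y_i + w_(j-i) y_(i+1)`,
`Finset.sum_choose_succ_mul` or `Finset.sum_range_succ'` with `Nat.choose_succ_succ`
(`Lam` of a finite sum: `deriv_fun_sum`). `Du u X = -X * Lam u X`, `Function.iterate_succ'`.
`x_lad_PY`: one step is `(Λ + ν) (PY ν y) = PY (ν + 1) ((Λ + ν) y)` for `y` in `Cn 3`. -/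

noncomputable section

open MeasureTheory Filter Topology Set Complex Asymptotics
open scoped ComplexConjugate ContDiff

namespace Vale.Agent.P139.Xp

variable {u v : ℝ → ℂ} {n j : ℕ} {X X0 : ℝ} {ν : ℂ} {ℓ : ℝ}

theorem x_lad_mul (h : Cn j u) (h' : Cn j v) (hX : 0 < X) (μ ν : ℂ) :
    lad (μ + ν) j (fun X => u X * v X) X =
      ∑ i ∈ Finset.range (j + 1), (j.choose i : ℂ) * (lad μ (j - i) u X * lad ν i v X) := by
  induction j generalizing X with
  | zero => simp [x_lad_zero]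
  | succ j ih =>
    have ih' := fun X (hX : 0 < X) => ih (h.x_mono j.le_succ) (h'.x_mono j.le_succ) hX
    have du : ∀ i, DifferentiableAt ℝ (lad μ (j - i) u) X := fun i =>
      x_Lad_diff (h.x_mono (by omega)) hX μ
    have dv : ∀ i ∈ Finset.range (j + 1), DifferentiableAt ℝ (lad ν i v) X := fun i hi =>
      x_Lad_diff (h'.x_mono (Finset.mem_range.1 hi)) hX ν
    have e1 : Lam (fun X => ∑ i ∈ Finset.range (j + 1),
        (j.choose i : ℂ) * (lad μ (j - i) u X * lad ν i v X)) X =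
        ∑ i ∈ Finset.range (j + 1), (j.choose i : ℂ) *
          (Lam (lad μ (j - i) u) X * lad ν i v X + lad μ (j - i) u X * Lam (lad ν i v) X) := by
      rw [Lam, deriv_fun_sum fun i hi => ((du i).fun_mul (dv i hi)).const_mul _, Finset.mul_sum]
      refine Finset.sum_congr rfl fun i hi => ?_
      rw [← x_Lam_mul (du i) (dv i hi), ← x_Lam_cmul, Lam]
    have e2 := Finset.sum_choose_succ_mul (fun i k => lad μ k u X * lad ν i v X) j
    rw [e2, x_lad_succ]
    simp only
    rw [x_Lam_congr ih' hX, ih' X hX, e1, Finset.mul_sum, ← Finset.sum_add_distrib,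
      ← Finset.sum_add_distrib]
    refine Finset.sum_congr rfl fun i hi => ?_
    have hi' : i ≤ j := Nat.lt_succ_iff.1 (Finset.mem_range.1 hi)
    rw [show j + 1 - i = j - i + 1 by omega]
    simp only [x_lad_succ, Nat.cast_sub hi']
    ring

theorem x_lad_Du (h : Cn j u) (hX : 0 < X) : Du^[j] u X = (-(X : ℂ)) ^ j * lad 0 j u X := by
  induction j generalizing X with
  | zero => simp [x_lad_zero]
  | succ j ih =>
    have ih' := fun X (hX : 0 < X) => ih (h.x_mono j.le_succ) hX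
    have e : ∀ w : ℝ → ℂ, Du w X = -X * Lam w X := fun w => by
      simp only [Du, Lam]
      ring
    have d1 : HasDerivAt (fun X : ℝ => (-(X : ℂ)) ^ j) (j * (-(X : ℂ)) ^ (j - 1) * -1) X :=
      (ofRealCLM.hasDerivAt.neg.pow j).congr_deriv (by simp)
    have d2 : Lam (fun X : ℝ => (-(X : ℂ)) ^ j) X = j * (-(X : ℂ)) ^ j := by
      rw [Lam, d1.deriv]
      rcases j with _ | j
      · simp
      · rw [Nat.add_sub_cancel]
        ring
    rw [Function.iterate_succ_apply', e, x_Lam_congr ih' hX,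
      x_Lam_mul d1.differentiableAt (x_Lad_diff h hX 0), d2, x_lad_succ]
    ring

theorem x_Lad2_step (h : Cn 3 u) (hX : 0 < X) (ν : ℂ) :
    Lam (PY ν ℓ u) X + ν * PY ν ℓ u X = PY (ν + 1) ℓ (fun X => Lam u X + ν * u X) X := by
  have d0 := h.x_diff hX
  have d1 := h.x_Lam.x_diff hX
  have d2 := h.x_Lam.x_Lam.x_diff hX
  have dX : DifferentiableAt ℝ (fun X : ℝ => (X : ℂ)) X := ofRealCLM.differentiableAt
  have e : ∀ X, 0 < X → Lam (fun X => Lam u X + ν * u X) X = Lam (Lam u) X + ν * Lam u X :=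
    fun X hX => by
      rw [x_Lam_add (h.x_Lam.x_diff hX) ((h.x_diff hX).const_mul ν), x_Lam_cmul]
  unfold PY
  rw [x_Lam_congr e hX, x_Lam_add d2 (d1.const_mul ν), x_Lam_cmul,
    x_Lam_add (d2.fun_sub (d0.const_mul _))
      ((dX.const_mul I).fun_mul (d1.fun_add (d0.const_mul ν))),
    x_Lam_sub d2 (d0.const_mul _), x_Lam_cmul,
    x_Lam_mul (dX.const_mul I) (d1.fun_add (d0.const_mul ν)), x_Lam_cmul, x_Lam_id, e X hX]
  ring

theorem x_lad_PY (h : Cn (j + 2) u) (hX : 0 < X) :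
    lad ν j (PY ν ℓ u) X = PY (ν + j) ℓ (lad ν j u) X := by
  induction j generalizing X with
  | zero => simp [x_lad_zero]
  | succ j ih =>
    have ih' := fun X (hX : 0 < X) => ih (h.x_mono (by omega)) hX
    rw [x_lad_succ, x_lad_succ]
    simp only
    rw [x_Lam_congr ih' hX, ih' X hX, Nat.cast_succ, ← add_assoc]
    exact x_Lad2_step (Cn.x_lad (h.x_mono (by omega)) ν) hX _

theorem Sol.x_lad {t : ℝ → ℂ} (h : Sol ν ℓ u t) (hj : j ≤ 8) (hX : 0 < X) :
    PY (ν + j) ℓ (lad ν j u) X = lad ν j t X := by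
  rw [← x_lad_PY (h.1.x_mono (by omega)) hX]
  exact x_lad_congr h.2 hX

end Vale.Agent.P139.Xp
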