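import Vale.Agent.P139.X.Sy2
import Vale.Agent.P139.X.Lad2

/-! P139 X/Coef: the potentials of a good profile.
Plan: on the half line `U1 = W1` and `U2 = pw 1 (2 i β) W2` (`normSq (X ^ ν₀) = X ^ (2 a)`,
`2 a m = 1`; write `(X : ℂ) ^ ν₀ = exp (ν₀ log X)` or use `Complex.cpow_nat_mul`, `x_pow_add`).
`Jet W`: smooth and `lad 0 k W = O(X^(-k))` for all `k`; closed under products (`x_lad_mul` with
`μ = ν = 0`), `conj` (`x_lad_conj`), constants, powers; `G` is a jet by `Prof.jet`, `x_lad_Du`,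
`Prof.smooth`; `(normSq z : ℂ) = z * conj z` (`Complex.mul_conj`).
`Jet.x_Sy`: induction on `n` generalizing `j`, `Lam (lad 0 j W) = lad 0 (j + 1) W - j * lad 0 j W`.
The bounds `b1`, `b2` are `Good.ext` with `x_lad_Du`, `x_lad_pw`; `0 < X0` by `Good.box`. -/

noncomputable section

open MeasureTheory Filter Topology Set Complex Asymptotics
open scoped ComplexConjugate ContDiff

namespace Vale.Agent.P139.Xp

def Jet (W : ℝ → ℂ) : Prop :=
  (∀ n, Cn n W) ∧ ∀ k : ℕ, lad 0 k W =O[atTop] fun X : ℝ => X ^ (-(k : ℝ))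

theorem x_Coef_norm {u : ℝ → ℂ} {j : ℕ} {X : ℝ} (h : Cn j u) (hX : 0 < X) :
    ‖lad 0 j u X‖ = ‖Du^[j] u X‖ / X ^ j := by
  rw [x_lad_Du h hX, norm_mul, norm_pow, norm_neg, norm_real, Real.norm_of_nonneg hX.le,
    mul_div_cancel_left₀ _ (pow_pos hX j).ne']

theorem x_Coef_bd {W : ℝ → ℂ} (h : Jet W) :
    ∃ ε : ℝ, ∀ᶠ X in atTop, ∀ j ≤ 4, ‖lad 0 j W X‖ ≤ ε / X ^ j := by
  choose c hc h1 using fun j => isBigO_iff'.1 (h.2 j)
  refine ⟨∑ j ∈ Finset.range 5, c j, ?_⟩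
  filter_upwards [(eventually_all_finset (Finset.range 5)).2 fun j _ => h1 j,
    eventually_gt_atTop 0] with X h2 hX j hj
  have h3 := Finset.mem_range.2 (Nat.lt_succ_of_le hj)
  have h4 := h2 j h3
  rw [Real.norm_of_nonneg (by positivity), Real.rpow_neg hX.le, Real.rpow_natCast,
    ← div_eq_mul_inv] at h4
  exact h4.trans (div_le_div_of_nonneg_right
    (Finset.single_le_sum (fun i _ => (hc i).le) h3) (by positivity))

theorem Jet.x_mul {W W' : ℝ → ℂ} (h : Jet W) (h' : Jet W') : Jet fun X => W X * W' X := by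
  refine ⟨fun n => (h.1 n).x_mul (h'.1 n), fun k => ?_⟩
  have h1 : (fun X => ∑ i ∈ Finset.range (k + 1), (k.choose i : ℂ) *
      (lad 0 (k - i) W X * lad 0 i W' X)) =O[atTop] fun X : ℝ => X ^ (-(k : ℝ)) := by
    refine IsBigO.fun_sum fun i hi => (((h.2 (k - i)).mul (h'.2 i)).const_mul_left _).congr'
      EventuallyEq.rfl ((eventually_gt_atTop 0).mono fun X hX => ?_)
    beta_reduce
    rw [← Real.rpow_add hX, Nat.cast_sub (Nat.lt_succ_iff.1 (Finset.mem_range.1 hi))]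
    congr 1
    ring
  refine h1.congr' ((eventually_gt_atTop 0).mono fun X hX => ?_) EventuallyEq.rfl
  have h2 := x_lad_mul (h.1 k) (h'.1 k) hX 0 0
  rw [add_zero] at h2
  exact h2.symm

theorem Jet.x_conj {W : ℝ → ℂ} (h : Jet W) : Jet fun X => conj (W X) := by
  refine ⟨fun n => (h.1 n).x_conj, fun k => ?_⟩
  have h1 := x_lad_conj 0 k W
  rw [map_zero] at h1
  rw [h1, ← isBigO_norm_left]
  simpa only [RCLike.norm_conj] using (h.2 k).norm_left

theorem x_Jet_const (c : ℂ) : Jet fun _ => c := by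
  refine ⟨fun n => x_Cn_const n c, fun k => ?_⟩
  have h : ∀ k, lad 0 (k + 1) (fun _ => c) = fun _ => 0 := fun k => by
    induction k with
    | zero => funext X; simp [x_lad_succ, x_lad_zero, x_Lam_const]
    | succ k ih => funext X; rw [x_lad_succ, ih]; simp [x_Lam_const]
  cases k with
  | zero => simpa [x_lad_zero] using isBigO_const_const c (one_ne_zero (α := ℝ)) atTop
  | succ k => rw [h]; exact isBigO_zero _ _

theorem Jet.x_pow {W : ℝ → ℂ} (h : Jet W) (k : ℕ) : Jet fun X => W X ^ k := by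
  induction k with
  | zero => simpa only [pow_zero] using x_Jet_const 1
  | succ k ih => simpa only [pow_succ] using ih.x_mul h

theorem Jet.x_Sy {W : ℝ → ℂ} (h : Jet W) (j n : ℕ) : Sy (-(j : ℝ)) n (lad 0 j W) := by
  induction n generalizing j with
  | zero => exact h.2 j
  | succ n ih =>
    refine ⟨h.2 j, (eventually_gt_atTop 0).mono fun X hX =>
      (Cn.x_lad (n := 0 + 1) (h.1 _) 0).x_diff hX, ?_⟩
    refine (((ih (j + 1)).x_mono_r (by push_cast; linarith)).x_sub ((ih j).x_cmul j)).x_congr'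
      fun X _ => ?_
    rw [x_lad_succ]
    ring

variable {m : ℕ} (Q : Prof m)

theorem x_jet_G : Jet Q.G := by
  have h : ∀ n, Cn n Q.G := fun n => by
    obtain ⟨δ, hδ, h⟩ := Q.smooth
    have h1 : Cn n Q.q := (h.mono (Ioi_subset_Ioi (by linarith))).of_le (by exact_mod_cast le_top)
    refine (h1.x_pw one_pos (nu0 m Q.β)).x_congr fun X _ => ?_
    rw [pw, div_one]
    rfl
  refine ⟨h, fun k => ?_⟩
  obtain ⟨C, hC⟩ := Q.jet k
  refine IsBigO.of_bound C ((eventually_ge_atTop 1).mono fun X hX => ?_)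
  have h0 : 0 < X := one_pos.trans_le hX
  rw [x_Coef_norm (h k) h0, Real.norm_of_nonneg (by positivity), Real.rpow_neg h0.le,
    Real.rpow_natCast, ← div_eq_mul_inv]
  exact div_le_div_of_nonneg_right (hC X hX) (by positivity)

theorem x_jet_W1 : Jet Q.W1 := by
  have h := (x_Jet_const (m + 1)).x_mul (((x_jet_G Q).x_mul (x_jet_G Q).x_conj).x_pow m)
  simp only [mul_conj] at h
  exact h

theorem x_jet_W2 : Jet Q.W2 := by
  have h := ((x_Jet_const m).x_mul (((x_jet_G Q).x_mul (x_jet_G Q).x_conj).x_pow (m - 1))).x_mul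
    ((x_jet_G Q).x_pow 2)
  simp only [mul_conj] at h
  exact h

theorem x_Coef_sq {X : ℝ} (hX : 0 < X) :
    ((normSq ((X : ℂ) ^ nu0 m Q.β) : ℝ) : ℂ) ^ m = X := by
  have h1 : (nu0 m Q.β).re = aa m := by simp [nu0]
  have h2 : (m : ℝ) ≠ 0 := Nat.cast_ne_zero.2 (Nat.one_le_iff_ne_zero.1 Q.m_pos)
  have h3 : aa m * ((2 * m : ℕ) : ℝ) = 1 := by
    rw [aa]
    push_cast
    field_simp
  rw [← ofReal_pow, normSq_eq_norm_sq, norm_cpow_eq_rpow_re_of_pos hX, h1, ← pow_mul,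
    ← Real.rpow_mul_natCast hX.le, h3, Real.rpow_one]

theorem x_U1 {X : ℝ} (hX : 0 < X) : Q.U1 X = Q.W1 X := by
  simp only [Prof.U1, Prof.V1, Prof.W1, Prof.P, Prof.G, Gt, map_mul, ofReal_mul, mul_pow,
    x_Coef_sq Q hX, ofReal_pow]
  ring

theorem x_U2 {X : ℝ} (hX : 0 < X) : Q.U2 X = pw 1 (2 * I * Q.β) Q.W2 X := by
  have h1 := x_Coef_sq Q hX
  have h2 := x_pow_add one_pos hX (2 * I * Q.β) (nu0 m Q.β)
  have h3 := x_conj_pow one_pos hX (nu0 m Q.β)
  have h4 : conj (nu0 m Q.β) = 2 * I * Q.β + nu0 m Q.β := by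
    simp only [nu0, map_sub, map_mul, conj_ofReal, conj_I]
    ring
  rw [h4, h2, div_one] at h3
  have h5 := mul_conj ((X : ℂ) ^ nu0 m Q.β)
  obtain ⟨k, hk⟩ := Nat.exists_eq_add_of_le' Q.m_pos
  have h6 : m - 1 = k := by omega
  have h7 : ((normSq ((X : ℂ) ^ nu0 m Q.β) : ℝ) : ℂ) ^ (k + 1) = X := hk ▸ h1
  rw [pow_succ] at h7
  simp only [Prof.U2, Prof.V2, Prof.W2, pw, Prof.G, Gt, map_mul, ofReal_mul, mul_pow, div_one, h6]
  rw [h3] at h5
  linear_combination (m * (normSq (Q.q X) : ℂ) ^ k * Q.q X ^ 2) * (-h7 -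
    ((normSq ((X : ℂ) ^ nu0 m Q.β) : ℝ) : ℂ) ^ k * h5)

theorem x_Coef_mk {X0 ε : ℝ} (h0 : 0 < X0) (h : ∀ j ≤ 4, ∀ X, X0 ≤ X →
    ‖lad 0 j Q.W1 X‖ ≤ ε / X ^ j ∧ ‖lad 0 j Q.W2 X‖ ≤ ε / X ^ j) : Coef X0 ε Q.β Q.U1 Q.U2 := by
  have e1 : ∀ j X, 0 < X → lad 0 j Q.U1 X = lad 0 j Q.W1 X := fun j X hX =>
    x_lad_congr (fun X hX => x_U1 Q hX) hX
  have e2 : ∀ j X, 0 < X → lad (-(2 * I * Q.β)) j Q.U2 X = pw 1 (2 * I * Q.β) (lad 0 j Q.W2) X :=
    fun j X hX => by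
      rw [x_lad_congr (fun X hX => x_U2 Q hX) hX, x_lad_pw ((x_jet_W2 Q).1 j) one_pos hX,
        neg_add_cancel]
  have e3 : (2 * I * Q.β).re = 0 := by simp
  refine ⟨fun n => ((x_jet_W1 Q).1 n).x_congr fun X hX => x_U1 Q hX,
    fun n => (((x_jet_W2 Q).1 n).x_pw one_pos _).x_congr fun X hX => x_U2 Q hX,
    fun j hj X hX => ?_, fun j hj X hX => ?_, fun j n => ((x_jet_W1 Q).x_Sy j n).x_congr' (e1 j),
    fun j n => ?_⟩
  · rw [e1 j X (h0.trans_le hX)]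
    exact (h j hj X hX).1
  · rw [e2 j X (h0.trans_le hX), pw, norm_mul, div_one,
      norm_cpow_eq_rpow_re_of_pos (h0.trans_le hX), e3, Real.rpow_zero, one_mul]
    exact (h j hj X hX).2
  · have h1 := ((x_jet_W2 Q).x_Sy j n).x_pw one_pos (2 * I * Q.β)
    rw [e3, add_zero] at h1
    exact h1.x_congr' (e2 j)

theorem x_coef {Q : Prof m} {X0 ε C : ℝ} (h : Q.Good X0 ε C) :
    Coef X0 ε Q.β Q.U1 Q.U2 := by
  have h0 : 0 < X0 := lt_of_lt_of_le (by norm_num [Xlo]) h.box.1.1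
  refine x_Coef_mk Q h0 fun j hj X hX => ?_
  have h1 := h0.trans_le hX
  rw [x_Coef_norm ((x_jet_W1 Q).1 j) h1, x_Coef_norm ((x_jet_W2 Q).1 j) h1]
  exact ⟨div_le_div_of_nonneg_right (h.ext j hj X hX).1 (by positivity),
    div_le_div_of_nonneg_right (h.ext j hj X hX).2 (by positivity)⟩

/-- Without smallness: take the thresholds and constants of the jets of order at most four. -/
theorem x_coef_any : ∃ X0 ε : ℝ, Coef X0 ε Q.β Q.U1 Q.U2 := by
  obtain ⟨a, ha⟩ := x_Coef_bd (x_jet_W1 Q)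
  obtain ⟨b, hb⟩ := x_Coef_bd (x_jet_W2 Q)
  obtain ⟨X0, h⟩ := eventually_atTop.1 ((eventually_gt_atTop 0).and (ha.and hb))
  refine ⟨X0, max a b, x_Coef_mk Q (h X0 le_rfl).1 fun j hj X hX => ?_⟩
  obtain ⟨h1, h2, h3⟩ := h X hX
  exact ⟨(h2 j hj).trans (div_le_div_of_nonneg_right (le_max_left _ _) (by positivity)),
    (h3 j hj).trans (div_le_div_of_nonneg_right (le_max_right _ _) (by positivity))⟩

end Vale.Agent.P139.Xp
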