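import Vale.Agent.P139.X.Lad

/-! P139 X/Der: the three derivative identities.
Plan: `Cn.x_hasDerivAt` for `y` and `Lam y`; `HasDerivAt.star`, `HasDerivAt.mul`, compose with
`imCLM` / `reCLM` (`ContinuousLinearMap.hasFDerivAt`, `HasFDerivAt.comp_hasDerivAt`);
`‖y‖ ^ 2 = (y * conj y).re` (`Complex.mul_conj'`, `Complex.sq_norm`, `normSq_apply`). Solve
`Lam (Lam y) X = PY ν ℓ y X + ℓ² y - I X (Lam y + ν y)`, expand real and imaginary parts, `field_simp; ring`. -/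

noncomputable section

open MeasureTheory Filter Topology Set Complex Asymptotics
open scoped ComplexConjugate ContDiff

namespace Vale.Agent.P139.Xp

variable {y : ℝ → ℂ} {X : ℝ}

theorem x_Der_re {u : ℝ → ℂ} {d : ℂ} (h : HasDerivAt u d X) :
    HasDerivAt (fun X => (u X).re) d.re X := reCLM.hasFDerivAt.comp_hasDerivAt X h

theorem x_Der_im {u : ℝ → ℂ} {d : ℂ} (h : HasDerivAt u d X) :
    HasDerivAt (fun X => (u X).im) d.im X := imCLM.hasFDerivAt.comp_hasDerivAt X h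

theorem x_der_sq (h : Cn 1 y) (hX : 0 < X) :
    HasDerivAt (fun X => ‖y X‖ ^ 2) (2 * (Lam y X * conj (y X)).re / X) X := by
  have h1 := x_Der_re ((h.x_hasDerivAt hX).mul (h.x_hasDerivAt hX).star)
  have e : (fun X => ‖y X‖ ^ 2) = fun X => (y X * star (y X)).re := by
    funext X
    rw [Complex.star_def, Complex.mul_conj', ← ofReal_pow, ofReal_re]
  rw [e]
  refine h1.congr_deriv ?_
  simp [Complex.div_ofReal_re, Complex.div_ofReal_im]
  ring

theorem x_flux (h : Cn 2 y) (hX : 0 < X) (ν : ℂ) (ℓ : ℝ) :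
    HasDerivAt (fun X => (Lam y X * conj (y X)).im + X * ‖y X‖ ^ 2 / 2)
      ((1 / 2 - ν.re) * ‖y X‖ ^ 2 + (PY ν ℓ y X * conj (y X)).im / X) X := by
  have hy : Cn 1 y := h.x_mono (by omega)
  have h1 := x_Der_im ((h.x_Lam.x_hasDerivAt hX).mul (hy.x_hasDerivAt hX).star)
  have h2 := ((hasDerivAt_id' X).mul (x_der_sq hy hX)).div_const 2
  refine (h1.add h2).congr_deriv ?_
  simp only [PY, Complex.sq_norm, normSq_apply]
  simp [Complex.div_ofReal_re, Complex.div_ofReal_im, ← ofReal_pow]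
  field_simp
  ring

theorem x_pair (h : Cn 2 y) (hX : 0 < X) (ν : ℂ) (ℓ : ℝ) :
    HasDerivAt (fun X => (Lam y X * conj (y X)).re / X)
      ((‖Lam y X‖ ^ 2 + ℓ ^ 2 * ‖y X‖ ^ 2 + X * (Lam y X * conj (y X)).im +
        X * ν.im * ‖y X‖ ^ 2 + (PY ν ℓ y X * conj (y X)).re - (Lam y X * conj (y X)).re) / X ^ 2)
      X := by
  have hy : Cn 1 y := h.x_mono (by omega)
  have h1 := x_Der_re ((h.x_Lam.x_hasDerivAt hX).mul (hy.x_hasDerivAt hX).star)
  refine (h1.div (hasDerivAt_id' X) hX.ne').congr_deriv ?_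
  simp only [PY, Complex.sq_norm, normSq_apply]
  simp [Complex.div_ofReal_re, Complex.div_ofReal_im, ← ofReal_pow]
  field_simp
  ring

theorem x_chain (h : Cn 1 y) (hX : 0 < X) (μ : ℂ) (k : ℕ) :
    HasDerivAt (fun X => X * (‖y X‖ ^ 2 / X ^ (2 * k)))
      (((1 - 2 * k - 2 * μ.re) * ‖y X‖ ^ 2 + 2 * ((Lam y X + μ * y X) * conj (y X)).re) /
        X ^ (2 * k)) X := by
  have h1 := (hasDerivAt_id' X).mul ((x_der_sq h hX).div (hasDerivAt_pow (2 * k) X)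
    (pow_ne_zero _ hX.ne'))
  refine h1.congr_deriv ?_
  have e : ((2 * k : ℕ) : ℝ) * X ^ (2 * k - 1) = 2 * k * X ^ (2 * k) / X := by
    rcases k with _ | k
    · simp
    · rw [show 2 * (k + 1) = 2 * k + 1 + 1 by ring, Nat.add_sub_cancel]
      push_cast
      field_simp
      ring
  rw [e]
  simp only [Pi.div_apply, Complex.sq_norm, normSq_apply]
  simp
  field_simp
  ring

theorem x_Der_step {ν : ℂ} (hν : -5 / 2 ≤ ν.re) (hX : 2 ≤ X) (i k : ℕ) (hk : i + k = 3) :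
    ((1 - 2 * ((k + 1 : ℕ) : ℝ) - 2 * (ν + i).re) * ‖lad ν i y X‖ ^ 2 +
      2 * (lad ν (i + 1) y X * conj (lad ν i y X)).re) / X ^ (2 * (k + 1)) ≤
    -(‖lad ν i y X‖ ^ 2 / X ^ (2 * (k + 1))) + ‖lad ν (i + 1) y X‖ ^ 2 / X ^ (2 * k) / 4 := by
  have hX' : 0 < X := by linarith
  have e : (i : ℝ) + k = 3 := by exact_mod_cast hk
  have h1 := Complex.re_le_norm (lad ν (i + 1) y X * conj (lad ν i y X))
  rw [norm_mul, Complex.norm_conj] at h1
  have h2 : 1 - 2 * ((k + 1 : ℕ) : ℝ) - 2 * (ν + i).re ≤ -2 := by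
    rw [add_re, natCast_re]
    push_cast
    linarith
  have h3 := mul_le_mul_of_nonneg_right h2 (sq_nonneg ‖lad ν i y X‖)
  have h4 : ‖lad ν (i + 1) y X‖ ^ 2 / X ^ (2 * (k + 1)) ≤
      ‖lad ν (i + 1) y X‖ ^ 2 / X ^ (2 * k) / 4 := by
    rw [div_div, mul_add, pow_add, mul_one]
    gcongr
    nlinarith
  refine le_trans ?_ (add_le_add_right h4 _)
  rw [← neg_div, ← add_div]
  refine div_le_div_of_nonneg_right ?_ (by positivity)
  nlinarith [sq_nonneg (‖lad ν (i + 1) y X‖ - ‖lad ν i y X‖)]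

/-- The four chain steps together. -/
theorem x_chain4 {ν : ℂ} (h : Cn 4 y) (hν : -5 / 2 ≤ ν.re) : ∃ e : ℝ → ℝ, ∀ X, 2 ≤ X →
    HasDerivAt (fun X => X * (HH ν y X - ‖lad ν 4 y X‖ ^ 2)) (e X) X ∧
      e X ≤ ‖lad ν 4 y X‖ ^ 2 - 3 / 4 * HH ν y X := by
  refine ⟨fun X => ∑ i ∈ Finset.range 4, ((1 - 2 * ((4 - i : ℕ) : ℝ) - 2 * (ν + i).re) *
    ‖lad ν i y X‖ ^ 2 + 2 * (lad ν (i + 1) y X * conj (lad ν i y X)).re) / X ^ (2 * (4 - i)),
    fun X hX => ⟨?_, ?_⟩⟩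
  · have hX' : 0 < X := by linarith
    have e : (fun X => X * (HH ν y X - ‖lad ν 4 y X‖ ^ 2)) =
        fun X => ∑ i ∈ Finset.range 4, X * (‖lad ν i y X‖ ^ 2 / X ^ (2 * (4 - i))) := by
      funext X
      rw [HH, Finset.sum_range_succ, ← Finset.mul_sum]
      simp
    rw [e]
    exact HasDerivAt.fun_sum fun i hi => x_chain
      (Cn.x_lad (h.x_mono (by have := Finset.mem_range.1 hi; omega)) ν) hX' (ν + i) (4 - i)
  · have a0 := x_Der_step (ν := ν) (y := y) hν hX 0 3 rfl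
    have a1 := x_Der_step (ν := ν) (y := y) hν hX 1 2 rfl
    have a2 := x_Der_step (ν := ν) (y := y) hν hX 2 1 rfl
    have a3 := x_Der_step (ν := ν) (y := y) hν hX 3 0 rfl
    have p : 0 ≤ ‖lad ν 0 y X‖ ^ 2 / X ^ (2 * (3 + 1)) := by positivity
    simp only [HH, Finset.sum_range_succ, Finset.range_zero, Finset.sum_empty, zero_add]
    norm_num at a0 a1 a2 a3 p ⊢
    linarith

end Vale.Agent.P139.Xp
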