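import Vale.Agent.P139.X.Der
import Vale.Agent.P139.X.Cpl

/-! P139 X/En: scalar Lyapunov functions. `y4 = lad ν 4 y`, `p = Lam y4`, `T = PY (ν + 4) ℓ y4`,
`φ = Im (p conj y4) + X |y4|² / 2`, `ψ = X (HH - |y4|²)`.
`x_enA`: `E = -(φ + ψ)`, `E' ≥ |y4|² - |T| |y4| / X - |y4|² + 3/4 HH`, `|y4|² ≤ HH`.
`x_enB`: `E = -(4 φ + ψ) + Re (p conj y4) / X`. With `u = |y4|`, `b = |p| / X`, `x = 1 / X ≤ 1/2`,
`g = |t| / X`, `T = t + 2 κ p - κ² y4`, `|T| / X ≤ g + b / 2 + x u / 16`, `R = HH - u²`: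
`E' ≥ 3/4 R + b² + (15/4 + 25/4 x² - x / 2) u² - (1 + x) b u - (4 + x) u (g + b/2 + x u/16)`; use
`(3 + 3x/2) b u ≤ 9/10 b² + (3 + 3x/2)² u² / (18/5)` and `(9/2) g u ≤ u² / 2 + 11 g²`.
Prove this last step as a lemma on real numbers. -/

noncomputable section

open MeasureTheory Filter Topology Set Complex Asymptotics
open scoped ComplexConjugate ContDiff

namespace Vale.Agent.P139.Xp

variable {y : ℝ → ℂ} {ν : ℂ} {ℓ : ℝ}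

theorem x_En_im (a b : ℂ) : -(‖a‖ * ‖b‖) ≤ (a * conj b).im ∧ (a * conj b).im ≤ ‖a‖ * ‖b‖ := by
  have := Complex.abs_im_le_norm (a * conj b)
  rwa [norm_mul, Complex.norm_conj, abs_le] at this

theorem x_En_re (a b : ℂ) : -(‖a‖ * ‖b‖) ≤ (a * conj b).re ∧ (a * conj b).re ≤ ‖a‖ * ‖b‖ := by
  have := Complex.abs_re_le_norm (a * conj b)
  rwa [norm_mul, Complex.norm_conj, abs_le] at this

theorem x_En_real {x u b g t : ℝ} (x0 : 0 ≤ x) (x1 : x ≤ 1 / 2) (hu : 0 ≤ u) (hg : 0 ≤ g)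
    (ht : t ≤ g + b / 2 + x * u / 16) :
    (u ^ 2 + b ^ 2) / 10 - 100 * g ^ 2 ≤ b ^ 2 + (15 / 4 + 25 / 4 * x ^ 2 - x / 2) * u ^ 2 -
      (1 + x) * b * u - (4 + x) * u * t := by
  have h1 := mul_le_mul_of_nonneg_left ht (by positivity : 0 ≤ (4 + x) * u)
  have h2 := mul_le_mul_of_nonneg_right x1 (mul_nonneg hu hg)
  have h3 := sq_nonneg (b - (5 / 3 + 5 / 6 * x) * u)
  have h4 := sq_nonneg (u - 9 / 2 * g)
  have h5 := sq_nonneg ((x - 3 / 10) * u)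
  have h6 := mul_nonneg x0 (sq_nonneg u)
  nlinarith [sq_nonneg g, sq_nonneg u, sq_nonneg (x * u)]

theorem x_enA (h : Cn 6 y) (hν : -5 / 2 ≤ ν.re) (ℓ : ℝ) : ∃ E e : ℝ → ℝ, ∀ X, 2 ≤ X →
    HasDerivAt E (e X) X ∧
      HH ν y X / 4 - ‖PY (ν + 4) ℓ (lad ν 4 y) X‖ ^ 2 / X ^ 2 ≤ e X ∧
      E X ≤ ‖Lam (lad ν 4 y) X‖ * ‖lad ν 4 y X‖ ∧
      -E X ≤ ‖Lam (lad ν 4 y) X‖ * ‖lad ν 4 y X‖ + X * HH ν y X := by
  obtain ⟨e, he⟩ := x_chain4 (h.x_mono (by omega)) hν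
  have h4 : Cn 2 (lad ν 4 y) := Cn.x_lad h ν
  refine ⟨fun X => -(((Lam (lad ν 4 y) X * conj (lad ν 4 y X)).im + X * ‖lad ν 4 y X‖ ^ 2 / 2) +
    X * (HH ν y X - ‖lad ν 4 y X‖ ^ 2)), fun X => -(((1 / 2 - (ν + 4).re) * ‖lad ν 4 y X‖ ^ 2 +
      (PY (ν + 4) ℓ (lad ν 4 y) X * conj (lad ν 4 y X)).im / X) + e X), fun X hX => ?_⟩
  have hX' : 0 < X := by linarith
  have b1 := x_En_im (Lam (lad ν 4 y) X) (lad ν 4 y X)
  have b2 := x_lad4_le_HH ν y X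
  have b3 := mul_nonneg hX'.le (sq_nonneg ‖lad ν 4 y X‖)
  have b4 := mul_le_mul_of_nonneg_left b2 hX'.le
  refine ⟨((x_flux h4 hX' _ ℓ).add (he X hX).1).neg, ?_, by linarith [b1.1], by linarith [b1.2]⟩
  have c1 := div_le_div_of_nonneg_right
    (x_En_im (PY (ν + 4) ℓ (lad ν 4 y) X) (lad ν 4 y X)).2 hX'.le
  have c2 : (1 / 2 - (ν + 4).re) * ‖lad ν 4 y X‖ ^ 2 ≤ -1 * ‖lad ν 4 y X‖ ^ 2 :=
    mul_le_mul_of_nonneg_right (by simp; linarith) (sq_nonneg _)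
  rw [mul_div_right_comm] at c1
  rw [← div_pow]
  nlinarith [(he X hX).2, sq_nonneg (‖PY (ν + 4) ℓ (lad ν 4 y) X‖ / X - ‖lad ν 4 y X‖),
    sq_nonneg (‖PY (ν + 4) ℓ (lad ν 4 y) X‖ / X)]

theorem x_enB (h : Cn 6 y) (hν : -5 / 2 ≤ ν.re) (hi : |ν.im| ≤ 1 / 2) (hl : 5 / 2 ≤ ℓ) {κ : ℂ}
    (hκ : ‖κ‖ ≤ 1 / 4) : ∃ E e : ℝ → ℝ, ∀ X, 2 ≤ X →
    HasDerivAt E (e X) X ∧
      HB ν y X / 10 - 100 * (‖PY (ν + 4) ℓ (lad ν 4 y) X -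
        lin (2 * κ) (-κ ^ 2) (lad ν 4 y) X‖ ^ 2 / X ^ 2) ≤ e X ∧
      E X ≤ 5 * (‖Lam (lad ν 4 y) X‖ * ‖lad ν 4 y X‖) ∧
      -E X ≤ 5 * (‖Lam (lad ν 4 y) X‖ * ‖lad ν 4 y X‖) + 2 * X * HH ν y X := by
  obtain ⟨e, he⟩ := x_chain4 (h.x_mono (by omega)) hν
  have h4 : Cn 2 (lad ν 4 y) := Cn.x_lad h ν
  refine ⟨fun X => -(4 * ((Lam (lad ν 4 y) X * conj (lad ν 4 y X)).im +
    X * ‖lad ν 4 y X‖ ^ 2 / 2) + X * (HH ν y X - ‖lad ν 4 y X‖ ^ 2)) +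
      (Lam (lad ν 4 y) X * conj (lad ν 4 y X)).re / X, _, fun X hX =>
    ⟨((((x_flux h4 (by linarith) (ν + 4) ℓ).const_mul 4).add (he X hX).1).neg).add
      (x_pair h4 (by linarith) (ν + 4) ℓ), ?_⟩⟩
  have hX' : 0 < X := by linarith
  have b2 := x_lad4_le_HH ν y X
  have b5 := (he X hX).2
  simp only [HB, lin]
  generalize HH ν y X = H at *
  generalize Lam (lad ν 4 y) X = p at *
  generalize PY (ν + 4) ℓ (lad ν 4 y) X = T at *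
  generalize lad ν 4 y X = u at *
  have b1 := x_En_im p u
  have b1' := x_En_re p u
  have b3 := mul_nonneg hX'.le (sq_nonneg ‖u‖)
  have b4 := mul_le_mul_of_nonneg_left b2 hX'.le
  have pu : 0 ≤ ‖p‖ * ‖u‖ := by positivity
  have r1 : (p * conj u).re / X ≤ ‖p‖ * ‖u‖ := by
    rw [div_le_iff₀ hX']
    nlinarith [b1'.2]
  have r2 : -(‖p‖ * ‖u‖) ≤ (p * conj u).re / X := by
    rw [le_div_iff₀ hX']
    nlinarith [b1'.1]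
  refine ⟨?_, by linarith [b1.1], by linarith [b1.2]⟩
  obtain ⟨x, hx⟩ : ∃ x, x = X⁻¹ := ⟨_, rfl⟩
  have x0 : 0 < x := by rw [hx]; positivity
  have x1 : x ≤ 1 / 2 := by rw [hx, one_div]; exact inv_anti₀ two_pos hX
  have nT : ‖T‖ ≤ ‖T - (2 * κ * p + -κ ^ 2 * u)‖ + ‖p‖ / 2 + ‖u‖ / 16 := by
    have a1 := norm_add_le (T - (2 * κ * p + -κ ^ 2 * u)) (2 * κ * p + -κ ^ 2 * u)
    have a2 := norm_add_le (2 * κ * p) (-κ ^ 2 * u)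
    rw [sub_add_cancel] at a1
    rw [norm_mul, norm_mul, norm_mul, norm_neg, norm_pow, Complex.norm_ofNat] at a2
    have a3 := mul_le_mul_of_nonneg_right hκ (norm_nonneg p)
    have a4 := mul_le_mul_of_nonneg_right (pow_le_pow_left₀ (norm_nonneg _) hκ 2) (norm_nonneg u)
    linarith
  have key := x_En_real (x := x) (u := ‖u‖) (b := ‖p‖ * x)
    (g := ‖T - (2 * κ * p + -κ ^ 2 * u)‖ * x) (t := ‖T‖ * x) x0.le x1 (norm_nonneg _)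
    (by positivity) (by nlinarith [mul_le_mul_of_nonneg_right nT x0.le])
  have e1 : ∀ a : ℝ, a / X = a * x := fun a => by rw [hx, div_eq_mul_inv]
  have e2 : ∀ a : ℝ, a / X ^ 2 = a * x ^ 2 := fun a => by rw [hx, div_eq_mul_inv, inv_pow]
  have e3 : X * x = 1 := by rw [hx, mul_inv_cancel₀ hX'.ne']
  have e4 : ∀ a : ℝ, X * a * x ^ 2 = a * x := fun a => by
    linear_combination (a * x) * e3
  simp only [e1, e2, add_mul, sub_mul, e4, add_re, re_ofNat, add_im, im_ofNat, add_zero]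
  have c1 := mul_le_mul_of_nonneg_right (x_En_im T u).2 x0.le
  have c2 := mul_le_mul_of_nonneg_right (x_En_re T u).1 (sq_nonneg x)
  have c3 := mul_le_mul_of_nonneg_right b1.1 x0.le
  have c4 := mul_le_mul_of_nonneg_right b1'.2 (sq_nonneg x)
  have c5 := mul_le_mul_of_nonneg_right hν (sq_nonneg ‖u‖)
  have c6 : (5 / 2) ^ 2 * (‖u‖ ^ 2 * x ^ 2) ≤ ℓ ^ 2 * (‖u‖ ^ 2 * x ^ 2) := by gcongr
  have c7 := mul_le_mul_of_nonneg_right (abs_le.1 hi).1 (by positivity : 0 ≤ ‖u‖ ^ 2 * x)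
  have c8 : X * ν.im * ‖u‖ ^ 2 * x ^ 2 = ν.im * (‖u‖ ^ 2 * x) := by
    linear_combination (ν.im * ‖u‖ ^ 2 * x) * e3
  linarith

end Vale.Agent.P139.Xp
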