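import Vale.Agent.P139.X.En

/-! P139 X/EnP: energy estimates for coupled pairs.
Plan: add the two Lyapunov functions of `x_enA` (resp. `x_enB`), rewrite the sources with
`Sol.x_lad` (cast `((4 : ℕ) : ℂ) = 4`), `x_lad_add`, `x_lad_lin`; absorb the coupling by `x_cpl_sq`
(`x_par_swap`, `x_par_re`); `x_lyap` with `d = (HH + HH') / 8`, `r = 0` (resp.
`d = (HB + HB') / 20`, `r = 200 (|R_4|² + |R'_4|²) / X²`), `b` = products of the functions of `Dec`;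
`L2.x_mono`. Data: `|p| |y4| ≤ M * (M / s)`, `x_HH_le`, `X ≤ 4`. -/

noncomputable section

open MeasureTheory Filter Topology Set Complex Asymptotics
open scoped ComplexConjugate ContDiff

namespace Vale.Agent.P139.Xp

variable {X0 ε β ℓ X s M : ℝ} {U1 U2 y y' : ℝ → ℂ} {ν ν' : ℂ}

theorem x_EnP_prod (hs : 1 ≤ s) (hM : rr s ν y X 4 ≤ M) :
    ‖Lam (lad ν 4 y) X‖ * ‖lad ν 4 y X‖ ≤ M ^ 2 / s := by
  have hs0 : 0 < s := by linarith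
  unfold rr at hM
  have h1 := norm_nonneg (Lam (lad ν 4 y) X)
  have h2 := mul_nonneg hs0.le (norm_nonneg (lad ν 4 y X))
  rw [le_div_iff₀ hs0, mul_assoc, sq]
  exact mul_le_mul (by linarith) (by linarith) (by positivity) (by linarith)

theorem x_EnP_HH (hs : 1 ≤ s) (hX : X ∈ Icc (2 : ℝ) 4) (hM : ∀ j ≤ 4, rr s ν y X j ≤ M) :
    X * HH ν y X ≤ 20 * (M ^ 2 / s) := by
  have hs0 : 0 < s := by linarith
  have h1 := x_HH_le hs0 (by linarith [hX.1]) hM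
  have h2 : (M / s) ^ 2 ≤ M ^ 2 / s := by
    rw [div_pow]
    exact div_le_div_of_nonneg_left (sq_nonneg _) hs0 (by nlinarith)
  have h3 := mul_le_mul_of_nonneg_right hX.2 (x_HH_nonneg ν y X)
  linarith

theorem x_EnP_lim (hd : Dec ν y) :
    Tendsto (fun Y => ‖Lam (lad ν 4 y) Y‖ * ‖lad ν 4 y Y‖) atTop (𝓝 0) := by
  simpa using hd.2.norm.mul hd.1.norm

theorem x_EnP_A (hU : Coef X0 ε β U1 U2) (h0 : 0 ≤ ε) (hε : ε ≤ 1 / 1000)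
    (hν : ν + 2 * I * β = conj ν') (h : Sol ν ℓ y (cpl U1 U2 y y')) (h' : Cn 10 y') (hX0 : X0 ≤ X)
    (hX : 2 ≤ X) :
    ‖PY (ν + 4) ℓ (lad ν 4 y) X‖ ^ 2 / X ^ 2 ≤ 1 / 10000 * (HH ν y X + HH ν' y' X) := by
  have e := h.x_lad (j := 4) (by omega) (by linarith : 0 < X)
  rw [Nat.cast_ofNat] at e
  rw [e]
  refine (x_cpl_sq hU hν (h.1.x_mono (by omega)) (h'.x_mono (by omega)) hX0 hX).trans
    (mul_le_mul_of_nonneg_right (by nlinarith) (add_nonneg (x_HH_nonneg _ _ _) (x_HH_nonneg _ _ _)))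

theorem x_EnP_B {κ : ℂ} {R : ℝ → ℂ} (hU : Coef X0 ε β U1 U2) (h0 : 0 ≤ ε) (hε : ε ≤ 1 / 1000)
    (hν : ν + 2 * I * β = conj ν) (hR : Cn 4 R)
    (h : Sol ν ℓ y fun X => cpl U1 U2 y y' X + lin (2 * κ) (-κ ^ 2) y X + R X) (h' : Cn 10 y')
    (hX0 : X0 ≤ X) (hX : 2 ≤ X) :
    ‖PY (ν + 4) ℓ (lad ν 4 y) X - lin (2 * κ) (-κ ^ 2) (lad ν 4 y) X‖ ^ 2 / X ^ 2 ≤
      1 / 5000 * (HB ν y X + HB ν y' X) + 2 * (‖lad ν 4 R X‖ ^ 2 / X ^ 2) := by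
  have hX' : 0 < X := by linarith
  have e := h.x_lad (j := 4) (by omega) hX'
  have c1 : Cn 4 (cpl U1 U2 y y') :=
    (hU.c1 4).x_cpl (hU.c2 4) (h.1.x_mono (by omega)) (h'.x_mono (by omega))
  have c2 : Cn 4 (lin (2 * κ) (-κ ^ 2) y) := (h.1.x_mono (by omega)).x_lin _ _
  rw [Nat.cast_ofNat, x_lad_add (c1.x_add c2) hR hX', x_lad_add c1 c2 hX',
    x_lad_lin (h.1.x_mono (by omega)) hX'] at e
  rw [e, add_right_comm, add_sub_cancel_right]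
  have b1 := x_cpl_sq hU hν (h.1.x_mono (by omega)) (h'.x_mono (by omega)) hX0 hX
  have b2 : 100 * ε ^ 2 * (HH ν y X + HH ν y' X) ≤ 1 / 10000 * (HB ν y X + HB ν y' X) :=
    mul_le_mul (by nlinarith) (add_le_add (x_HH_le_HB _ _ _) (x_HH_le_HB _ _ _))
      (add_nonneg (x_HH_nonneg _ _ _) (x_HH_nonneg _ _ _)) (by norm_num)
  have b4 : ‖lad ν 4 (cpl U1 U2 y y') X + lad ν 4 R X‖ ^ 2 ≤
      2 * (‖lad ν 4 (cpl U1 U2 y y') X‖ ^ 2 + ‖lad ν 4 R X‖ ^ 2) := by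
    refine (pow_le_pow_left₀ (norm_nonneg _) (norm_add_le _ _) 2).trans ?_
    nlinarith [sq_nonneg (‖lad ν 4 (cpl U1 U2 y y') X‖ - ‖lad ν 4 R X‖)]
  refine (div_le_div_of_nonneg_right b4 (by positivity)).trans ?_
  rw [mul_div_assoc, add_div]
  linarith

theorem x_enA_pair (hU : Coef X0 ε β U1 U2) (h0 : 0 ≤ ε) (hε : ε ≤ 1 / 1000)
    (hν : ν + 2 * I * β = conj ν') (hr : -5 / 2 ≤ ν.re) (h : Sol ν ℓ y (cpl U1 U2 y y'))
    (h' : Sol ν' ℓ y' (cpl U1 U2 y' y)) (hd : Dec ν y) (hd' : Dec ν' y') (hX0 : X0 ≤ X)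
    (hX : X ∈ Icc (2 : ℝ) 4) (hs : 1 ≤ s) (hM : ∀ j ≤ 4, rr s ν y X j ≤ M)
    (hM' : ∀ j ≤ 4, rr s ν' y' X j ≤ M) :
    L2 (fun Y => HH ν y Y + HH ν' y' Y) X (400 * M ^ 2 / s) := by
  have hX' : 0 < X := by linarith [hX.1]
  obtain ⟨E, e, hE⟩ := x_enA (h.1.x_mono (by omega)) hr ℓ
  obtain ⟨E', e', hE'⟩ := x_enA (h'.1.x_mono (by omega)) (hr.trans_eq (x_par_re hν).symm) ℓ
  have cH : ContinuousOn (fun Y => HH ν y Y + HH ν' y' Y) (Ioi 0) :=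
    (x_HH_cont (h.1.x_mono (by omega)) ν).add (x_HH_cont (h'.1.x_mono (by omega)) ν')
  have cd : ContinuousOn (fun Y => 1 / 8 * (HH ν y Y + HH ν' y' Y)) (Ioi 0) :=
    continuousOn_const.mul cH
  have key := x_lyap (E := fun Y => E Y + E' Y) (e := fun Y => e Y + e' Y) (r := fun _ => 0)
    (S := 0) hX' (fun Y hY => (hE Y (hX.1.trans hY)).1.add (hE' Y (hX.1.trans hY)).1) cd
    continuousOn_const (fun Y _ => by linarith [x_HH_nonneg ν y Y, x_HH_nonneg ν' y' Y])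
    (fun Y hY => by
      linarith [(hE Y (hX.1.trans hY)).2.1, (hE' Y (hX.1.trans hY)).2.1, x_HH_nonneg ν y Y,
        x_HH_nonneg ν' y' Y, x_EnP_A hU h0 hε hν h h'.1 (hX0.trans hY) (hX.1.trans hY),
        x_EnP_A hU h0 hε (x_par_swap hν) h' h.1 (hX0.trans hY) (hX.1.trans hY)])
    (fun Y hY => add_le_add (hE Y (hX.1.trans hY)).2.2.1 (hE' Y (hX.1.trans hY)).2.2.1)
    (by simpa using (x_EnP_lim hd).add (x_EnP_lim hd')) (fun X1 _ => by simp)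
  refine key.x_mono (c := 8) hX' cd cH (by norm_num) (fun Y _ => by linarith) ?_
  have hp : 0 ≤ M ^ 2 / s := by positivity
  rw [mul_div_assoc]
  linarith [(hE X hX.1).2.2.2, (hE' X hX.1).2.2.2, x_EnP_prod hs (hM 4 le_rfl),
    x_EnP_prod hs (hM' 4 le_rfl), x_EnP_HH hs hX hM, x_EnP_HH hs hX hM']

theorem x_enB_pair {κ κ' : ℂ} {R R' : ℝ → ℂ} {S : ℝ} (hU : Coef X0 ε β U1 U2) (h0 : 0 ≤ ε)
    (hε : ε ≤ 1 / 1000) (hν : ν + 2 * I * β = conj ν) (hr : -5 / 2 ≤ ν.re) (hi : |ν.im| ≤ 1 / 2)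
    (hl : 5 / 2 ≤ ℓ) (hκ : ‖κ‖ ≤ 1 / 4) (hκ' : ‖κ'‖ ≤ 1 / 4) (hR : Cn 4 R) (hR' : Cn 4 R')
    (h : Sol ν ℓ y fun X => cpl U1 U2 y y' X + lin (2 * κ) (-κ ^ 2) y X + R X)
    (h' : Sol ν ℓ y' fun X => cpl U1 U2 y' y X + lin (2 * κ') (-κ' ^ 2) y' X + R' X)
    (hd : Dec ν y) (hd' : Dec ν y') (hX0 : X0 ≤ X) (hX : X ∈ Icc (2 : ℝ) 4)
    (hM : ∀ j ≤ 4, rr 1 ν y X j ≤ M) (hM' : ∀ j ≤ 4, rr 1 ν y' X j ≤ M)
    (hS : L2 (fun Y => ‖lad ν 4 R Y‖ ^ 2 / Y ^ 2 + ‖lad ν 4 R' Y‖ ^ 2 / Y ^ 2) X S) :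
    L2 (fun Y => HB ν y Y + HB ν y' Y) X (2000 * M ^ 2 + 4000 * S) := by
  have hX' : 0 < X := by linarith [hX.1]
  obtain ⟨E, e, hE⟩ := x_enB (h.1.x_mono (by omega)) hr hi hl hκ
  obtain ⟨E', e', hE'⟩ := x_enB (h'.1.x_mono (by omega)) hr hi hl hκ'
  have cH : ContinuousOn (fun Y => HB ν y Y + HB ν y' Y) (Ioi 0) :=
    (x_HB_cont (h.1.x_mono (by omega)) ν).add (x_HB_cont (h'.1.x_mono (by omega)) ν)
  have cd : ContinuousOn (fun Y => 1 / 20 * (HB ν y Y + HB ν y' Y)) (Ioi 0) :=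
    continuousOn_const.mul cH
  have c1 : ∀ {R : ℝ → ℂ}, Cn 4 R → ContinuousOn (fun Y => ‖lad ν 4 R Y‖ ^ 2 / Y ^ 2) (Ioi 0) :=
    fun hR => ((Cn.x_lad (n := 0) hR ν).x_cont.norm.pow 2).div (continuousOn_id.pow 2)
      fun _ hY => pow_ne_zero 2 (ne_of_gt hY)
  have cR : ContinuousOn (fun Y => ‖lad ν 4 R Y‖ ^ 2 / Y ^ 2 + ‖lad ν 4 R' Y‖ ^ 2 / Y ^ 2) (Ioi 0) :=
    (c1 hR).add (c1 hR')
  have cr : ContinuousOn
      (fun Y => 200 * (‖lad ν 4 R Y‖ ^ 2 / Y ^ 2 + ‖lad ν 4 R' Y‖ ^ 2 / Y ^ 2)) (Ioi 0) :=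
    continuousOn_const.mul cR
  have g := fun y Y => (x_HH_nonneg ν y Y).trans (x_HH_le_HB ν y Y)
  have key := x_lyap (E := fun Y => E Y + E' Y) (e := fun Y => e Y + e' Y) (S := 200 * S) hX'
    (fun Y hY => (hE Y (hX.1.trans hY)).1.add (hE' Y (hX.1.trans hY)).1) cd cr
    (fun Y _ => by linarith [g y Y, g y' Y])
    (fun Y hY => by
      linarith [(hE Y (hX.1.trans hY)).2.1, (hE' Y (hX.1.trans hY)).2.1, g y Y, g y' Y,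
        x_EnP_B hU h0 hε hν hR h h'.1 (hX0.trans hY) (hX.1.trans hY),
        x_EnP_B hU h0 hε hν hR' h' h.1 (hX0.trans hY) (hX.1.trans hY)])
    (fun Y hY => add_le_add (hE Y (hX.1.trans hY)).2.2.1 (hE' Y (hX.1.trans hY)).2.2.1)
    (by simpa using ((x_EnP_lim hd).const_mul 5).add ((x_EnP_lim hd').const_mul 5))
    (hS.x_mono hX' cR cr (by norm_num) (fun _ _ => le_rfl) le_rfl)
  refine key.x_mono (c := 20) hX' cd cH (by norm_num) (fun Y _ => by linarith) ?_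
  have a1 := x_EnP_prod le_rfl (hM 4 le_rfl)
  have a2 := x_EnP_prod le_rfl (hM' 4 le_rfl)
  have a3 := x_EnP_HH le_rfl hX hM
  have a4 := x_EnP_HH le_rfl hX hM'
  rw [div_one] at a1 a2 a3 a4
  linarith [(hE X hX.1).2.2.2, (hE' X hX.1).2.2.2, sq_nonneg M]

end Vale.Agent.P139.Xp
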