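import Vale.Agent.P139.X.Green
import Vale.Agent.P139.X.Cpl

/-! P139 X/Row: descent along the ladder and sizes.
Plan: `x_desc1`: unfold, `x_Lam_lad_succ`, `ring`. `x_row_step`: with `n r = ‖r.1‖ / s + ‖r.2‖`,
`n (rowStep μ ℓ X r) ≤ 8 T n r` if `‖μ‖ ≤ T`, `4 ≤ T`, `ℓ² ≤ T s`, `1 ≤ s ≤ T`, `0 < X ≤ 4`; the start has
`n ≤ 2 K`. `x_row`: four descents, `x_green` at level four (`‖NF‖ + X / 2 ≤ 3 K s`, `Real.le_sqrt`).
`x_step`: triangle inequalities. `x_seq`: four explicit steps or induction. -/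

noncomputable section

open MeasureTheory Filter Topology Set Complex Asymptotics
open scoped ComplexConjugate ContDiff

namespace Vale.Agent.P139.Xp

variable {y : ℝ → ℂ} {ν : ℂ} {ℓ X s T K S : ℝ} {j : ℕ}

theorem x_desc1 (h : Cn (j + 2) y) (hX : 0 < X) (r : ℂ × ℂ) :
    dotR (rowStep (ν + j) ℓ X r) (lad ν j y X, Lam (lad ν j y) X) =
      dotR r (lad ν (j + 1) y X, Lam (lad ν (j + 1) y) X) - r.2 * PY (ν + j) ℓ (lad ν j y) X := by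
  rw [x_Lam_lad_succ h hX]
  simp only [dotR, rowStep, x_lad_succ, PY]
  ring

theorem x_row_step {μ : ℂ} (hX : X ∈ Icc (2 : ℝ) 4) (hs : 1 ≤ s) (hT : s ≤ T) (h4 : 4 ≤ T)
    (hl : ℓ ^ 2 ≤ T * s) (hμ : ‖μ‖ ≤ T) (r : ℂ × ℂ) :
    ‖(rowStep μ ℓ X r).1‖ / s + ‖(rowStep μ ℓ X r).2‖ ≤ 8 * T * (‖r.1‖ / s + ‖r.2‖) := by
  have hs0 : 0 < s := by linarith
  have nX : ‖I * (X : ℂ)‖ ≤ 4 := by
    rw [norm_mul, norm_I, one_mul, Complex.norm_real, Real.norm_of_nonneg (by linarith [hX.1])]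
    exact hX.2
  have a1 : ‖(ℓ : ℂ) ^ 2 - I * X * μ‖ ≤ 5 * T * s := by
    refine (norm_sub_le _ _).trans ?_
    rw [norm_pow, Complex.norm_real, Real.norm_eq_abs, sq_abs, norm_mul]
    nlinarith [mul_le_mul nX hμ (norm_nonneg _) (by norm_num)]
  have a2 : ‖μ - I * X‖ ≤ 2 * T := by linarith [norm_sub_le μ (I * X)]
  have b1 : ‖(rowStep μ ℓ X r).1‖ ≤ ‖r.1‖ * T + ‖r.2‖ * (5 * T * s) := by
    refine (norm_add_le _ _).trans ?_
    rw [norm_mul, norm_mul]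
    gcongr
  have b2 : ‖(rowStep μ ℓ X r).2‖ ≤ ‖r.1‖ + ‖r.2‖ * (2 * T) := by
    refine (norm_add_le _ _).trans ?_
    rw [norm_mul]
    gcongr
  have b3 : ‖(rowStep μ ℓ X r).1‖ / s ≤ T * (‖r.1‖ / s) + 5 * T * ‖r.2‖ :=
    (div_le_div_of_nonneg_right b1 hs0.le).trans_eq (by field_simp)
  have b4 : ‖r.1‖ ≤ T * (‖r.1‖ / s) := by
    rw [← mul_div_assoc, le_div_iff₀ hs0, mul_comm]
    exact mul_le_mul_of_nonneg_right hT (norm_nonneg _)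
  have p1 : 0 ≤ T * (‖r.1‖ / s) := by positivity
  have p2 : 0 ≤ T * ‖r.2‖ := by positivity
  linarith

theorem x_Row_sizes (hX : X ∈ Icc (2 : ℝ) 4) (hs : 1 ≤ s) (hT : s ≤ T) (hl : ℓ ^ 2 ≤ T * s)
    (hν : ‖ν‖ + 4 ≤ T) (hK : 1 ≤ K) (hN : ‖NF (ν + 4) ℓ X‖ ≤ K * s) :
    ‖(rowStep (ν + 3) ℓ X (-NF (ν + 4) ℓ X, 1)).2‖ ≤ 2 * K * (8 * T) ∧
    ‖(rowStep (ν + 2) ℓ X (rowStep (ν + 3) ℓ X (-NF (ν + 4) ℓ X, 1))).2‖ ≤ 2 * K * (8 * T) ^ 2 ∧
    ‖(rowStep (ν + 1) ℓ X (rowStep (ν + 2) ℓ X (rowStep (ν + 3) ℓ X (-NF (ν + 4) ℓ X, 1)))).2‖ ≤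
      2 * K * (8 * T) ^ 3 ∧ True ∧ ‖(row ν ℓ X).2‖ ≤ 2 * K * (8 * T) ^ 4 := by
  have hs0 : 0 < s := by linarith
  have h4 : 4 ≤ T := by linarith [norm_nonneg ν]
  have hT0 : 0 ≤ 8 * T := by linarith
  have nn : ∀ k : ℕ, k ≤ 4 → ‖ν + k‖ ≤ T := fun k hk => by
    have := norm_add_le ν k
    have h' : (k : ℝ) ≤ 4 := by exact_mod_cast hk
    rw [Complex.norm_natCast] at this
    linarith
  have le2 : ∀ r : ℂ × ℂ, ‖r.2‖ ≤ ‖r.1‖ / s + ‖r.2‖ := fun r =>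
    le_add_of_nonneg_left (by positivity)
  have n4 : ‖(-NF (ν + 4) ℓ X, (1 : ℂ)).1‖ / s + ‖(-NF (ν + 4) ℓ X, (1 : ℂ)).2‖ ≤ 2 * K := by
    have : ‖NF (ν + 4) ℓ X‖ / s ≤ K := (div_le_iff₀ hs0).2 hN
    rw [norm_neg, norm_one]
    linarith
  have n3 := (x_row_step (μ := ν + 3) hX hs hT h4 hl (by simpa using nn 3 (by omega)) _).trans
    (mul_le_mul_of_nonneg_left n4 hT0)
  have n2 := (x_row_step (μ := ν + 2) hX hs hT h4 hl (by simpa using nn 2 (by omega)) _).trans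
    (mul_le_mul_of_nonneg_left n3 hT0)
  have n1 := (x_row_step (μ := ν + 1) hX hs hT h4 hl (by simpa using nn 1 (by omega)) _).trans
    (mul_le_mul_of_nonneg_left n2 hT0)
  have n0 := (x_row_step (μ := ν) hX hs hT h4 hl (by linarith) _).trans
    (mul_le_mul_of_nonneg_left n1 hT0)
  exact ⟨(le2 _).trans (n3.trans_eq (by ring)), (le2 _).trans (n2.trans_eq (by ring)),
    (le2 _).trans (n1.trans_eq (by ring)), trivial, (le2 _).trans (n0.trans_eq (by ring))⟩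

theorem x_row2 (hX : X ∈ Icc (2 : ℝ) 4) (hs : 1 ≤ s) (hT : s ≤ T) (hl : ℓ ^ 2 ≤ T * s)
    (hν : ‖ν‖ + 4 ≤ T) (hK : 1 ≤ K) (hN : ‖NF (ν + 4) ℓ X‖ ≤ K * s) :
    ‖(row ν ℓ X).2‖ ≤ 2 * K * (8 * T) ^ 4 := by
  exact (x_Row_sizes hX hs hT hl hν hK hN).2.2.2.2

theorem x_row (h : Cn 6 y) (h0 : 0 ≤ ℓ) (hr : -5 / 2 ≤ ν.re) (hX : X ∈ Icc (2 : ℝ) 4) (hs : 1 ≤ s)
    (hT : s ≤ T) (hl : ℓ ^ 2 ≤ T * s) (hν : ‖ν‖ + 4 ≤ T) (hK : 1 ≤ K)
    (hN : ‖NF (ν + 4) ℓ X‖ ≤ K * s) (hd : Dec ν y)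
    (hS : L2 (fun Y => ‖PY (ν + 4) ℓ (lad ν 4 y) Y‖ ^ 2 / Y ^ 2) X S) :
    ‖dotR (row ν ℓ X) (y X, Lam y X)‖ ≤ √(S * (3 * K * s)) +
      2 * K * ∑ j ∈ Finset.range 4, (8 * T) ^ (3 - j) * ‖PY (ν + j) ℓ (lad ν j y) X‖ := by
  have hX' : 0 < X := by linarith [hX.1]
  obtain ⟨n3, n2, n1, -, -⟩ := id (x_Row_sizes hX hs hT hl hν hK hN)
  have d0 := x_desc1 (ν := ν) (ℓ := ℓ) (j := 0) (h.x_mono (by omega)) hX'
  have d1 := x_desc1 (ν := ν) (ℓ := ℓ) (j := 1) (h.x_mono (by omega)) hX'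
  have d2 := x_desc1 (ν := ν) (ℓ := ℓ) (j := 2) (h.x_mono (by omega)) hX'
  have d3 := x_desc1 (ν := ν) (ℓ := ℓ) (j := 3) (h.x_mono (by omega)) hX'
  have g := x_green (Cn.x_lad (n := 2) h ν) h0 (by simp; linarith) hX' hd.1 hd.2 hS
  have hS0 : 0 ≤ S := by simpa using hS X le_rfl
  have g2 : ‖Lam (lad ν 4 y) X - NF (ν + 4) ℓ X * lad ν 4 y X‖ ≤ √(S * (3 * K * s)) := by
    refine Real.le_sqrt_of_sq_le (g.trans (mul_le_mul_of_nonneg_left ?_ hS0))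
    nlinarith [hX.2]
  simp only [Finset.sum_range_succ, Finset.range_zero, Finset.sum_empty, zero_add]
  simp only [Nat.cast_zero, Nat.cast_one, Nat.cast_ofNat, add_zero, x_lad_zero] at d0 d1 d2 d3 ⊢
  unfold row
  rw [d0, d1, d2, d3]
  have e : dotR (-NF (ν + 4) ℓ X, 1) (lad ν (3 + 1) y X, Lam (lad ν (3 + 1) y) X) =
      Lam (lad ν 4 y) X - NF (ν + 4) ℓ X * lad ν 4 y X := by
    simp only [dotR]
    ring
  rw [e]
  refine (norm_sub_le _ _).trans ((add_le_add_left ((norm_sub_le _ _).trans (add_le_add_left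
    ((norm_sub_le _ _).trans (add_le_add_left (norm_sub_le _ _) _)) _)) _).trans ?_)
  simp only [norm_mul, norm_one]
  have m1 := mul_le_mul_of_nonneg_right n1 (norm_nonneg (PY ν ℓ y X))
  have m2 := mul_le_mul_of_nonneg_right n2 (norm_nonneg (PY (ν + 1) ℓ (lad ν 1 y) X))
  have m3 := mul_le_mul_of_nonneg_right n3 (norm_nonneg (PY (ν + 2) ℓ (lad ν 2 y) X))
  have m4 := mul_le_mul_of_nonneg_right hK (norm_nonneg (PY (ν + 3) ℓ (lad ν 3 y) X))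
  have m5 := norm_nonneg (PY (ν + 3) ℓ (lad ν 3 y) X)
  norm_num
  linarith

theorem x_step (h : Cn (j + 2) y) (hj : j ≤ 4) (hX : X ∈ Icc (2 : ℝ) 4) (hs : 1 ≤ s) (hT : s ≤ T)
    (hl : ℓ ^ 2 ≤ T * s) (hν : ‖ν‖ + 4 ≤ T) :
    rr s ν y X (j + 1) ≤ 6 * T * rr s ν y X j + ‖PY (ν + j) ℓ (lad ν j y) X‖ := by
  have hX' : 0 < X := by linarith [hX.1]
  have hj' : (j : ℝ) ≤ 4 := by exact_mod_cast hj
  have nμ : ‖ν + j‖ ≤ T := by
    have := norm_add_le ν j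
    rw [Complex.norm_natCast] at this
    linarith
  have h4 : 4 ≤ T := by linarith [norm_nonneg ν]
  have nX : ‖I * (X : ℂ)‖ ≤ 4 := by
    rw [norm_mul, norm_I, one_mul, Complex.norm_real, Real.norm_of_nonneg hX'.le]
    exact hX.2
  unfold rr
  have e : Lam (lad ν (j + 1) y) X = PY (ν + j) ℓ (lad ν j y) X + (ℓ : ℂ) ^ 2 * lad ν j y X -
      I * X * lad ν (j + 1) y X + (ν + j) * Lam (lad ν j y) X := by
    rw [x_Lam_lad_succ h hX']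
    simp only [PY, x_lad_succ]
    ring
  have a1 : ‖lad ν (j + 1) y X‖ ≤ ‖Lam (lad ν j y) X‖ + T * ‖lad ν j y X‖ := by
    refine (norm_add_le _ _).trans ?_
    rw [norm_mul]
    gcongr
  have a2 : ‖Lam (lad ν (j + 1) y) X‖ ≤ ‖PY (ν + j) ℓ (lad ν j y) X‖ + T * s * ‖lad ν j y X‖ +
      4 * ‖lad ν (j + 1) y X‖ + T * ‖Lam (lad ν j y) X‖ := by
    rw [e]
    refine (norm_add_le _ _).trans (add_le_add ((norm_sub_le _ _).trans (add_le_add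
      ((norm_add_le _ _).trans (add_le_add le_rfl ?_)) ?_)) ?_)
    · rw [norm_mul, norm_pow, Complex.norm_real, Real.norm_eq_abs, sq_abs]
      gcongr
    · rw [norm_mul]
      gcongr
    · rw [norm_mul]
      gcongr
  have p0 := norm_nonneg (lad ν j y X)
  have p1 := norm_nonneg (Lam (lad ν j y) X)
  have c1 := mul_le_mul_of_nonneg_left a1 (zero_le_one.trans hs)
  have c2 := mul_le_mul_of_nonneg_right hT p1
  have c3 := mul_le_mul_of_nonneg_right h4 p1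
  have c4 := mul_le_mul_of_nonneg_left hs (mul_nonneg (by linarith : 0 ≤ T) p0)
  linarith

theorem x_seq {R : ℕ → ℝ} {M : ℝ} (hT : 1 ≤ T) (hM : 1 ≤ M) (h0 : ∀ j, 0 ≤ R j)
    (h : ∀ j ≤ 3, R (j + 1) ≤ M * (T * R j + ∑ i ∈ Finset.range (j + 1), R i)) :
    ∀ j ≤ 4, R j ≤ (5 * M * T) ^ j * R 0 := by
  have hc : 1 ≤ 5 * M * T := by nlinarith
  intro j
  induction j using Nat.strong_induction_on with
  | _ j ih =>
    intro hj
    rcases j with _ | j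
    · simp
    have a1 : ∑ i ∈ Finset.range (j + 1), R i ≤ 4 * ((5 * M * T) ^ j * R 0) := by
      refine (Finset.sum_le_card_nsmul _ _ ((5 * M * T) ^ j * R 0) fun i hi => ?_).trans ?_
      · have hi' := Finset.mem_range.1 hi
        exact (ih i hi' (by omega)).trans
          (mul_le_mul_of_nonneg_right (pow_le_pow_right₀ hc (by omega)) (h0 0))
      · rw [Finset.card_range, nsmul_eq_mul]
        exact mul_le_mul_of_nonneg_right (by exact_mod_cast hj) (by have := h0 0; positivity)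
    have a2 := mul_le_mul_of_nonneg_left (ih j (by omega) (by omega)) (zero_le_one.trans hT)
    have a3 : 0 ≤ (5 * M * T) ^ j * R 0 := by have := h0 0; positivity
    have a4 := mul_le_mul_of_nonneg_right hT a3
    calc _ ≤ _ := h j (by omega)
      _ ≤ M * (5 * T * ((5 * M * T) ^ j * R 0)) :=
        mul_le_mul_of_nonneg_left (by linarith) (zero_le_one.trans hM)
      _ = _ := by ring

end Vale.Agent.P139.Xp
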