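import Vale.Agent.P139.X.EnP
import Vale.Agent.P139.X.Row

/-! P139 X/GenA: sizes and energy estimate for the four component system. -/

noncomputable section

open MeasureTheory Filter Topology Set Complex Asymptotics
open scoped ComplexConjugate ContDiff

namespace Vale.Agent.P139.Xp

section
variable {X0 ε β ℓ X : ℝ} {U1 U2 y y' u v : ℝ → ℂ} {ν α γ α' γ' : ℂ} {j : ℕ}

theorem x_GenAbs_lad (hU : Coef X0 ε β U1 U2)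
    (h : Sol ν ℓ y fun X => cpl U1 U2 y y' X + lin α γ v X + lin α' γ' u X) (h' : Cn 10 y')
    (hv : Cn 10 v) (hu : Cn 10 u) (hj : j ≤ 4) (hX : 0 < X) :
    PY (ν + j) ℓ (lad ν j y) X =
      lad ν j (cpl U1 U2 y y') X + lad ν j (lin α γ v) X + lad ν j (lin α' γ' u) X := by
  have c1 : Cn j (cpl U1 U2 y y') :=
    (hU.c1 j).x_cpl (hU.c2 j) (h.1.x_mono (by omega)) (h'.x_mono (by omega))
  have c2 : Cn j (lin α γ v) := (hv.x_mono (by omega)).x_lin _ _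
  have c3 : Cn j (lin α' γ' u) := (hu.x_mono (by omega)).x_lin _ _
  rw [h.x_lad (by omega) hX, x_lad_add (c1.x_add c2) c3 hX, x_lad_add c1 c2 hX]

theorem x_GenAbs_le {a a' : ℝ} (hU : Coef X0 ε β U1 U2) (hν : ν + 2 * I * β = conj ν)
    (h : Sol ν ℓ y fun X => cpl U1 U2 y y' X + lin α γ v X + lin α' γ' u X) (h' : Cn 10 y')
    (hv : Cn 10 v) (hu : Cn 10 u) (hj : j ≤ 4) (h0 : X0 ≤ X) (h1 : 1 ≤ X)
    (ha : ‖α‖ + ‖γ‖ ≤ a) (ha' : ‖α'‖ + ‖γ'‖ ≤ a') :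
    ‖PY (ν + j) ℓ (lad ν j y) X‖ ≤
      6 * ε * ∑ i ∈ Finset.range (j + 1), (‖lad ν i y X‖ + ‖lad ν i y' X‖) +
        a * rr 1 ν v X j + a' * rr 1 ν u X j := by
  have hX : 0 < X := by linarith
  rw [x_GenAbs_lad hU h h' hv hu hj hX]
  refine norm_add₃_le.trans (add_le_add (add_le_add
    (x_cpl_le hU hν (h.1.x_mono (by omega)) (h'.x_mono (by omega)) hj h0 h1) ?_) ?_)
  · exact (x_lin_le (hv.x_mono (by omega)) hX _ _).trans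
      (mul_le_mul_of_nonneg_right ha (x_rr_nonneg zero_le_one _ _ _ _))
  · exact (x_lin_le (hu.x_mono (by omega)) hX _ _).trans
      (mul_le_mul_of_nonneg_right ha' (x_rr_nonneg zero_le_one _ _ _ _))

theorem x_GenAbs_sq (hU : Coef X0 ε β U1 U2) (hν : ν + 2 * I * β = conj ν)
    (h : Sol ν ℓ y fun X => cpl U1 U2 y y' X + lin α γ v X + lin α' γ' u X) (h' : Cn 10 y')
    (hv : Cn 10 v) (hu : Cn 10 u) (h0 : X0 ≤ X) (h2 : 2 ≤ X) :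
    ‖PY (ν + 4) ℓ (lad ν 4 y) X‖ ^ 2 / X ^ 2 ≤ 3 * (100 * ε ^ 2 * (HH ν y X + HH ν y' X) +
      2 * (‖α‖ ^ 2 + ‖γ‖ ^ 2) * HB ν v X + 2 * (‖α'‖ ^ 2 + ‖γ'‖ ^ 2) * HB ν u X) := by
  have hX : 0 < X := by linarith
  have e := x_GenAbs_lad (j := 4) hU h h' hv hu le_rfl hX
  rw [Nat.cast_ofNat] at e
  have b1 := x_cpl_sq hU hν (h.1.x_mono (by omega)) (h'.x_mono (by omega)) h0 h2
  have b2 := x_lin_sq (ν := ν) (hv.x_mono (by omega)) (by linarith : 1 ≤ X) α γ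
  have b3 := x_lin_sq (ν := ν) (hu.x_mono (by omega)) (by linarith : 1 ≤ X) α' γ'
  have b4 : ‖PY (ν + 4) ℓ (lad ν 4 y) X‖ ^ 2 ≤ 3 * (‖lad ν 4 (cpl U1 U2 y y') X‖ ^ 2 +
      ‖lad ν 4 (lin α γ v) X‖ ^ 2 + ‖lad ν 4 (lin α' γ' u) X‖ ^ 2) := by
    rw [e]
    refine (pow_le_pow_left₀ (norm_nonneg _) norm_add₃_le 2).trans ?_
    nlinarith [sq_nonneg (‖lad ν 4 (cpl U1 U2 y y') X‖ - ‖lad ν 4 (lin α γ v) X‖),
      sq_nonneg (‖lad ν 4 (cpl U1 U2 y y') X‖ - ‖lad ν 4 (lin α' γ' u) X‖),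
      sq_nonneg (‖lad ν 4 (lin α γ v) X‖ - ‖lad ν 4 (lin α' γ' u) X‖)]
  refine (div_le_div_of_nonneg_right b4 (by positivity)).trans ?_
  rw [mul_div_assoc, add_div, add_div]
  linarith

theorem x_GenAbs_rr (ν : ℂ) (y : ℝ → ℂ) (X : ℝ) (j : ℕ) : ‖lad ν j y X‖ ≤ rr 1 ν y X j := by
  unfold rr
  linarith [norm_nonneg (Lam (lad ν j y) X)]

theorem x_GenAbs_cont (h : Cn 4 y) (ν : ℂ) :
    ContinuousOn (fun Y => ‖lad ν 4 y Y‖ ^ 2 / Y ^ 2) (Ioi 0) :=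
  ((Cn.x_lad (n := 0) h ν).x_cont.norm.pow 2).div (continuousOn_id.pow 2)
    fun _ hY => pow_ne_zero 2 (ne_of_gt hY)

end

variable {X0 ε β ℓ X τ : ℝ} {U1 U2 w w' E E' : ℝ → ℂ} {ν κ : ℂ}

theorem G4.x_sE (h : G4 U1 U2 ν ℓ τ κ w w' E E') : Sol ν ℓ E fun X =>
    cpl U1 U2 E E' X + lin (2 * (-τ)) (-(-τ) ^ 2) E X + lin 0 0 E X :=
  ⟨h.sE.1, fun X hX => by rw [h.sE.2 X hX]; simp [lin]⟩

theorem x_GenAbs_k (hκ : ‖κ‖ ≤ 1 / 4) : ‖2 * κ‖ + ‖-κ ^ 2‖ ≤ 1 := by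
  rw [norm_neg, norm_pow, norm_mul, Complex.norm_ofNat]
  nlinarith [norm_nonneg κ]

theorem x_GenAbs_t (hτ : τ ∈ Icc (0 : ℝ) (1 / 8)) : ‖(-τ : ℂ)‖ ≤ 1 / 4 := by
  rw [norm_neg, Complex.norm_real, Real.norm_of_nonneg hτ.1]
  linarith [hτ.2]

theorem x_GenAbs_kt (hκ : ‖κ‖ ≤ 1 / 4) (hτ : τ ∈ Icc (0 : ℝ) (1 / 8)) : ‖κ - τ‖ ≤ 1 / 2 := by
  have := x_GenAbs_t hτ
  rw [norm_neg] at this
  linarith [norm_sub_le κ τ]

/-- One step of the sizes for half of the system. -/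
theorem x_GenAbs_half (hU : Coef X0 ε β U1 U2) (h0 : 0 ≤ ε) (hε : ε ≤ 1 / 1000)
    (hν : ν + 2 * I * β = conj ν) (hn : ‖ν‖ ≤ 5) (hl : ℓ ∈ Icc (5 / 2 : ℝ) 3)
    (hτ : τ ∈ Icc (0 : ℝ) (1 / 8)) (hκ : ‖κ‖ ≤ 1 / 4) (h : G4 U1 U2 ν ℓ τ κ w w' E E')
    (hX0 : X0 ≤ X) (hX : X ∈ Icc (2 : ℝ) 4) {j : ℕ} (hj : j ≤ 3) :
    rr 1 ν w X (j + 1) + rr 1 ν E X (j + 1) ≤ 60 * (rr 1 ν w X j + rr 1 ν E X j) +
      ∑ i ∈ Finset.range (j + 1),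
        (rr 1 ν w X i + rr 1 ν w' X i + rr 1 ν E X i + rr 1 ν E' X i) := by
  have h1 : (1 : ℝ) ≤ X := by linarith [hX.1]
  have hl2 : ℓ ^ 2 ≤ 9 * 1 := by nlinarith [hl.1, hl.2]
  have s1 := x_step (ν := ν) (j := j) (h.sw.1.x_mono (by omega)) (by omega) hX le_rfl
    (by norm_num) hl2 (by linarith)
  have s2 := x_step (ν := ν) (j := j) (h.sE.1.x_mono (by omega)) (by omega) hX le_rfl
    (by norm_num) hl2 (by linarith)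
  have t1 := x_GenAbs_le (j := j) (a' := 3) hU hν h.sw h.sw'.1 h.sw.1 h.sE.1 (by omega) hX0 h1
    (x_GenAbs_k hκ) (by
      rw [norm_neg, Complex.norm_ofNat]
      linarith [x_GenAbs_kt hκ hτ])
  have t2 := x_GenAbs_le (j := j) (a' := 0) hU hν h.x_sE h.sE'.1 h.sE.1 h.sE.1 (by omega) hX0 h1
    (x_GenAbs_k (x_GenAbs_t hτ)) (by simp)
  have t3 : ∑ i ∈ Finset.range (j + 1), (‖lad ν i w X‖ + ‖lad ν i w' X‖) +
      ∑ i ∈ Finset.range (j + 1), (‖lad ν i E X‖ + ‖lad ν i E' X‖) ≤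
      ∑ i ∈ Finset.range (j + 1),
        (rr 1 ν w X i + rr 1 ν w' X i + rr 1 ν E X i + rr 1 ν E' X i) := by
    rw [← Finset.sum_add_distrib]
    exact Finset.sum_le_sum fun i _ => by
      linarith [x_GenAbs_rr ν w X i, x_GenAbs_rr ν w' X i, x_GenAbs_rr ν E X i,
        x_GenAbs_rr ν E' X i]
  have n1 : 0 ≤ ∑ i ∈ Finset.range (j + 1), (‖lad ν i w X‖ + ‖lad ν i w' X‖) := by positivity
  have n2 : 0 ≤ ∑ i ∈ Finset.range (j + 1), (‖lad ν i E X‖ + ‖lad ν i E' X‖) := by positivity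
  have n3 := x_rr_nonneg zero_le_one ν w X j
  have n4 := x_rr_nonneg zero_le_one ν E X j
  nlinarith

theorem x_GenAbs_size (hU : Coef X0 ε β U1 U2) (h0 : 0 ≤ ε) (hε : ε ≤ 1 / 1000)
    (hν : ν + 2 * I * β = conj ν) (hn : ‖ν‖ ≤ 5) (hl : ℓ ∈ Icc (5 / 2 : ℝ) 3)
    (hτ : τ ∈ Icc (0 : ℝ) (1 / 8)) (hκ : ‖κ‖ ≤ 1 / 4) (h : G4 U1 U2 ν ℓ τ κ w w' E E')
    (hX0 : X0 ≤ X) (hX : X ∈ Icc (2 : ℝ) 4) {j : ℕ} (hj : j ≤ 4) :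
    rr 1 ν w X j + rr 1 ν w' X j + rr 1 ν E X j + rr 1 ν E' X j ≤
      300 ^ 4 * (rr 1 ν w X 0 + rr 1 ν w' X 0 + rr 1 ν E X 0 + rr 1 ν E' X 0) := by
  have hn0 : ∀ j, 0 ≤ rr 1 ν w X j + rr 1 ν w' X j + rr 1 ν E X j + rr 1 ν E' X j := fun j => by
    linarith [x_rr_nonneg zero_le_one ν w X j, x_rr_nonneg zero_le_one ν w' X j,
      x_rr_nonneg zero_le_one ν E X j, x_rr_nonneg zero_le_one ν E' X j]
  have hs := x_seq (T := 30) (M := 2)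
    (R := fun j => rr 1 ν w X j + rr 1 ν w' X j + rr 1 ν E X j + rr 1 ν E' X j)
    (by norm_num) (by norm_num) hn0 (fun j hj => by
      have a1 := x_GenAbs_half hU h0 hε hν hn hl hτ hκ h hX0 hX hj
      have a2 := x_GenAbs_half hU h0 hε hν hn hl hτ (by rwa [Complex.norm_conj]) h.x_swap hX0 hX hj
      have a3 : ∑ i ∈ Finset.range (j + 1),
          (rr 1 ν w' X i + rr 1 ν w X i + rr 1 ν E' X i + rr 1 ν E X i) =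
          ∑ i ∈ Finset.range (j + 1),
            (rr 1 ν w X i + rr 1 ν w' X i + rr 1 ν E X i + rr 1 ν E' X i) :=
        Finset.sum_congr rfl fun i _ => by ring
      linarith) j hj
  refine hs.trans (mul_le_mul_of_nonneg_right ?_ (hn0 0))
  norm_num
  calc (300 : ℝ) ^ j ≤ 300 ^ 4 := pow_le_pow_right₀ (by norm_num) hj
    _ = _ := by norm_num

theorem x_GenAbs_en {D : ℝ} (hU : Coef X0 ε β U1 U2) (h0 : 0 ≤ ε) (hε : ε ≤ 1 / 1000)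
    (hν : ν + 2 * I * β = conj ν) (hr : -5 / 2 ≤ ν.re) (hi : |ν.im| ≤ 1 / 2)
    (hl : ℓ ∈ Icc (5 / 2 : ℝ) 3) (hτ : τ ∈ Icc (0 : ℝ) (1 / 8)) (hκ : ‖κ‖ ≤ 1 / 4)
    (h : G4 U1 U2 ν ℓ τ κ w w' E E') (d1 : Dec ν w) (d2 : Dec ν w') (d3 : Dec ν E)
    (d4 : Dec ν E') (hX0 : X0 ≤ X) (hX : X ∈ Icc (2 : ℝ) 4)
    (m1 : ∀ j ≤ 4, rr 1 ν w X j ≤ D) (m2 : ∀ j ≤ 4, rr 1 ν w' X j ≤ D)
    (m3 : ∀ j ≤ 4, rr 1 ν E X j ≤ D) (m4 : ∀ j ≤ 4, rr 1 ν E' X j ≤ D) :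
    L2 (fun Y => (HB ν w Y + HB ν w' Y) + (HB ν E Y + HB ν E' Y)) X (10 ^ 8 * D ^ 2) := by
  have hX' : 0 < X := by linarith [hX.1]
  have hκ' : ‖conj κ‖ ≤ 1 / 4 := by rwa [Complex.norm_conj]
  have z0 : lad ν 4 (fun _ => (0 : ℂ)) = fun _ => 0 := by
    simpa using x_lad_cmul ν 4 0 E
  have e1 := x_enB_pair (R := fun _ => 0) (R' := fun _ => 0) (S := 0) hU h0 hε hν hr hi hl.1
    (x_GenAbs_t hτ) (x_GenAbs_t hτ) (x_Cn_const _ _) (x_Cn_const _ _)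
    (by simpa only [add_zero] using h.sE) (by simpa only [add_zero] using h.sE') d3 d4 hX0 hX m3 m4
    (fun X1 _ => by simp [z0])
  have cE := (x_HB_cont (h.sE.1.x_mono (by omega)) ν).add (x_HB_cont (h.sE'.1.x_mono (by omega)) ν)
  have cw := (x_HB_cont (h.sw.1.x_mono (by omega)) ν).add (x_HB_cont (h.sw'.1.x_mono (by omega)) ν)
  have r1 : Cn 4 (lin (-2) (κ - τ) E) := (h.sE.1.x_mono (by omega)).x_lin _ _
  have r2 : Cn 4 (lin (-2) (conj κ - τ) E') := (h.sE'.1.x_mono (by omega)).x_lin _ _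
  have key : ∀ {κ : ℂ} {E : ℝ → ℂ} {Y : ℝ}, ‖κ‖ ≤ 1 / 4 → Cn 10 E → X ≤ Y →
      ‖lad ν 4 (lin (-2) (κ - τ) E) Y‖ ^ 2 / Y ^ 2 ≤ 9 * HB ν E Y := by
    intro κ E Y hκ hE hY
    refine (x_lin_sq (hE.x_mono (by omega)) (by linarith [hX.1]) _ _).trans
      (mul_le_mul_of_nonneg_right ?_ ((x_HH_nonneg _ _ _).trans (x_HH_le_HB _ _ _)))
    rw [norm_neg, Complex.norm_ofNat]
    nlinarith [x_GenAbs_kt hκ hτ, norm_nonneg (κ - τ)]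
  have e2 : L2 (fun Y => ‖lad ν 4 (lin (-2) (κ - τ) E) Y‖ ^ 2 / Y ^ 2 +
      ‖lad ν 4 (lin (-2) (conj κ - τ) E') Y‖ ^ 2 / Y ^ 2) X (18000 * D ^ 2) :=
    e1.x_mono (c := 9) hX' cE ((x_GenAbs_cont r1 ν).add (x_GenAbs_cont r2 ν)) (by norm_num)
      (fun Y hY => by linarith [key hκ h.sE.1 hY, key hκ' h.sE'.1 hY]) (by linarith)
  have e3 := x_enB_pair hU h0 hε hν hr hi hl.1 hκ hκ' r1 r2 h.sw h.sw' d1 d2 hX0 hX m1 m2 e2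
  intro X1 h1
  refine (e3.x_add e1 hX' cw cE X1 h1).trans ?_
  nlinarith [sq_nonneg D]

end Vale.Agent.P139.Xp
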