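import Vale.Agent.P139.X.GenA

/-! P139 X/GenAbs: the abstract form of `ext_gen`. -/

noncomputable section

open MeasureTheory Filter Topology Set Complex Asymptotics
open scoped ComplexConjugate ContDiff

namespace Vale.Agent.P139.Xp

variable {X0 ε β ℓ X τ : ℝ} {U1 U2 w w' E E' : ℝ → ℂ} {ν κ : ℂ}

theorem G4.x_sZ (h : G4 U1 U2 ν ℓ τ κ w w' E E') : Sol ν ℓ (fun X => τ * w X - E X) fun X =>
    cpl U1 U2 (fun X => τ * w X - E X) (fun X => τ * w' X - E' X) X +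
      lin (τ * κ * 2) (τ * κ * -κ) w X + lin 0 (τ * κ) E X := by
  refine ⟨(h.sw.1.x_cmul _).x_sub h.sE.1, fun X hX => ?_⟩
  rw [x_PY_sub ((h.sw.1.x_cmul _).x_mono (by omega)) (h.sE.1.x_mono (by omega)) hX, x_PY_cmul,
    h.sw.2 X hX, h.sE.2 X hX]
  simp only [cpl, lin, map_sub, map_mul, conj_ofReal]
  ring

theorem x_GenAbs_lZ {j : ℕ} (a1 : Cn 10 w) (a2 : Cn 10 E) (hj : j ≤ 10) (hX : 0 < X) :
    lad ν j (fun X => τ * w X - E X) X = τ * lad ν j w X - lad ν j E X := by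
  rw [x_lad_sub ((a1.x_cmul _).x_mono hj) (a2.x_mono hj) hX, x_lad_cmul]

theorem x_GenAbs_dZ (a1 : Cn 10 w) (a2 : Cn 10 E) (d1 : Dec ν w) (d3 : Dec ν E) :
    Dec ν fun X => τ * w X - E X := by
  have e : ∀ Y, 0 < Y → lad ν 4 (fun X => τ * w X - E X) Y = τ * lad ν 4 w Y - lad ν 4 E Y :=
    fun Y hY => x_GenAbs_lZ a1 a2 (by omega) hY
  constructor
  · have := (d1.1.const_mul (τ : ℂ)).sub d3.1
    rw [mul_zero, sub_zero] at this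
    exact this.congr' ((eventually_gt_atTop 0).mono fun Y hY => (e Y hY).symm)
  · have := (d1.2.const_mul (τ : ℂ)).sub d3.2
    rw [mul_zero, sub_zero] at this
    refine this.congr' ((eventually_gt_atTop 0).mono fun Y hY => ?_)
    rw [x_Lam_congr e hY, x_Lam_sub
      (((Cn.x_lad (n := 1) (a1.x_mono (by omega)) ν).x_cmul _).x_diff hY)
      ((Cn.x_lad (n := 1) (a2.x_mono (by omega)) ν).x_diff hY), x_Lam_cmul]

theorem x_GenAbs_nb (hτ : τ ∈ Icc (0 : ℝ) (1 / 8)) (hκ : ‖κ‖ ≤ 1 / 4) :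
    ‖(τ : ℂ) * κ‖ = τ * ‖κ‖ ∧ ‖(τ : ℂ) * κ * 2‖ = τ * ‖κ‖ * 2 ∧ ‖(τ : ℂ) * κ * -κ‖ ≤ τ * ‖κ‖ ∧
      ‖(τ : ℂ)‖ ≤ 1 := by
  have nb : ‖(τ : ℂ) * κ‖ = τ * ‖κ‖ := by
    rw [norm_mul, Complex.norm_real, Real.norm_of_nonneg hτ.1]
  refine ⟨nb, by rw [norm_mul, nb, Complex.norm_ofNat], ?_, ?_⟩
  · rw [norm_mul, nb, norm_neg]
    exact mul_le_of_le_one_right (mul_nonneg hτ.1 (norm_nonneg _)) (by linarith)
  · rw [Complex.norm_real, Real.norm_of_nonneg hτ.1]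
    linarith [hτ.2]

theorem x_GenAbs_real {ε b g Z a1 a2 a3 a4 P : ℝ} (h0 : 0 ≤ ε) (hb : 0 ≤ b) (h1 : 0 ≤ a1)
    (h2 : 0 ≤ a2) (h3 : 0 ≤ a3) (h4 : 0 ≤ a4) (hg : g ≤ b ^ 2) (hZ : Z ≤ 2 * (a1 + a2 + (a3 + a4)))
    (hP : P ≤ 3 * (100 * ε ^ 2 * Z + 2 * ((b * 2) ^ 2 + g) * a1 + 2 * (0 ^ 2 + b ^ 2) * a3)) :
    P ≤ 600 * (ε + b) ^ 2 * (a1 + a2 + (a3 + a4)) := by
  have q6 := mul_le_mul_of_nonneg_left hZ (sq_nonneg ε)
  have q7 := mul_le_mul_of_nonneg_right hg h1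
  have q8 := mul_nonneg (mul_nonneg h0 hb) (add_nonneg (add_nonneg h1 h2) (add_nonneg h3 h4))
  nlinarith [mul_nonneg (sq_nonneg b) h1, mul_nonneg (sq_nonneg b) h2,
    mul_nonneg (sq_nonneg b) h3, mul_nonneg (sq_nonneg b) h4]

theorem x_GenAbs_sZ (hU : Coef X0 ε β U1 U2) (h0 : 0 ≤ ε) (hν : ν + 2 * I * β = conj ν)
    (hτ : τ ∈ Icc (0 : ℝ) (1 / 8)) (hκ : ‖κ‖ ≤ 1 / 4) (h : G4 U1 U2 ν ℓ τ κ w w' E E')
    (hX0 : X0 ≤ X) (hX : 2 ≤ X) :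
    ‖PY (ν + 4) ℓ (lad ν 4 fun X => τ * w X - E X) X‖ ^ 2 / X ^ 2 ≤
      600 * (ε + τ * ‖κ‖) ^ 2 * ((HB ν w X + HB ν w' X) + (HB ν E X + HB ν E' X)) := by
  obtain ⟨nb, n1, n2, nτ⟩ := x_GenAbs_nb hτ hκ
  have hY0 : 0 < X := by linarith
  have q1 := x_GenAbs_sq hU hν h.x_sZ h.x_swap.x_sZ.1 h.sw.1 h.sE.1 hX0 hX
  have q2 := x_HH_comb (ν := ν) (h.sw.1.x_mono (by omega)) (h.sE.1.x_mono (by omega)) hY0 nτ
  have q3 := x_HH_comb (ν := ν) (h.sw'.1.x_mono (by omega)) (h.sE'.1.x_mono (by omega)) hY0 nτ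
  have g := fun y => (x_HH_nonneg ν y X).trans (x_HH_le_HB ν y X)
  rw [n1, nb, norm_zero] at q1
  refine x_GenAbs_real h0 (mul_nonneg hτ.1 (norm_nonneg _)) (g w) (g w') (g E) (g E')
    (pow_le_pow_left₀ (norm_nonneg _) n2 2) ?_ q1
  linarith [x_HH_le_HB ν w X, x_HH_le_HB ν w' X, x_HH_le_HB ν E X, x_HH_le_HB ν E' X]

theorem x_GenAbs_pZ {D : ℝ} {j : ℕ} (hU : Coef X0 ε β U1 U2) (h0 : 0 ≤ ε)
    (hν : ν + 2 * I * β = conj ν) (hτ : τ ∈ Icc (0 : ℝ) (1 / 8)) (hκ : ‖κ‖ ≤ 1 / 4)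
    (h : G4 U1 U2 ν ℓ τ κ w w' E E') (hX0 : X0 ≤ X) (hX : 2 ≤ X) (hj4 : j < 4)
    (hs : ∀ j ≤ 4, rr 1 ν w X j + rr 1 ν w' X j + rr 1 ν E X j + rr 1 ν E' X j ≤ D) :
    ‖PY (ν + j) ℓ (lad ν j fun X => τ * w X - E X) X‖ ≤ 24 * ((ε + τ * ‖κ‖) * D) := by
  obtain ⟨nb, n1, n2, nτ⟩ := x_GenAbs_nb hτ hκ
  have hX' : 0 < X := by linarith
  have p := fun y j => x_rr_nonneg zero_le_one ν y X j
  have hD0 : 0 ≤ D := le_trans (by linarith [p w 0, p w' 0, p E 0, p E' 0]) (hs 0 (by omega))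
  have hb0 : 0 ≤ τ * ‖κ‖ := mul_nonneg hτ.1 (norm_nonneg _)
  have t := x_GenAbs_le (j := j) (a := 3 * (τ * ‖κ‖)) (a' := τ * ‖κ‖) hU hν h.x_sZ
    h.x_swap.x_sZ.1 h.sw.1 h.sE.1 (by omega) hX0 (by linarith) (by linarith)
    (by rw [norm_zero, zero_add, nb])
  have t1 : ∑ i ∈ Finset.range (j + 1), (‖lad ν i (fun X => τ * w X - E X) X‖ +
      ‖lad ν i (fun X => τ * w' X - E' X) X‖) ≤ 4 * D := by
    refine (Finset.sum_le_card_nsmul _ _ D fun i hi => ?_).trans ?_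
    · have hi4 : i ≤ 4 := by have := Finset.mem_range.1 hi; omega
      rw [x_GenAbs_lZ h.sw.1 h.sE.1 (by omega) hX', x_GenAbs_lZ h.sw'.1 h.sE'.1 (by omega) hX']
      have u1 := norm_sub_le (τ * lad ν i w X) (lad ν i E X)
      have u2 := norm_sub_le (τ * lad ν i w' X) (lad ν i E' X)
      rw [norm_mul] at u1 u2
      linarith [mul_le_of_le_one_left (norm_nonneg (lad ν i w X)) nτ,
        mul_le_of_le_one_left (norm_nonneg (lad ν i w' X)) nτ, hs i hi4, x_GenAbs_rr ν w X i,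
        x_GenAbs_rr ν w' X i, x_GenAbs_rr ν E X i, x_GenAbs_rr ν E' X i]
    · rw [Finset.card_range, nsmul_eq_mul]
      exact mul_le_mul_of_nonneg_right (by exact_mod_cast hj4) hD0
  have t2 := mul_le_mul_of_nonneg_left t1 h0
  have t3 : rr 1 ν w X j ≤ D := by linarith [hs j (by omega), p w' j, p E j, p E' j]
  have t4 : rr 1 ν E X j ≤ D := by linarith [hs j (by omega), p w j, p w' j, p E' j]
  have t5 := mul_le_mul_of_nonneg_left t3 hb0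
  have t6 := mul_le_mul_of_nonneg_left t4 hb0
  have t7 := mul_nonneg hb0 hD0
  linarith

theorem x_GenAbs_sqrt {K b D : ℝ} (hK : 1 ≤ K) (hb : 0 ≤ b) (hD : 0 ≤ D) :
    √(600 * b ^ 2 * (10 ^ 8 * D ^ 2) * (3 * K * 1)) ≤ 10 ^ 6 * K * (b * D) := by
  refine Real.sqrt_le_iff.2 ⟨by positivity, ?_⟩
  have k1 : K ≤ K ^ 2 := by nlinarith
  have k2 := mul_le_mul_of_nonneg_right k1 (sq_nonneg (b * D))
  have k3 : 0 ≤ K ^ 2 * (b * D) ^ 2 := by positivity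
  nlinarith

theorem x_gen_abs {K : ℝ} (hK : 1 ≤ K) : ∃ K' : ℝ, 0 ≤ K' ∧ ∀ (X0 ε β ℓ X τ : ℝ)
    (U1 U2 w w' E E' : ℝ → ℂ) (ν κ : ℂ), Coef X0 ε β U1 U2 → 0 ≤ ε → ε ≤ 1 / 1000 →
    ν + 2 * I * β = conj ν → -5 / 2 ≤ ν.re → |ν.im| ≤ 1 / 2 → ‖ν‖ ≤ 5 → ℓ ∈ Icc (5 / 2 : ℝ) 3 →
    τ ∈ Icc (0 : ℝ) (1 / 8) → ‖κ‖ ≤ 1 / 4 → G4 U1 U2 ν ℓ τ κ w w' E E' →
    Dec ν w → Dec ν w' → Dec ν E → Dec ν E' → X0 ≤ X → X ∈ Icc (2 : ℝ) 4 →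
    ‖NF (ν + 4) ℓ X‖ ≤ K →
    ‖dotR (row ν ℓ X) (τ * w X - E X, τ * Lam w X - Lam E X)‖ ≤ K' * (ε + τ * ‖κ‖) *
      (rr 1 ν w X 0 + rr 1 ν w' X 0 + rr 1 ν E X 0 + rr 1 ν E' X 0) := by
  refine ⟨(10 ^ 6 * K + 2 * K * (4 * (72 ^ 3 * 24))) * 300 ^ 4, by positivity, ?_⟩
  intro X0 ε β ℓ X τ U1 U2 w w' E E' ν κ hU h0 hε hν hr hi hn hl hτ hκ h d1 d2 d3 d4 hX0 hX hN
  have hX' : 0 < X := by linarith [hX.1]
  have hs := fun j (hj : j ≤ 4) => x_GenAbs_size hU h0 hε hν hn hl hτ hκ h hX0 hX hj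
  obtain ⟨D, hD⟩ : ∃ D, D = 300 ^ 4 *
    (rr 1 ν w X 0 + rr 1 ν w' X 0 + rr 1 ν E X 0 + rr 1 ν E' X 0) := ⟨_, rfl⟩
  rw [← hD] at hs
  have p := fun y j => x_rr_nonneg zero_le_one ν y X j
  have hD0 : 0 ≤ D := le_trans (by linarith [p w 0, p w' 0, p E 0, p E' 0]) (hs 0 (by omega))
  have en := x_GenAbs_en (D := D) hU h0 hε hν hr hi hl hτ hκ h d1 d2 d3 d4 hX0 hX
    (fun j hj => by linarith [hs j hj, p w' j, p E j, p E' j])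
    (fun j hj => by linarith [hs j hj, p w j, p E j, p E' j])
    (fun j hj => by linarith [hs j hj, p w j, p w' j, p E' j])
    (fun j hj => by linarith [hs j hj, p w j, p w' j, p E j])
  have hZ := h.x_sZ.1
  have hb0 : 0 ≤ ε + τ * ‖κ‖ := add_nonneg h0 (mul_nonneg hτ.1 (norm_nonneg _))
  have cH : ContinuousOn (fun Y => (HB ν w Y + HB ν w' Y) + (HB ν E Y + HB ν E' Y)) (Ioi 0) :=
    ((x_HB_cont (h.sw.1.x_mono (by omega)) ν).add (x_HB_cont (h.sw'.1.x_mono (by omega)) ν)).add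
      ((x_HB_cont (h.sE.1.x_mono (by omega)) ν).add (x_HB_cont (h.sE'.1.x_mono (by omega)) ν))
  have cP : ContinuousOn (fun Y => ‖PY (ν + 4) ℓ (lad ν 4 fun X => τ * w X - E X) Y‖ ^ 2 / Y ^ 2)
      (Ioi 0) :=
    ((Cn.x_PY (n := 0) (Cn.x_lad (n := 2) (hZ.x_mono (by omega)) ν) _ _).x_cont.norm.pow 2).div
      (continuousOn_id.pow 2) fun _ hY => pow_ne_zero 2 (ne_of_gt hY)
  have hS := en.x_mono (c := 600 * (ε + τ * ‖κ‖) ^ 2) hX' cH cP (by positivity)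
    (fun Y hY => x_GenAbs_sZ hU h0 hν hτ hκ h (hX0.trans hY) (hX.1.trans hY)) le_rfl
  have hl2 : ℓ ^ 2 ≤ 9 * 1 := by nlinarith [hl.1, hl.2]
  have row := x_row (hZ.x_mono (by omega)) (by linarith [hl.1]) hr hX le_rfl (by norm_num) hl2
    (by linarith) hK (by rwa [mul_one]) (x_GenAbs_dZ h.sw.1 h.sE.1 d1 d3) hS
  rw [x_Lam_sub ((h.sw.1.x_cmul _).x_diff hX') (h.sE.1.x_diff hX'), x_Lam_cmul] at row
  refine row.trans ?_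
  have f2 : ∀ j ∈ Finset.range 4, (8 * 9 : ℝ) ^ (3 - j) *
      ‖PY (ν + j) ℓ (lad ν j fun X => τ * w X - E X) X‖ ≤
        72 ^ 3 * (24 * ((ε + τ * ‖κ‖) * D)) := by
    intro j hj
    refine mul_le_mul ?_ (x_GenAbs_pZ hU h0 hν hτ hκ h hX0 hX.1 (Finset.mem_range.1 hj) hs)
      (norm_nonneg _) (by norm_num)
    rw [show (8 * 9 : ℝ) = 72 by norm_num]
    exact pow_le_pow_right₀ (by norm_num) (Nat.sub_le _ _)
  have f3 := Finset.sum_le_card_nsmul _ _ _ f2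
  rw [Finset.card_range, nsmul_eq_mul, Nat.cast_ofNat] at f3
  refine (add_le_add (x_GenAbs_sqrt hK hb0 hD0)
    (mul_le_mul_of_nonneg_left f3 (by positivity))).trans_eq ?_
  rw [hD]
  ring

end Vale.Agent.P139.Xp
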