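import Vale.Agent.P139.X.Lam

/-! P139 X/Green: the mismatch at level four.
Plan: `green` with `s = PY ν ℓ y / X` on `[X, X1]`. `yF ν ℓ` and `Lam (yF ν ℓ)` are bounded at infinity
(`yF_tendsto` at `ν` and `ν + 1`, `yF_up`, `‖X ^ ν‖ = X ^ re ν ≥ 1`), so the boundary term at `X1` tends
to zero. For every `c > 0`, `|s| |Y| ≤ (c |s|² + |Y|² / c) / 2`, and the integral of `|Y|²` over `[X, X1]`
is at most that over `Ioi X`, which is `≤ (‖NF‖ + X / 2) |Y X|²` by `yF_flux` (`re ν - 1/2 ≥ 1`).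
`Lam Y X = NF * Y X` by `yF_ne`; divide by `|Y X|` and optimise in `c` (`x_opt`). -/

noncomputable section

open MeasureTheory Filter Topology Set Complex Asymptotics
open scoped ComplexConjugate ContDiff

namespace Vale.Agent.P139.Xp

theorem x_opt {x A B : ℝ} (hx : 0 ≤ x) (hA : 0 ≤ A) (hB : 0 ≤ B)
    (h : ∀ c, 0 < c → x ≤ (c * A + B / c) / 2) : x ^ 2 ≤ A * B := by
  by_contra hc
  have hlt := not_le.1 hc
  have hx0 : 0 < x := by
    refine hx.lt_of_ne fun e => ?_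
    rw [← e] at hlt
    nlinarith [mul_nonneg hA hB]
  rcases hA.eq_or_lt with e | hA'
  · have h1 := h ((B + 1) / x) (by positivity)
    rw [← e, mul_zero, zero_add, div_div_eq_mul_div, div_div, le_div_iff₀ (by positivity)] at h1
    nlinarith
  · have h1 := h (x / A) (by positivity)
    rw [div_mul_cancel₀ _ hA'.ne', div_div_eq_mul_div, le_div_iff₀ two_pos] at h1
    have h2 : x ≤ B * A / x := by linarith
    rw [le_div_iff₀ hx0] at h2
    nlinarith

theorem x_yF_bdd {ν : ℂ} {ℓ : ℝ} (hl : 0 ≤ ℓ) (hν : 3 / 2 ≤ ν.re) :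
    (yF ν ℓ =O[atTop] fun _ => (1 : ℝ)) ∧ Lam (yF ν ℓ) =O[atTop] fun _ => (1 : ℝ) := by
  have key : ∀ ν : ℂ, 3 / 2 ≤ ν.re → yF ν ℓ =O[atTop] fun _ => (1 : ℝ) := by
    intro ν hν
    refine IsBigO.trans (IsBigO.of_bound 1 ((eventually_ge_atTop 1).mono fun X hX => ?_))
      ((yF_tendsto (ν := ν) (ℓ := ℓ) (by linarith)).isBigO_one ℝ)
    rw [one_mul, norm_mul, Complex.norm_cpow_eq_rpow_re_of_pos (by linarith)]
    exact le_mul_of_one_le_left (norm_nonneg _) (Real.one_le_rpow hX (by linarith))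
  refine ⟨key ν hν, ?_⟩
  have h1 := ((key (ν + 1) (by simp; linarith)).const_mul_left (-I * (ℓ - ν))).sub
    ((key ν hν).const_mul_left ν)
  refine h1.congr' ((eventually_gt_atTop 0).mono fun X hX => ?_) EventuallyEq.rfl
  simp only
  rw [← yF_up (by linarith) hX]
  ring

theorem x_green {y : ℝ → ℂ} {ν : ℂ} {ℓ X S : ℝ} (h : Cn 2 y) (hl : 0 ≤ ℓ) (hν : 3 / 2 ≤ ν.re)
    (hX : 0 < X) (h1 : Tendsto y atTop (𝓝 0)) (h2 : Tendsto (Lam y) atTop (𝓝 0))
    (hS : L2 (fun Y => ‖PY ν ℓ y Y‖ ^ 2 / Y ^ 2) X S) :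
    ‖Lam y X - NF ν ℓ X * y X‖ ^ 2 ≤ S * (‖NF ν ℓ X‖ + X / 2) := by
  have hp : 0 < ℓ + ν.re := by linarith
  have hν' : 1 / 2 < ν.re := by linarith
  obtain ⟨b1, b2⟩ := x_yF_bdd hl hν
  obtain ⟨fi, fe⟩ := yF_flux hl hν' hX
  have hne := yF_ne hl hν' hX
  have hS0 : 0 ≤ S := by simpa using hS X le_rfl
  have cY : ContinuousOn (yF ν ℓ) (Ioi 0) := (yF_contDiff hp).continuousOn
  have cs : ContinuousOn (fun Y : ℝ => PY ν ℓ y Y / Y) (Ioi 0) :=
    (Cn.x_PY (n := 0) h ν ℓ).x_cont.div continuous_ofReal.continuousOn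
      fun Y hY => ofReal_ne_zero.2 (ne_of_gt hY)
  have hB0 : 0 ≤ ‖NF ν ℓ X‖ + X / 2 := by positivity
  have hI : ∫ Y in Ioi X, ‖yF ν ℓ Y‖ ^ 2 ≤ (‖NF ν ℓ X‖ + X / 2) * ‖yF ν ℓ X‖ ^ 2 := by
    have i0 : 0 ≤ ∫ Y in Ioi X, ‖yF ν ℓ Y‖ ^ 2 := integral_nonneg fun _ => by positivity
    have i1 := mul_le_mul_of_nonneg_right
      (add_le_add_left (Complex.im_le_norm (NF ν ℓ X)) (X / 2)) (sq_nonneg ‖yF ν ℓ X‖)
    nlinarith
  have lim : Tendsto (fun X1 : ℝ => (Lam y X1 * yF ν ℓ X1 - y X1 * Lam (yF ν ℓ) X1) *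
      exp (I * X1)) atTop (𝓝 0) := by
    have o1 : (fun X1 => Lam y X1 * yF ν ℓ X1 - y X1 * Lam (yF ν ℓ) X1) =o[atTop]
        fun _ => (1 : ℝ) := by
      have a1 := ((isLittleO_one_iff ℝ).2 h2).mul_isBigO b1
      have a2 := ((isLittleO_one_iff ℝ).2 h1).mul_isBigO b2
      simpa using a1.sub a2
    rw [tendsto_zero_iff_norm_tendsto_zero]
    simp only [norm_mul, mul_comm I, Complex.norm_exp_ofReal_mul_I, mul_one]
    exact tendsto_zero_iff_norm_tendsto_zero.1 ((isLittleO_one_iff ℝ).1 o1)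
  have key : ∀ c, 0 < c → ‖Lam y X - NF ν ℓ X * y X‖ * ‖yF ν ℓ X‖ ≤
      (c * S + (‖NF ν ℓ X‖ + X / 2) * ‖yF ν ℓ X‖ ^ 2 / c) / 2 := by
    intro c hc
    have e : ‖Lam y X - NF ν ℓ X * y X‖ * ‖yF ν ℓ X‖ =
        ‖0 - (Lam y X * yF ν ℓ X - y X * Lam (yF ν ℓ) X) * exp (I * X)‖ := by
      rw [zero_sub, norm_neg, norm_mul, mul_comm I, Complex.norm_exp_ofReal_mul_I, mul_one,
        ← norm_mul, NF]
      congr 1
      field_simp
    rw [e]
    refine le_of_tendsto (lim.sub_const _).norm ((eventually_ge_atTop X).mono fun X1 h1 => ?_)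
    have hsub : uIcc X X1 ⊆ Ioi 0 := by
      rw [uIcc_of_le h1]
      exact fun Y hY => hX.trans_le hY.1
    have c1 : ContinuousOn (fun Y => ‖PY ν ℓ y Y‖ ^ 2 / Y ^ 2) (Ioi 0) :=
      ((Cn.x_PY (n := 0) h ν ℓ).x_cont.norm.pow 2).div (continuousOn_id.pow 2)
        fun _ hY => pow_ne_zero 2 (ne_of_gt hY)
    have i1 := (c1.mono hsub).intervalIntegrable (μ := volume)
    have i2 : IntervalIntegrable (fun Y => ‖yF ν ℓ Y‖ ^ 2) volume X X1 :=
      ((cY.norm.pow 2).mono hsub).intervalIntegrable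
    rw [green (s := fun Y => PY ν ℓ y Y / Y) hp hX h1 h cs fun Y hY => by
      have : (Y : ℂ) ≠ 0 := ofReal_ne_zero.2 (hX.trans_le hY.1).ne'
      rw [mul_div_cancel₀ _ this]
      rfl]
    refine (intervalIntegral.norm_integral_le_of_norm_le h1
      (g := fun Y => (c * (‖PY ν ℓ y Y‖ ^ 2 / Y ^ 2) + ‖yF ν ℓ Y‖ ^ 2 / c) / 2)
      (Eventually.of_forall fun Y hY => ?_)
      (((i1.const_mul c).add (i2.div_const c)).div_const 2)).trans ?_
    · rw [norm_mul, mul_comm I, Complex.norm_exp_ofReal_mul_I, mul_one, norm_mul, norm_div,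
        Complex.norm_real, Real.norm_of_nonneg (hX.trans hY.1).le, ← div_pow]
      generalize ‖PY ν ℓ y Y‖ / Y = a
      generalize ‖yF ν ℓ Y‖ = b
      have : 0 ≤ (c * a - b) ^ 2 / c := by positivity
      have e2 : (c * a - b) ^ 2 / c = c * a ^ 2 + b ^ 2 / c - 2 * (a * b) := by
        field_simp
        ring
      linarith
    · rw [intervalIntegral.integral_div, intervalIntegral.integral_add (i1.const_mul c)
        (i2.div_const c), intervalIntegral.integral_const_mul, intervalIntegral.integral_div]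
      have j1 := hS X1 h1
      have j2 : ∫ Y in X..X1, ‖yF ν ℓ Y‖ ^ 2 ≤ (‖NF ν ℓ X‖ + X / 2) * ‖yF ν ℓ X‖ ^ 2 := by
        rw [intervalIntegral.integral_of_le h1]
        exact (setIntegral_mono_set fi (Eventually.of_forall fun _ => by positivity)
          Ioc_subset_Ioi_self.eventuallyLE).trans hI
      gcongr
  have h3 := x_opt (by positivity) hS0 (by positivity) key
  rw [mul_pow, ← mul_assoc] at h3
  exact le_of_mul_le_mul_right h3 (by positivity)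

end Vale.Agent.P139.Xp
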