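import Vale.Agent.P139.X.HomAbs
import Vale.Agent.P139.X.Dec
import Vale.Agent.P139.X.Conv

/-! P139 X/Hom: `ext_hom`.
Plan: `ε0 = 1 / 1000`; `NF_mor (|μ0| + 3)` with `θ = 1` gives `C`, `K = 5 |C| + 1`. For a point `X` put
`y = pw X (5/2) f`, `y' = pw X (5/2) (conj g)` (`x_conv`, `x_swap`, `conj_conj`, the sources vanish),
`s = l + √|im λ| + 1`, `T = (|μ0| + 12) (l + |im λ| + 1)`; `0 ≤ aa m ≤ ε ≤ 1`, `0 ≤ β ≤ 1`,
`2 ≤ X0`, `X0 + 1 ≤ 4` from `Good.box`. `x_dec_hom`, `x_hom_abs` twice (`x_par_swap`), `x_dat`,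
`rr s ν y X 0 ≤ 4 (s ‖f X‖ + ‖Lam f X‖)`, `x_Lam_conj`. Prove first the bound for one row, then apply it to
the swapped solution. -/

noncomputable section

open MeasureTheory Filter Topology Set Complex Asymptotics
open scoped ComplexConjugate ContDiff

namespace Vale.Agent.P139.Xp

theorem x_Hom_rr {m l : ℕ} {Q : Prof m} {lam ν : ℂ} {f g ef eg : ℝ → ℂ} {X s : ℝ}
    (h : Q.RSol l lam f g ef eg) (hX : 0 < X) (hs : 1 ≤ s) :
    rr s ν (pw X (5 / 2) f) X 0 ≤ 4 * (s * ‖f X‖ + ‖Lam f X‖) := by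
  have e := Prod.ext_iff.1 (x_dat h hX)
  simp only [dat] at e
  simp only [rr, x_lad_zero, e.1, e.2]
  have h1 := norm_add_le (Lam f X) (5 / 2 * f X)
  rw [norm_mul, norm_div, Complex.norm_ofNat, Complex.norm_ofNat] at h1
  linarith [le_mul_of_one_le_left (norm_nonneg (f X)) hs, norm_nonneg (f X), norm_nonneg (Lam f X)]

theorem x_Hom_one (C μ0 : ℝ) : ∃ K : ℝ, ∀ (m : ℕ) (Q : Prof m) (X0 ε : ℝ), 0 < ε →
    ε ≤ 1 / 1000 → Q.Good X0 ε C → ∀ (l : ℕ) (lam : ℂ) (f g : ℝ → ℂ), lam.re ∈ Icc 0 μ0 →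
      Q.RSol l lam f g 0 0 → ∀ X ∈ Icc X0 (X0 + 1),
        ‖dotR (row (Q.nu lam) ((l + 5) / 2) X) (dat f X)‖ ≤
        K * ε * (l + |lam.im| + 1) ^ 4 *
          ((l + √|lam.im| + 1) * (‖f X‖ + ‖g X‖) + (‖Lam f X‖ + ‖Lam g X‖)) := by
  obtain ⟨C1, c1, -, hN⟩ := NF_mor (|μ0| + 3) one_pos
  have hK : 1 ≤ 5 * |C1| + 1 := by linarith [abs_nonneg C1]
  obtain ⟨K', hK', hA⟩ := x_hom_abs hK
  refine ⟨K' * (|μ0| + 12) ^ 4 * 4, ?_⟩
  intro m Q X0 ε h0 hε hG l lam f g hre h X hXX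
  have hb := hG.box
  simp only [InBox, Xlo, Xhi, βlo, βhi, mem_Icc] at hb
  have hX : X ∈ Icc (2 : ℝ) 4 := ⟨by linarith [hb.1.1, hXX.1], by linarith [hb.1.2, hXX.2]⟩
  have hX' : 0 < X := by linarith [hX.1]
  have ha : 0 ≤ aa m := by unfold aa; positivity
  have ha' := hG.a_le
  have hl0 := Nat.cast_nonneg (α := ℝ) l
  have hi0 := abs_nonneg lam.im
  have hq0 := Real.sqrt_nonneg |lam.im|
  have hμ := le_abs_self μ0
  have hμ0 := abs_nonneg μ0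
  have hβ : |Q.β| ≤ 1 := abs_le.2 ⟨by linarith [hb.2.1], by linarith [hb.2.2]⟩
  obtain ⟨s, hs⟩ : ∃ s, s = l + √|lam.im| + 1 := ⟨_, rfl⟩
  obtain ⟨t, ht⟩ : ∃ t, t = l + |lam.im| + 1 := ⟨_, rfl⟩
  rw [← hs, ← ht]
  have hs1 : 1 ≤ s := by linarith
  have ht1 : 1 ≤ t := by linarith
  have hst : s ≤ 2 * t := by nlinarith [Real.sq_sqrt hi0]
  have hμt : |μ0| ≤ |μ0| * t := le_mul_of_one_le_right hμ0 ht1
  have hn : ∀ z : ℂ, z.re = lam.re → |z.im| = |lam.im| → ‖Q.nu z‖ + 4 ≤ (|μ0| + 12) * t := by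
    intro z z1 z2
    have a1 : |(Q.nu z).re| ≤ |μ0| + 3 := by
      rw [x_nu_re, z1, abs_le]
      constructor <;> linarith [hre.1, hre.2]
    have a2 : |(Q.nu z).im| ≤ |lam.im| + 1 := by
      rw [x_nu_im]
      linarith [abs_sub z.im Q.β]
    linarith [Complex.norm_le_abs_re_add_abs_im (Q.nu z)]
  have hNF : ‖NF (Q.nu lam + 4) ((l + 5) / 2) X‖ ≤ (5 * |C1| + 1) * s := by
    have h1 := (hN (Q.nu lam + 4) ((l + 5) / 2) (by linarith) (by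
      simp only [add_re, re_ofNat, mem_Icc, x_nu_re]
      constructor <;> linarith [hre.1, hre.2]) X hX).1
    have h2 : √|(Q.nu lam + 4).im| ≤ √|lam.im| + 1 := by
      refine Real.sqrt_le_iff.2 ⟨by positivity, ?_⟩
      simp only [add_im, im_ofNat, add_zero, x_nu_im]
      nlinarith [abs_sub lam.im Q.β, Real.sq_sqrt hi0]
    have h3 : C1 * ((l + 5) / 2 + √|(Q.nu lam + 4).im| + 1) ≤ |C1| * (5 * s) :=
      mul_le_mul (le_abs_self _) (by linarith) (by positivity) (abs_nonneg _)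
    linarith
  have hU := x_coef hG
  have s1 : Sol (Q.nu lam) ((l + 5) / 2) (pw X (5 / 2) f)
      (cpl Q.U1 Q.U2 (pw X (5 / 2) f) (pw X (5 / 2) fun Y => conj (g Y))) := by
    have := x_conv h hX'
    exact ⟨this.1, fun Y hY => by rw [this.2 Y hY]; simp [pw]⟩
  have s2 : Sol (Q.nu (conj lam)) ((l + 5) / 2) (pw X (5 / 2) fun Y => conj (g Y))
      (cpl Q.U1 Q.U2 (pw X (5 / 2) fun Y => conj (g Y)) (pw X (5 / 2) f)) := by
    have := x_conv (x_swap h) hX'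
    exact ⟨this.1, fun Y hY => by rw [this.2 Y hY]; simp [pw]⟩
  obtain ⟨d1, d2⟩ := x_dec_hom hU (x_nu_par Q lam) (by norm_num) s1 s2 (x_conv_Sy h hX')
    (x_conv_Sy (x_swap h) hX')
  have hl2 : ((l + 5) / 2 : ℝ) ^ 2 ≤ (|μ0| + 12) * t * s := by
    have b1 : ((l + 5) / 2 : ℝ) ≤ 3 * t := by linarith
    have b2 : ((l + 5) / 2 : ℝ) ≤ 3 * s := by linarith
    have b3 := mul_le_mul b1 b2 (by positivity) (by positivity)
    have b4 : 0 ≤ |μ0| * t * s := by positivity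
    have b5 : 0 ≤ t * s := by positivity
    nlinarith
  have key := hA X0 ε Q.β _ X s ((|μ0| + 12) * t) _ _ _ _ _ _ hU h0.le hε (x_nu_par Q lam)
    (by rw [x_nu_re]; linarith [hre.1]) (by positivity) s1 s2 d1 d2 hXX.1 hX hs1
    (by nlinarith) hl2 (hn lam rfl rfl) (hn _ (conj_re _) (by rw [conj_im, abs_neg])) hNF
  rw [x_dat h hX'] at key
  have r1 := x_Hom_rr (ν := Q.nu lam) h hX' hs1
  have r2 := x_Hom_rr (ν := Q.nu (conj lam)) (x_swap h) hX' hs1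
  rw [x_Lam_conj, Complex.norm_conj, Complex.norm_conj] at r2
  refine key.trans ((mul_le_mul_of_nonneg_left (add_le_add r1 r2) (by positivity)).trans_eq ?_)
  ring

theorem x_ext_hom (C μ0 : ℝ) : ∃ K ε0 : ℝ, 0 < ε0 ∧ ∀ (m : ℕ) (Q : Prof m) (X0 ε : ℝ), 0 < ε →
    ε ≤ ε0 → Q.Good X0 ε C → ∀ (l : ℕ) (lam : ℂ) (f g : ℝ → ℂ), lam.re ∈ Icc 0 μ0 →
      Q.RSol l lam f g 0 0 → ∀ X ∈ Icc X0 (X0 + 1),
        ‖dotR (row (Q.nu lam) ((l + 5) / 2) X) (dat f X)‖ +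
          ‖dotR (row (Q.nu (conj lam)) ((l + 5) / 2) X) (dat (fun Y => conj (g Y)) X)‖ ≤
        K * ε * (l + |lam.im| + 1) ^ 4 *
          ((l + √|lam.im| + 1) * (‖f X‖ + ‖g X‖) + (‖Lam f X‖ + ‖Lam g X‖)) := by
  obtain ⟨K, hK⟩ := x_Hom_one C μ0
  refine ⟨2 * K, 1 / 1000, by norm_num, fun m Q X0 ε h0 hε hG l lam f g hre h X hX => ?_⟩
  have h1 := hK m Q X0 ε h0 hε hG l lam f g hre h X hX
  have h2 := hK m Q X0 ε h0 hε hG l (conj lam) (fun Y => conj (g Y)) (fun Y => conj (f Y))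
    (by rwa [conj_re]) (by
      have := x_swap h
      simp only [Pi.zero_apply, map_zero] at this
      exact this) X hX
  simp only [x_Lam_conj, Complex.norm_conj, conj_im, abs_neg] at h2
  refine (add_le_add h1 h2).trans_eq ?_
  ring

end Vale.Agent.P139.Xp
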