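import Vale.Agent.P139.X.EnP
import Vale.Agent.P139.X.Row

/-! P139 X/HomAbs: the abstract form of `ext_hom`.
Plan: `R j = rr s ν y X j + rr s ν' y' X j`. By `x_step`, `Sol.x_lad`, `x_cpl_le` (`ε ≤ 1`, `1 ≤ s`):
`R (j+1) ≤ 12 (T R j + ∑ R i)`, so `R j ≤ (60 T)^j R 0` (`x_seq`). `x_enA_pair` with `M = (60 T)^4 R 0`,
`x_cpl_sq` and `L2.x_mono` give `S = 100 ε² 400 M² / s`; `√(S 3 K s) ≤ 400 K ε M`; the descent terms are
at most `(8T)^(3-j) 6 ε 4 (60 T)^j R 0`. Conclude with `x_row`. -/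

noncomputable section

open MeasureTheory Filter Topology Set Complex Asymptotics
open scoped ComplexConjugate ContDiff

namespace Vale.Agent.P139.Xp

section
variable {X0 ε β ℓ X s T : ℝ} {U1 U2 y y' : ℝ → ℂ} {ν ν' : ℂ} {j : ℕ}

theorem x_HomAbs_rr (hs : 1 ≤ s) (ν : ℂ) (y : ℝ → ℂ) (X : ℝ) (j : ℕ) :
    ‖lad ν j y X‖ ≤ rr s ν y X j := by
  unfold rr
  linarith [norm_nonneg (Lam (lad ν j y) X), le_mul_of_one_le_left (norm_nonneg (lad ν j y X)) hs]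

theorem x_HomAbs_src (hU : Coef X0 ε β U1 U2) (h0 : 0 ≤ ε) (hν : ν + 2 * I * β = conj ν')
    (h : Sol ν ℓ y (cpl U1 U2 y y')) (h' : Cn 10 y') (hX0 : X0 ≤ X) (hX : X ∈ Icc (2 : ℝ) 4)
    (hs : 1 ≤ s) (hj : j ≤ 4) : ‖PY (ν + j) ℓ (lad ν j y) X‖ ≤
      6 * ε * ∑ i ∈ Finset.range (j + 1), (rr s ν y X i + rr s ν' y' X i) := by
  rw [h.x_lad (by omega) (by linarith [hX.1])]
  refine (x_cpl_le hU hν (h.1.x_mono (by omega)) (h'.x_mono (by omega)) hj hX0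
    (by linarith [hX.1])).trans (mul_le_mul_of_nonneg_left ?_ (by positivity))
  exact Finset.sum_le_sum fun i _ => add_le_add (x_HomAbs_rr hs _ _ _ _) (x_HomAbs_rr hs _ _ _ _)

theorem x_HomAbs_size (hU : Coef X0 ε β U1 U2) (h0 : 0 ≤ ε) (hε : ε ≤ 1 / 1000)
    (hν : ν + 2 * I * β = conj ν') (h : Sol ν ℓ y (cpl U1 U2 y y'))
    (h' : Sol ν' ℓ y' (cpl U1 U2 y' y)) (hX0 : X0 ≤ X) (hX : X ∈ Icc (2 : ℝ) 4) (hs : 1 ≤ s)
    (hT : s ≤ T) (hl : ℓ ^ 2 ≤ T * s) (hn : ‖ν‖ + 4 ≤ T) (hn' : ‖ν'‖ + 4 ≤ T) (hj : j ≤ 4) :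
    rr s ν y X j + rr s ν' y' X j ≤ (30 * T) ^ j * (rr s ν y X 0 + rr s ν' y' X 0) := by
  have p := fun ν y j => x_rr_nonneg (zero_le_one.trans hs) ν y X j
  have := x_seq (T := T) (M := 6) (R := fun j => rr s ν y X j + rr s ν' y' X j) (hs.trans hT)
    (by norm_num) (fun j => add_nonneg (p _ _ _) (p _ _ _)) (fun j hj => by
      have a1 := x_step (ν := ν) (j := j) (h.1.x_mono (by omega)) (by omega) hX hs hT hl hn
      have a2 := x_step (ν := ν') (j := j) (h'.1.x_mono (by omega)) (by omega) hX hs hT hl hn'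
      have a3 := x_HomAbs_src (j := j) hU h0 hν h h'.1 hX0 hX hs (by omega)
      have a4 := x_HomAbs_src (j := j) hU h0 (x_par_swap hν) h' h.1 hX0 hX hs (by omega)
      have a5 : ∑ i ∈ Finset.range (j + 1), (rr s ν' y' X i + rr s ν y X i) =
          ∑ i ∈ Finset.range (j + 1), (rr s ν y X i + rr s ν' y' X i) :=
        Finset.sum_congr rfl fun i _ => add_comm _ _
      have a6 : 0 ≤ ∑ i ∈ Finset.range (j + 1), (rr s ν y X i + rr s ν' y' X i) :=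
        Finset.sum_nonneg fun i _ => add_nonneg (p _ _ _) (p _ _ _)
      rw [a5] at a4
      have a7 := mul_le_mul_of_nonneg_right hε a6
      linarith) j hj
  rwa [show (5 * 6 * T : ℝ) = 30 * T by ring] at this

theorem x_HomAbs_sqrt {K M : ℝ} (hK : 1 ≤ K) (h0 : 0 ≤ ε) (hM : 0 ≤ M) (hs : 1 ≤ s) :
    √(100 * ε ^ 2 * (400 * M ^ 2 / s) * (3 * K * s)) ≤ 400 * K * (ε * M) := by
  refine Real.sqrt_le_iff.2 ⟨by positivity, ?_⟩
  have e : 100 * ε ^ 2 * (400 * M ^ 2 / s) * (3 * K * s) = 120000 * (K * (ε * M) ^ 2) := by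
    field_simp
    ring
  have k1 : K ≤ K ^ 2 := by nlinarith
  have k2 := mul_le_mul_of_nonneg_right k1 (sq_nonneg (ε * M))
  have k3 : 0 ≤ K ^ 2 * (ε * M) ^ 2 := by positivity
  rw [e]
  nlinarith

end

theorem x_hom_abs {K : ℝ} (hK : 1 ≤ K) : ∃ K' : ℝ, 0 ≤ K' ∧ ∀ (X0 ε β ℓ X s T : ℝ)
    (U1 U2 y y' : ℝ → ℂ) (ν ν' : ℂ), Coef X0 ε β U1 U2 → 0 ≤ ε → ε ≤ 1 / 1000 →
    ν + 2 * I * β = conj ν' → -5 / 2 ≤ ν.re → 0 ≤ ℓ → Sol ν ℓ y (cpl U1 U2 y y') →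
    Sol ν' ℓ y' (cpl U1 U2 y' y) → Dec ν y → Dec ν' y' → X0 ≤ X → X ∈ Icc (2 : ℝ) 4 → 1 ≤ s →
    s ≤ T → ℓ ^ 2 ≤ T * s → ‖ν‖ + 4 ≤ T → ‖ν'‖ + 4 ≤ T → ‖NF (ν + 4) ℓ X‖ ≤ K * s →
    ‖dotR (row ν ℓ X) (y X, Lam y X)‖ ≤ K' * ε * T ^ 4 * (rr s ν y X 0 + rr s ν' y' X 0) := by
  refine ⟨(400 * K + 2 * K * (4 * 24)) * 30 ^ 4, by positivity, ?_⟩
  intro X0 ε β ℓ X s T U1 U2 y y' ν ν' hU h0 hε hν hr hl0 h h' d d' hX0 hX hs hT hl hn hn' hN
  have hX' : 0 < X := by linarith [hX.1]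
  have p := fun ν y j => x_rr_nonneg (zero_le_one.trans hs) ν y X j
  have hsz := fun j (hj : j ≤ 4) => x_HomAbs_size hU h0 hε hν h h' hX0 hX hs hT hl hn hn' hj
  obtain ⟨R, hR⟩ : ∃ R, R = rr s ν y X 0 + rr s ν' y' X 0 := ⟨_, rfl⟩
  rw [← hR] at hsz ⊢
  have hR0 : 0 ≤ R := hR ▸ add_nonneg (p _ _ _) (p _ _ _)
  have hT1 : 1 ≤ 30 * T := by linarith
  have hmono : ∀ i j, i ≤ j → j ≤ 4 → rr s ν y X i + rr s ν' y' X i ≤ (30 * T) ^ j * R :=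
    fun i j hi hj => (hsz i (hi.trans hj)).trans
      (mul_le_mul_of_nonneg_right (pow_le_pow_right₀ hT1 hi) hR0)
  have en := x_enA_pair hU h0 hε hν hr h h' d d' hX0 hX hs (M := (30 * T) ^ 4 * R)
    (fun j hj => by linarith [hmono j 4 hj le_rfl, p ν' y' j])
    (fun j hj => by linarith [hmono j 4 hj le_rfl, p ν y j])
  have cP : ContinuousOn (fun Y => ‖PY (ν + 4) ℓ (lad ν 4 y) Y‖ ^ 2 / Y ^ 2) (Ioi 0) :=
    ((Cn.x_PY (n := 0) (Cn.x_lad (n := 2) (h.1.x_mono (by omega)) ν) _ _).x_cont.norm.pow 2).div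
      (continuousOn_id.pow 2) fun _ hY => pow_ne_zero 2 (ne_of_gt hY)
  have cH : ContinuousOn (fun Y => HH ν y Y + HH ν' y' Y) (Ioi 0) :=
    (x_HH_cont (h.1.x_mono (by omega)) ν).add (x_HH_cont (h'.1.x_mono (by omega)) ν')
  have hS := en.x_mono (c := 100 * ε ^ 2) hX' cH cP (by positivity) (fun Y hY => by
    have e := h.x_lad (j := 4) (by omega) (hX'.trans_le hY)
    rw [Nat.cast_ofNat] at e
    rw [e]
    exact x_cpl_sq hU hν (h.1.x_mono (by omega)) (h'.1.x_mono (by omega)) (hX0.trans hY)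
      (hX.1.trans hY)) le_rfl
  refine (x_row (h.1.x_mono (by omega)) hl0 hr hX hs hT hl hn hK hN d hS).trans ?_
  have f2 : ∀ j ∈ Finset.range 4, (8 * T) ^ (3 - j) * ‖PY (ν + j) ℓ (lad ν j y) X‖ ≤
      24 * (ε * ((30 * T) ^ 4 * R)) := by
    intro j hj
    have hj4 := Finset.mem_range.1 hj
    have t1 : ∑ i ∈ Finset.range (j + 1), (rr s ν y X i + rr s ν' y' X i) ≤
        4 * ((30 * T) ^ j * R) := by
      refine (Finset.sum_le_card_nsmul _ _ _ fun i hi =>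
        hmono i j (Nat.lt_succ_iff.1 (Finset.mem_range.1 hi)) hj4.le).trans ?_
      rw [Finset.card_range, nsmul_eq_mul]
      exact mul_le_mul_of_nonneg_right (by exact_mod_cast hj4) (by positivity)
    have t2 : (8 * T) ^ (3 - j) ≤ (30 * T) ^ (4 - j) :=
      (pow_le_pow_left₀ (by linarith) (by linarith) _).trans (pow_le_pow_right₀ hT1 (by omega))
    calc _ ≤ (30 * T) ^ (4 - j) * (6 * ε * (4 * ((30 * T) ^ j * R))) :=
          mul_le_mul t2 ((x_HomAbs_src hU h0 hν h h'.1 hX0 hX hs hj4.le).trans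
            (mul_le_mul_of_nonneg_left t1 (by positivity))) (norm_nonneg _) (by positivity)
      _ = 24 * (ε * (((30 * T) ^ (4 - j) * (30 * T) ^ j) * R)) := by ring
      _ = _ := by rw [← pow_add, Nat.sub_add_cancel hj4.le]
  have f3 := Finset.sum_le_card_nsmul _ _ _ f2
  rw [Finset.card_range, nsmul_eq_mul, Nat.cast_ofNat] at f3
  refine (add_le_add (x_HomAbs_sqrt hK h0 (by positivity) hs)
    (mul_le_mul_of_nonneg_left f3 (by positivity))).trans_eq ?_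
  ring

end Vale.Agent.P139.Xp
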