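import Vale.Agent.P139.X.Lam2

/-! P139 X/Lad: calculus of the ladder.
Plan: inductions on `j`; rewrite under `Lam` with `x_Lam_congr` (the induction hypothesis must be
quantified over all `X > 0`). -/

noncomputable section

open MeasureTheory Filter Topology Set Complex Asymptotics
open scoped ComplexConjugate ContDiff

namespace Vale.Agent.P139.Xp

variable {u v : ℝ → ℂ} {n j : ℕ} {X X0 : ℝ} {ν : ℂ} {ℓ : ℝ}

theorem Cn.x_lad (h : Cn (n + j) u) (ν : ℂ) : Cn n (lad ν j u) := by
  induction j generalizing n with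
  | zero => exact h
  | succ j ih =>
    have h1 : Cn (n + 1) (lad ν j u) := ih (h.x_mono (by omega))
    exact h1.x_Lam.x_add ((h1.x_mono (by omega)).x_cmul _)

theorem x_Lad_diff (h : Cn (j + 1) u) (hX : 0 < X) (ν : ℂ) : DifferentiableAt ℝ (lad ν j u) X :=
  (Cn.x_lad (n := 1) (h.x_mono (by omega)) ν).x_diff hX

theorem x_lad_congr (e : ∀ X, 0 < X → u X = v X) (hX : 0 < X) : lad ν j u X = lad ν j v X := by
  induction j generalizing X with
  | zero => exact e X hX
  | succ j ih =>
    simp only [x_lad_succ]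
    rw [x_Lam_congr (fun X hX => ih hX) hX, ih hX]

theorem x_lad_add (h : Cn j u) (h' : Cn j v) (hX : 0 < X) :
    lad ν j (fun X => u X + v X) X = lad ν j u X + lad ν j v X := by
  induction j generalizing X with
  | zero => rfl
  | succ j ih =>
    have ih' := fun X (hX : 0 < X) => ih (h.x_mono j.le_succ) (h'.x_mono j.le_succ) hX
    simp only [x_lad_succ]
    rw [x_Lam_congr ih' hX, ih' X hX, x_Lam_add (x_Lad_diff h hX ν) (x_Lad_diff h' hX ν)]
    ring

theorem x_lad_sub (h : Cn j u) (h' : Cn j v) (hX : 0 < X) :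
    lad ν j (fun X => u X - v X) X = lad ν j u X - lad ν j v X := by
  induction j generalizing X with
  | zero => rfl
  | succ j ih =>
    have ih' := fun X (hX : 0 < X) => ih (h.x_mono j.le_succ) (h'.x_mono j.le_succ) hX
    simp only [x_lad_succ]
    rw [x_Lam_congr ih' hX, ih' X hX, x_Lam_sub (x_Lad_diff h hX ν) (x_Lad_diff h' hX ν)]
    ring

theorem x_lad_cmul (ν : ℂ) (j : ℕ) (c : ℂ) (u : ℝ → ℂ) :
    lad ν j (fun X => c * u X) = fun X => c * lad ν j u X := by
  induction j with
  | zero => rfl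
  | succ j ih =>
    funext X
    simp only [x_lad_succ, ih, x_Lam_cmul]
    ring

theorem x_lad_conj (ν : ℂ) (j : ℕ) (u : ℝ → ℂ) :
    lad (conj ν) j (fun X => conj (u X)) = fun X => conj (lad ν j u X) := by
  induction j with
  | zero => rfl
  | succ j ih =>
    funext X
    simp only [x_lad_succ, ih, x_Lam_conj, map_add, map_mul, map_natCast]

theorem x_lad_Lam (h : Cn (j + 1) u) (hX : 0 < X) :
    lad ν j (Lam u) X = Lam (lad ν j u) X := by
  induction j generalizing X with
  | zero => rfl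
  | succ j ih =>
    have ih' := fun X (hX : 0 < X) => ih (h.x_mono (by omega)) hX
    have h2 : Cn 2 (lad ν j u) := Cn.x_lad (h.x_mono (by omega)) ν
    simp only [x_lad_succ]
    rw [x_Lam_congr ih' hX, ih' X hX,
      x_Lam_add (h2.x_Lam.x_diff hX) ((h2.x_diff hX).const_mul _), x_Lam_cmul]

theorem x_lad_lin (h : Cn (j + 1) u) (hX : 0 < X) (α γ : ℂ) :
    lad ν j (lin α γ u) X = lin α γ (lad ν j u) X := by
  unfold lin
  rw [x_lad_add (h.x_Lam.x_cmul α) ((h.x_mono j.le_succ).x_cmul γ) hX, x_lad_cmul, x_lad_cmul]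
  simp only [x_lad_Lam h hX]

theorem x_lad_pw (h : Cn j u) (h0 : 0 < X0) (hX : 0 < X) (κ : ℂ) :
    lad ν j (pw X0 κ u) X = pw X0 κ (lad (ν + κ) j u) X := by
  induction j generalizing X with
  | zero => rfl
  | succ j ih =>
    have ih' := fun X (hX : 0 < X) => ih (h.x_mono j.le_succ) hX
    simp only [x_lad_succ]
    rw [x_Lam_congr ih' hX, ih' X hX, x_Lam_pw (x_Lad_diff h hX _) h0 hX]
    simp only [pw]
    ring

theorem x_Lam_lad_succ (h : Cn (j + 2) u) (hX : 0 < X) : Lam (lad ν (j + 1) u) X =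
    Lam (Lam (lad ν j u)) X + (ν + j) * Lam (lad ν j u) X := by
  have h2 : Cn 2 (lad ν j u) := Cn.x_lad (h.x_mono (by omega)) ν
  rw [x_lad_succ, x_Lam_add (h2.x_Lam.x_diff hX) ((h2.x_diff hX).const_mul _), x_Lam_cmul]

end Vale.Agent.P139.Xp
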