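import Vale.Agent.P139.X.Defs

/-! P139 X/Lam: calculus of `Lam`, `Cn`, `pw`, `lin`.
Plan: `ContDiffOn.deriv_of_isOpen`, `ContDiffOn.differentiableOn` and `isOpen_Ioi.mem_nhds`;
`Filter.EventuallyEq.deriv_eq` for the congruence; `deriv_fun_add`, `deriv_fun_mul`,
`deriv_const_mul_field`, `HasDerivAt.star` / `deriv.star` (or `conjCLE`). -/

noncomputable section

open MeasureTheory Filter Topology Set Complex Asymptotics
open scoped ComplexConjugate ContDiff

namespace Vale.Agent.P139.Xp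

variable {u v : ℝ → ℂ} {n : ℕ} {X X0 : ℝ} {κ α γ c : ℂ}

theorem Cn.x_mono {k : ℕ} (h : Cn n u) (hk : k ≤ n) : Cn k u :=
  ContDiffOn.of_le h (by exact_mod_cast hk)

theorem Cn.x_congr (h : Cn n u) (e : ∀ X, 0 < X → v X = u X) : Cn n v :=
  ContDiffOn.congr h e

theorem Cn.x_cont (h : Cn n u) : ContinuousOn u (Ioi 0) := ContDiffOn.continuousOn h

theorem Cn.x_diff (h : Cn (n + 1) u) (hX : 0 < X) : DifferentiableAt ℝ u X :=
  (ContDiffOn.differentiableOn h (by simp)).differentiableAt (isOpen_Ioi.mem_nhds hX)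

theorem Cn.x_hasDerivAt (h : Cn (n + 1) u) (hX : 0 < X) : HasDerivAt u (Lam u X / X) X := by
  rw [Lam, mul_div_cancel_left₀ _ (ofReal_ne_zero.2 hX.ne')]
  exact (h.x_diff hX).hasDerivAt

theorem Cn.x_Lam (h : Cn (n + 1) u) : Cn n (Lam u) :=
  ofRealCLM.contDiff.contDiffOn.mul
    (ContDiffOn.deriv_of_isOpen h isOpen_Ioi (by exact_mod_cast le_rfl))

theorem Cn.x_add (h : Cn n u) (h' : Cn n v) : Cn n fun X => u X + v X := ContDiffOn.add h h'

theorem Cn.x_sub (h : Cn n u) (h' : Cn n v) : Cn n fun X => u X - v X := ContDiffOn.sub h h'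

theorem Cn.x_mul (h : Cn n u) (h' : Cn n v) : Cn n fun X => u X * v X := ContDiffOn.mul h h'

theorem Cn.x_cmul (h : Cn n u) (c : ℂ) : Cn n fun X => c * u X :=
  ContDiffOn.mul contDiffOn_const h

theorem Cn.x_conj (h : Cn n u) : Cn n fun X => conj (u X) :=
  conjCLE.contDiff.comp_contDiffOn h

theorem x_Cn_const (n : ℕ) (c : ℂ) : Cn n fun _ => c := contDiffOn_const

theorem x_Cn_id (n : ℕ) : Cn n fun X => (X : ℂ) := ofRealCLM.contDiff.contDiffOn

theorem Cn.x_lin (h : Cn (n + 1) u) (α γ : ℂ) : Cn n (lin α γ u) :=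
  (h.x_Lam.x_cmul α).x_add ((h.x_mono n.le_succ).x_cmul γ)

theorem Cn.x_cpl {U1 U2 : ℝ → ℂ} (h1 : Cn n U1) (h2 : Cn n U2) (h : Cn n u) (h' : Cn n v) :
    Cn n (cpl U1 U2 u v) := (h1.x_mul h).x_add (h2.x_mul h'.x_conj)

theorem Cn.x_PY (h : Cn (n + 2) u) (ν : ℂ) (ℓ : ℝ) : Cn n (PY ν ℓ u) :=
  ((Cn.x_Lam (n := n + 1) h).x_Lam.x_sub ((h.x_mono (n.le_add_right 2)).x_cmul _)).x_add
    (((x_Cn_id n).x_cmul I).x_mul (((Cn.x_Lam (n := n + 1) h).x_mono n.le_succ).x_add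
      ((h.x_mono (n.le_add_right 2)).x_cmul ν)))

theorem x_Lam_congr (e : ∀ X, 0 < X → u X = v X) (hX : 0 < X) : Lam u X = Lam v X := by
  rw [Lam, Lam, EventuallyEq.deriv_eq ((eventually_gt_nhds hX).mono e)]

theorem x_Lam_add (h : DifferentiableAt ℝ u X) (h' : DifferentiableAt ℝ v X) :
    Lam (fun X => u X + v X) X = Lam u X + Lam v X := by
  rw [Lam, Lam, Lam, deriv_fun_add h h', mul_add]

theorem x_Lam_sub (h : DifferentiableAt ℝ u X) (h' : DifferentiableAt ℝ v X) :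
    Lam (fun X => u X - v X) X = Lam u X - Lam v X := by
  rw [Lam, Lam, Lam, deriv_fun_sub h h', mul_sub]

theorem x_Lam_mul (h : DifferentiableAt ℝ u X) (h' : DifferentiableAt ℝ v X) :
    Lam (fun X => u X * v X) X = Lam u X * v X + u X * Lam v X := by
  rw [Lam, Lam, Lam, deriv_fun_mul h h']
  ring

theorem x_Lam_cmul (c : ℂ) (u : ℝ → ℂ) (X : ℝ) : Lam (fun X => c * u X) X = c * Lam u X := by
  rw [Lam, Lam, deriv_const_mul_field, mul_left_comm]

theorem x_Lam_conj (u : ℝ → ℂ) (X : ℝ) : Lam (fun X => conj (u X)) X = conj (Lam u X) := by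
  have h : deriv (fun X => conj (u X)) X = conj (deriv u X) := deriv.star
  rw [Lam, Lam, h, map_mul, conj_ofReal]

theorem x_Lam_const (c : ℂ) (X : ℝ) : Lam (fun _ => c) X = 0 := by
  rw [Lam, deriv_const, mul_zero]

theorem x_Lam_id (X : ℝ) : Lam (fun X => (X : ℂ)) X = X := by
  rw [Lam, (hasDerivAt_id' X).ofReal_comp.deriv, ofReal_one, mul_one]

end Vale.Agent.P139.Xp
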