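import Vale.Agent.P139.X.Lam

/-! P139 X/Lam2: powers and the operator `PY`.
Plan: `(X / X0) ^ κ`: `HasDerivAt.cpow_const` after `HasDerivAt.ofReal_comp`, or write it as
`exp (κ * log (X / X0))` on the half line; `Complex.conj_cpow` / `cpow_conj`, `Complex.cpow_add`.
For `PY`: rewrite the inner `Lam` on the half line with `x_Lam_congr`, then `x_Lam_add`, `x_Lam_mul`, `ring`. -/

noncomputable section

open MeasureTheory Filter Topology Set Complex Asymptotics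
open scoped ComplexConjugate ContDiff

namespace Vale.Agent.P139.Xp

variable {u v : ℝ → ℂ} {n : ℕ} {X X0 : ℝ} {κ α γ c : ℂ}

theorem Cn.x_pw (h : Cn n u) (h0 : 0 < X0) (κ : ℂ) : Cn n (pw X0 κ u) := by
  refine Cn.x_mul (u := fun X => ((X / X0 : ℝ) : ℂ) ^ κ) ?_ h
  refine Cn.x_congr (u := fun X => exp (κ * (Real.log (X / X0) : ℂ))) ?_ fun X hX => ?_
  · refine ContDiffOn.cexp (contDiffOn_const.mul (ofRealCLM.contDiff.comp_contDiffOn ?_))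
    exact (contDiffOn_id.div_const X0).log fun X hX => (div_pos hX h0).ne'
  · rw [cpow_def_of_ne_zero (ofReal_ne_zero.2 (div_pos hX h0).ne'), mul_comm,
      ofReal_log (div_pos hX h0).le]

theorem x_Lam_pw (h : DifferentiableAt ℝ u X) (h0 : 0 < X0) (hX : 0 < X) (κ : ℂ) :
    Lam (pw X0 κ u) X = ((X / X0 : ℝ) : ℂ) ^ κ * (Lam u X + κ * u X) := by
  have hp := div_pos hX h0
  have h1 : HasDerivAt (fun X : ℝ => ((X / X0 : ℝ) : ℂ) ^ κ)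
      (κ * ((X / X0 : ℝ) : ℂ) ^ (κ - 1) * ((1 / X0 : ℝ) : ℂ)) X := by
    have a := (hasStrictDerivAt_cpow_const (c := κ) (ofReal_mem_slitPlane.2 hp)).hasDerivAt.comp_ofReal
    have b := a.scomp X ((hasDerivAt_id' X).div_const X0)
    exact b.congr_deriv (by rw [real_smul]; ring)
  have h2 : Lam (fun X : ℝ => ((X / X0 : ℝ) : ℂ) ^ κ) X = κ * ((X / X0 : ℝ) : ℂ) ^ κ := by
    have a1 : (X : ℂ) ≠ 0 := ofReal_ne_zero.2 hX.ne'
    have a2 : (X0 : ℂ) ≠ 0 := ofReal_ne_zero.2 h0.ne'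
    rw [Lam, h1.deriv, cpow_sub _ _ (ofReal_ne_zero.2 hp.ne'), cpow_one]
    generalize ((X / X0 : ℝ) : ℂ) ^ κ = ρ
    push_cast
    field_simp
  unfold pw
  rw [x_Lam_mul h1.differentiableAt h, h2]
  ring

theorem x_pw_self (h0 : 0 < X0) (κ : ℂ) (u : ℝ → ℂ) : pw X0 κ u X0 = u X0 := by
  simp [pw, div_self h0.ne']

theorem x_conj_pow (h0 : 0 < X0) (hX : 0 < X) (κ : ℂ) :
    conj (((X / X0 : ℝ) : ℂ) ^ κ) = ((X / X0 : ℝ) : ℂ) ^ conj κ := by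
  rw [cpow_conj _ _ (by rw [arg_ofReal_of_nonneg (div_pos hX h0).le]; exact Real.pi_pos.ne),
    conj_ofReal]

theorem x_pow_add (h0 : 0 < X0) (hX : 0 < X) (κ κ' : ℂ) :
    ((X / X0 : ℝ) : ℂ) ^ (κ + κ') = ((X / X0 : ℝ) : ℂ) ^ κ * ((X / X0 : ℝ) : ℂ) ^ κ' := by
  exact cpow_add _ _ (ofReal_ne_zero.2 (div_pos hX h0).ne')

/-- Second derivatives in terms of `Lam`. -/
theorem x_Lam_Lam (h : Cn 2 u) (hX : 0 < X) :
    Lam (Lam u) X = (X : ℂ) ^ 2 * deriv (deriv u) X + Lam u X := by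
  have h1 : DifferentiableAt ℝ (deriv u) X :=
    Cn.x_diff (n := 0) (ContDiffOn.deriv_of_isOpen h isOpen_Ioi (by norm_num)) hX
  have h2 := x_Lam_mul (u := fun X => (X : ℂ)) ofRealCLM.differentiableAt h1
  rw [x_Lam_id] at h2
  refine h2.trans ?_
  simp only [Lam]
  ring

theorem x_PY_congr {ν : ℂ} {ℓ : ℝ} (e : ∀ X, 0 < X → u X = v X) (hX : 0 < X) :
    PY ν ℓ u X = PY ν ℓ v X := by
  unfold PY
  rw [x_Lam_congr (fun X hX => x_Lam_congr e hX) hX, x_Lam_congr e hX, e X hX]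

theorem x_PY_sub {ν : ℂ} {ℓ : ℝ} (h : Cn 2 u) (h' : Cn 2 v) (hX : 0 < X) :
    PY ν ℓ (fun X => u X - v X) X = PY ν ℓ u X - PY ν ℓ v X := by
  unfold PY
  rw [x_Lam_congr (fun X hX => x_Lam_sub (h.x_diff hX) (h'.x_diff hX)) hX,
    x_Lam_sub (h.x_Lam.x_diff hX) (h'.x_Lam.x_diff hX), x_Lam_sub (h.x_diff hX) (h'.x_diff hX)]
  ring

theorem x_PY_cmul (ν : ℂ) (ℓ : ℝ) (c : ℂ) (u : ℝ → ℂ) (X : ℝ) :
    PY ν ℓ (fun X => c * u X) X = c * PY ν ℓ u X := by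
  unfold PY
  rw [show Lam (fun X => c * u X) = fun X => c * Lam u X from funext (x_Lam_cmul c u), x_Lam_cmul]
  ring

theorem x_PY_mul {ν : ℂ} {ℓ : ℝ} (h : Cn 2 u) (h' : Cn 2 v) (hX : 0 < X) :
    PY ν ℓ (fun X => u X * v X) X = u X * PY ν ℓ v X + I * X * Lam u X * v X +
      2 * Lam u X * Lam v X + Lam (Lam u) X * v X := by
  unfold PY
  have a1 := h.x_diff hX
  have a2 := h'.x_diff hX
  have b1 := h.x_Lam.x_diff hX
  have b2 := h'.x_Lam.x_diff hX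
  rw [x_Lam_congr (fun X hX => x_Lam_mul (h.x_diff hX) (h'.x_diff hX)) hX,
    x_Lam_add (b1.fun_mul a2) (a1.fun_mul b2), x_Lam_mul b1 a2, x_Lam_mul a1 b2, x_Lam_mul a1 a2]
  ring

theorem x_PY_pw {ν : ℂ} {ℓ : ℝ} (h : Cn 2 u) (h0 : 0 < X0) (hX : 0 < X) (κ : ℂ) :
    PY ν ℓ (pw X0 κ u) X = ((X / X0 : ℝ) : ℂ) ^ κ * PY (ν + κ) ℓ u X +
      lin (2 * κ) (-κ ^ 2) (pw X0 κ u) X := by
  have a1 := h.x_diff hX
  have b1 := h.x_Lam.x_diff hX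
  have e : Lam (Lam (pw X0 κ u)) X = Lam (pw X0 κ fun X => Lam u X + κ * u X) X :=
    x_Lam_congr (fun X hX => x_Lam_pw (h.x_diff hX) h0 hX κ) hX
  unfold PY lin
  rw [e, x_Lam_pw (b1.fun_add (a1.const_mul κ)) h0 hX, x_Lam_add b1 (a1.const_mul κ), x_Lam_cmul,
    x_Lam_pw a1 h0 hX, pw]
  ring

end Vale.Agent.P139.Xp
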