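import Vale.Agent.P139.X.Lam2

/-! P139 X/Sy: the symbol classes.
Plan: inductions on `n` generalizing the functions. First: a property that holds eventually at top
holds, eventually at top, in a neighbourhood (`Ioi a` is open), hence `u =ᶠ[atTop] v` gives
`Lam u =ᶠ[atTop] Lam v` (`Filter.EventuallyEq.deriv_eq`) and transfers differentiability.
Then use `x_Lam_add`, `x_Lam_mul`, ... eventually. `Real.rpow_add`, `IsBigO.mul`. -/

noncomputable section

open MeasureTheory Filter Topology Set Complex Asymptotics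
open scoped ComplexConjugate ContDiff

namespace Vale.Agent.P139.Xp

variable {u v : ℝ → ℂ} {n : ℕ} {r r' : ℝ}

theorem x_Sy_nhds {p : ℝ → Prop} (h : ∀ᶠ X in atTop, p X) : ∀ᶠ X in atTop, ∀ᶠ Y in 𝓝 X, p Y := by
  obtain ⟨a, ha⟩ := eventually_atTop.1 h
  filter_upwards [eventually_gt_atTop a] with X hX
  filter_upwards [Ioi_mem_nhds hX] with Y hY using ha Y (le_of_lt hY)

theorem Sy.x_bigO (h : Sy r n u) : u =O[atTop] fun X : ℝ => X ^ r := by
  cases n with
  | zero => exact h
  | succ n => exact h.1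

theorem Sy.x_Lam (h : Sy r (n + 1) u) : Sy r n (Lam u) := h.2.2

theorem Sy.x_mono {k : ℕ} (h : Sy r n u) (hk : k ≤ n) : Sy r k u := by
  induction k generalizing n u with
  | zero => exact h.x_bigO
  | succ k ih =>
    obtain ⟨n, rfl⟩ : ∃ m, n = m + 1 := ⟨n - 1, by omega⟩
    exact ⟨h.1, h.2.1, ih h.2.2 (by omega)⟩

theorem Sy.x_mono_r (h : Sy r n u) (hr : r ≤ r') : Sy r' n u := by
  have e : (fun X : ℝ => X ^ r) =O[atTop] fun X : ℝ => X ^ r' :=
    IsBigO.of_bound 1 ((eventually_ge_atTop 1).mono fun X hX => by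
      rw [one_mul, Real.norm_of_nonneg (by positivity), Real.norm_of_nonneg (by positivity)]
      exact Real.rpow_le_rpow_of_exponent_le hX hr)
  induction n generalizing u with
  | zero => exact IsBigO.trans h e
  | succ n ih => exact ⟨h.1.trans e, h.2.1, ih h.2.2⟩

theorem Sy.x_congr (h : Sy r n u) (e : v =ᶠ[atTop] u) : Sy r n v := by
  induction n generalizing u v with
  | zero => exact IsBigO.congr' h e.symm EventuallyEq.rfl
  | succ n ih =>
    refine ⟨h.1.congr' e.symm EventuallyEq.rfl, ?_, ih h.2.2 ?_⟩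
    · filter_upwards [x_Sy_nhds e, h.2.1] with X h1 h2
      exact h2.congr_of_eventuallyEq h1
    · filter_upwards [x_Sy_nhds e] with X h1
      simp only [Lam, Filter.EventuallyEq.deriv_eq h1]

theorem Sy.x_congr' (h : Sy r n u) (e : ∀ X, 0 < X → v X = u X) : Sy r n v :=
  h.x_congr ((eventually_gt_atTop 0).mono e)

theorem Sy.x_add (h : Sy r n u) (h' : Sy r n v) : Sy r n fun X => u X + v X := by
  induction n generalizing u v with
  | zero => exact IsBigO.add h h'
  | succ n ih =>
    refine ⟨h.1.add h'.1, (h.2.1.and h'.2.1).mono fun X hX => hX.1.add hX.2,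
      (ih h.2.2 h'.2.2).x_congr ((h.2.1.and h'.2.1).mono fun X hX => x_Lam_add hX.1 hX.2)⟩

theorem Sy.x_cmul (h : Sy r n u) (c : ℂ) : Sy r n fun X => c * u X := by
  induction n generalizing u with
  | zero => exact IsBigO.const_mul_left h c
  | succ n ih =>
    exact ⟨h.1.const_mul_left c, h.2.1.mono fun X hX => hX.const_mul c,
      (ih h.2.2).x_congr (Eventually.of_forall fun X => x_Lam_cmul c u X)⟩

theorem Sy.x_sub (h : Sy r n u) (h' : Sy r n v) : Sy r n fun X => u X - v X := by
  exact (h.x_add (h'.x_cmul (-1))).x_congr (Eventually.of_forall fun X => by ring)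

theorem Sy.x_mul (h : Sy r n u) (h' : Sy r' n v) : Sy (r + r') n fun X => u X * v X := by
  have b : ∀ {u v : ℝ → ℂ}, (u =O[atTop] fun X : ℝ => X ^ r) → (v =O[atTop] fun X : ℝ => X ^ r') →
      (fun X => u X * v X) =O[atTop] fun X : ℝ => X ^ (r + r') := fun a b =>
    (a.mul b).congr' EventuallyEq.rfl ((eventually_gt_atTop 0).mono fun X hX =>
      (Real.rpow_add hX r r').symm)
  induction n generalizing u v with
  | zero => exact b h h'
  | succ n ih =>
    exact ⟨b h.1 h'.1, (h.2.1.and h'.2.1).mono fun X hX => hX.1.mul hX.2,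
      ((ih h.2.2 (h'.x_mono n.le_succ)).x_add (ih (h.x_mono n.le_succ) h'.2.2)).x_congr
        ((h.2.1.and h'.2.1).mono fun X hX => x_Lam_mul hX.1 hX.2)⟩

theorem Sy.x_conj (h : Sy r n u) : Sy r n fun X => conj (u X) := by
  have b : ∀ {u : ℝ → ℂ}, (u =O[atTop] fun X : ℝ => X ^ r) →
      (fun X => conj (u X)) =O[atTop] fun X : ℝ => X ^ r := fun a =>
    isBigO_norm_left.1 (by simpa only [Complex.norm_conj] using a.norm_left)
  induction n generalizing u with
  | zero => exact b h
  | succ n ih =>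
    exact ⟨b h.1, h.2.1.mono fun X hX => hX.star,
      (ih h.2.2).x_congr (Eventually.of_forall fun X => x_Lam_conj u X)⟩

theorem x_Sy_zero (r : ℝ) (n : ℕ) : Sy r n fun _ => 0 := by
  induction n with
  | zero => exact isBigO_zero _ _
  | succ n ih =>
    exact ⟨isBigO_zero _ _, Eventually.of_forall fun X => differentiableAt_const _,
      ih.x_congr (Eventually.of_forall fun X => x_Lam_const 0 X)⟩

theorem x_Sy_sum {s : Finset ℕ} {w : ℕ → ℝ → ℂ} (h : ∀ i ∈ s, Sy r n (w i)) :
    Sy r n fun X => ∑ i ∈ s, w i X := by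
  induction s using Finset.induction_on with
  | empty => simpa using x_Sy_zero r n
  | insert a s ha ih =>
    simp only [Finset.sum_insert ha]
    exact (h a (Finset.mem_insert_self _ _)).x_add (ih fun i hi => h i (Finset.mem_insert_of_mem hi))

end Vale.Agent.P139.Xp
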