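import Vale.Agent.P139.X.Sy

/-! P139 X/Sy2: more symbols.
Plan: `Sy.x_pw`: `Sy κ.re n ((X / X0) ^ κ)` by induction (`x_Lam_pw` with `u = 1`,
`Complex.norm_cpow_eq_rpow_re_of_pos`, `Real.div_rpow`), then `Sy.x_mul`; `u / X = pw 1 (-1) u`.
`x_Sy_iter`: prove `Sy 0 n (X ^ j * iteratedDeriv j u)` for `j + n ≤ N`, as
`Λ (X^j u^(j)) = j X^j u^(j) + X^(j+1) u^(j+1)` (`iteratedDeriv_succ`; `Cn (N - j) (iteratedDeriv j u)` by
induction with `ContDiffOn.deriv_of_isOpen`). -/

noncomputable section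

open MeasureTheory Filter Topology Set Complex Asymptotics
open scoped ComplexConjugate ContDiff

namespace Vale.Agent.P139.Xp

variable {u v : ℝ → ℂ} {n : ℕ} {r r' : ℝ}

theorem Sy.x_pw (h : Sy r n u) {X0 : ℝ} (h0 : 0 < X0) (κ : ℂ) :
    Sy (r + κ.re) n (pw X0 κ u) := by
  have key : Sy κ.re n (pw X0 κ fun _ => 1) := by
    have b : (pw X0 κ fun _ => 1) =O[atTop] fun X : ℝ => X ^ κ.re :=
      IsBigO.of_bound (X0 ^ κ.re)⁻¹ ((eventually_gt_atTop 0).mono fun X hX => by
        rw [pw, mul_one, Complex.norm_cpow_eq_rpow_re_of_pos (div_pos hX h0),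
          Real.div_rpow hX.le h0.le, Real.norm_of_nonneg (by positivity), div_eq_inv_mul])
    clear h
    induction n with
    | zero => exact b
    | succ n ih =>
      refine ⟨b, (eventually_gt_atTop 0).mono fun X hX =>
        ((x_Cn_const 1 1).x_pw h0 κ).x_diff hX, (ih.x_cmul κ).x_congr' fun X hX => ?_⟩
      rw [x_Lam_pw (differentiableAt_const _) h0 hX, x_Lam_const, pw]
      ring
  exact (h.x_mul key).x_congr' fun X _ => by simp only [pw]; ring

theorem Sy.x_div (h : Sy r n u) : Sy (r - 1) n fun X => u X / X := by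
  refine ((h.x_pw one_pos (-1)).x_mono_r (by simp [sub_eq_add_neg])).x_congr' fun X _ => ?_
  simp only [pw, div_one, cpow_neg_one]
  ring

theorem Sy.x_lin (h : Sy r (n + 1) u) (α γ : ℂ) : Sy r n (lin α γ u) := by
  exact (h.x_Lam.x_cmul α).x_add ((h.x_mono n.le_succ).x_cmul γ)

theorem Sy.x_tendsto (h : Sy r n u) (hr : r < 0) : Tendsto u atTop (𝓝 0) := by
  refine h.x_bigO.trans_tendsto ?_
  simpa using tendsto_rpow_neg_atTop (neg_pos.2 hr)

/-- Solutions of `Λ k = d k + c`. -/
theorem x_Sy_ode {d c : ℂ} (hr : 0 ≤ r) (h : u =O[atTop] fun X : ℝ => X ^ r)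
    (hd : ∀ X, 0 < X → DifferentiableAt ℝ u X) (he : ∀ X, 0 < X → Lam u X = d * u X + c) (n : ℕ) :
    Sy r n u := by
  have hc : ∀ n, Sy r n fun _ => c := by
    have b : (fun _ : ℝ => c) =O[atTop] fun X : ℝ => X ^ r :=
      IsBigO.of_bound ‖c‖ ((eventually_ge_atTop 1).mono fun X hX => by
        rw [Real.norm_of_nonneg (by positivity)]
        exact le_mul_of_one_le_right (norm_nonneg _) (Real.one_le_rpow hX hr))
    intro n
    cases n with
    | zero => exact b
    | succ n =>
      exact ⟨b, Eventually.of_forall fun X => differentiableAt_const _,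
        (x_Sy_zero r n).x_congr' fun X _ => x_Lam_const c X⟩
  induction n with
  | zero => exact h
  | succ n ih =>
    exact ⟨h, (eventually_gt_atTop 0).mono hd, ((ih.x_cmul d).x_add (hc n)).x_congr' he⟩

theorem x_Sy_iter {N : ℕ} (h : Cn N u)
    (hb : ∀ j ≤ N, ∃ C, ∀ X : ℝ, 1 ≤ X → ‖iteratedDeriv j u X‖ ≤ C * X ^ (-(j : ℝ))) :
    Sy 0 N u := by
  have hc : ∀ j n, j + n ≤ N → Cn n (iteratedDeriv j u) := by
    intro j
    induction j with
    | zero => exact fun n hn => by simpa using h.x_mono (by omega)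
    | succ j ih =>
      intro n hn
      rw [iteratedDeriv_succ]
      exact ContDiffOn.deriv_of_isOpen (ih (n + 1) (by omega)) isOpen_Ioi (by norm_cast)
  have b : ∀ j ≤ N, (fun X : ℝ => (X : ℂ) ^ j * iteratedDeriv j u X) =O[atTop]
      fun X : ℝ => X ^ (0 : ℝ) := by
    intro j hj
    obtain ⟨C, hC⟩ := hb j hj
    refine IsBigO.of_bound C ((eventually_ge_atTop 1).mono fun X hX => ?_)
    have hX' : 0 < X := by linarith
    rw [Real.rpow_zero, norm_one, mul_one, norm_mul, norm_pow, Complex.norm_real,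
      Real.norm_of_nonneg hX'.le]
    refine (mul_le_mul_of_nonneg_left (hC X hX) (by positivity)).trans_eq ?_
    rw [Real.rpow_neg hX'.le, Real.rpow_natCast]
    field_simp
  have key : ∀ n j, j + n ≤ N → Sy 0 n fun X : ℝ => (X : ℂ) ^ j * iteratedDeriv j u X := by
    intro n
    induction n with
    | zero => exact fun j hj => b j hj
    | succ n ih =>
      intro j hj
      have d1 : ∀ X : ℝ, HasDerivAt (fun X : ℝ => (X : ℂ) ^ j) (j * (X : ℂ) ^ (j - 1)) X := fun X =>
        (ofRealCLM.hasDerivAt.pow j).congr_deriv (by simp)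
      have d2 := fun X (hX : 0 < X) => (hc j 1 (by omega)).x_diff hX
      refine ⟨b j (by omega), (eventually_gt_atTop 0).mono fun X hX =>
        (d1 X).differentiableAt.mul (d2 X hX),
        (((ih j (by omega)).x_cmul j).x_add (ih (j + 1) (by omega))).x_congr' fun X hX => ?_⟩
      rw [x_Lam_mul (d1 X).differentiableAt (d2 X hX), Lam, Lam, (d1 X).deriv, iteratedDeriv_succ]
      rcases j with _ | j
      · simp
      · rw [Nat.add_sub_cancel]
        ring
  simpa using key N 0 (by omega)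

end Vale.Agent.P139.Xp
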